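/-
P162 (Thorp shuffle), basic definitions shared by all modules (helper22).
See notes/P162_plan.md.
-/
import Mathlib

namespace P162

open scoped BigOperators

/-- `ρ` is an orthogonal (isometric) representation. -/
def IsOrth {Ω : Type*} {E : Type*} [NormedAddCommGroup E] [InnerProductSpace ℝ E]
    (ρ : Equiv.Perm Ω →* (E →L[ℝ] E)) : Prop :=
  ∀ (g : Equiv.Perm Ω) (v : E), ‖ρ g v‖ = ‖v‖

/-- Normalised Laplacian of the complete graph on `Ω` in the representation `ρ`:
`(1/(2|Ω|)) * Σ_{x,y} (1 - ρ (x y))`. -/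
noncomputable def Lap {Ω : Type*} [Fintype Ω] [DecidableEq Ω] {E : Type*}
    [NormedAddCommGroup E] [InnerProductSpace ℝ E]
    (ρ : Equiv.Perm Ω →* (E →L[ℝ] E)) : E →L[ℝ] E :=
  (1 / (2 * (Fintype.card Ω : ℝ))) • ∑ x : Ω, ∑ y : Ω, (1 - ρ (Equiv.swap x y))

/-- Flip the `Bool` coordinate over those `p` with `ω p = true`. -/
def flips {κ : Type*} (ω : κ → Bool) : Equiv.Perm (κ × Bool) where
  toFun z := (z.1, xor z.2 (ω z.1))
  invFun z := (z.1, xor z.2 (ω z.1))
  left_inv z := by simp
  right_inv z := by simp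

/-- Average of `ρ` over all flips. -/
noncomputable def Qop {κ : Type*} [Fintype κ] [DecidableEq κ] {E : Type*}
    [NormedAddCommGroup E] [InnerProductSpace ℝ E]
    (ρ : Equiv.Perm (κ × Bool) →* (E →L[ℝ] E)) : E →L[ℝ] E :=
  (1 / (2 : ℝ) ^ Fintype.card κ) • ∑ ω : κ → Bool, ρ (flips ω)

/-- A permutation of `κ` acting on the slice `κ × {b}` of `κ × Bool`. -/
def half {κ : Type*} (b : Bool) : Equiv.Perm κ →* Equiv.Perm (κ × Bool) where
  toFun g := Equiv.prodCongrLeft (fun c => if c = b then g else 1)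
  map_one' := by
    ext z <;> simp
  map_mul' g h := by
    ext z
    · by_cases hz : z.2 = b <;> simp [Equiv.prodCongrLeft, hz]
    · simp [Equiv.prodCongrLeft]

/-- The `i`-dimensional cube as a nested product. -/
def Cube : ℕ → Type
  | 0 => Unit
  | (i + 1) => Cube i × Bool

instance instFintypeCube : (i : ℕ) → Fintype (Cube i)
  | 0 => inferInstanceAs (Fintype Unit)
  | (i + 1) =>
    haveI := instFintypeCube i
    inferInstanceAs (Fintype (Cube i × Bool))

instance instDecidableEqCube : (i : ℕ) → DecidableEq (Cube i)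
  | 0 => inferInstanceAs (DecidableEq Unit)
  | (i + 1) =>
    haveI := instDecidableEqCube i
    inferInstanceAs (DecidableEq (Cube i × Bool))

instance instNonemptyCube : (i : ℕ) → Nonempty (Cube i)
  | 0 => inferInstanceAs (Nonempty Unit)
  | (i + 1) =>
    haveI := instNonemptyCube i
    inferInstanceAs (Nonempty (Cube i × Bool))

/-- One round of the butterfly on the `i`-cube: recursively
`R_{i+1} = R_i(lower half) * R_i(upper half) * Q`. -/
noncomputable def Rop {E : Type*} [NormedAddCommGroup E] [InnerProductSpace ℝ E] :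
    (i : ℕ) → (Equiv.Perm (Cube i) →* (E →L[ℝ] E)) → (E →L[ℝ] E)
  | 0, _ => 1
  | (i + 1), ρ =>
    Rop i (MonoidHom.comp (M := Equiv.Perm (Cube i)) (N := Equiv.Perm (Cube i × Bool)) ρ
        (half false)) *
      Rop i (MonoidHom.comp (M := Equiv.Perm (Cube i)) (N := Equiv.Perm (Cube i × Bool)) ρ
        (half true)) *
      Qop (κ := Cube i) ρ

end P162
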