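/-
P162 (Thorp shuffle), module Basic (helper22): isometric representations of `Perm Ω`.
-/
import Vale.Agent.P162.Defs

namespace P162

open scoped BigOperators

section basic

variable {Ω : Type*} {E : Type*} [NormedAddCommGroup E] [InnerProductSpace ℝ E]
  {ρ : Equiv.Perm Ω →* (E →L[ℝ] E)}

theorem inner_rho (hρ : IsOrth ρ) (g : Equiv.Perm Ω) (u v : E) :
    inner ℝ (ρ g u) (ρ g v) = inner ℝ u v :=
  LinearIsometry.inner_map_map
    ({ toLinearMap := (ρ g : E →ₗ[ℝ] E), norm_map' := hρ g } : E →ₗᵢ[ℝ] E) u v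

theorem rho_mul_apply (g h : Equiv.Perm Ω) (v : E) : ρ (g * h) v = ρ g (ρ h v) := by
  rw [map_mul]; rfl

theorem rho_one_apply (v : E) : ρ 1 v = v := by
  rw [map_one]; rfl

theorem rho_symm (hρ : IsOrth ρ) (g : Equiv.Perm Ω) (hg : g⁻¹ = g) (u v : E) :
    inner ℝ (ρ g u) v = inner ℝ u (ρ g v) := by
  have h1 : ρ g (ρ g v) = v := by
    rw [← rho_mul_apply]
    nth_rewrite 1 [← hg]
    rw [inv_mul_cancel, rho_one_apply]
  calc inner ℝ (ρ g u) v = inner ℝ (ρ g u) (ρ g (ρ g v)) := by rw [h1]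
    _ = inner ℝ u (ρ g v) := inner_rho hρ g u (ρ g v)

theorem rho_swap_symm [DecidableEq Ω] (hρ : IsOrth ρ) (x y : Ω) (u v : E) :
    inner ℝ (ρ (Equiv.swap x y) u) v = inner ℝ u (ρ (Equiv.swap x y) v) :=
  rho_symm hρ _ (Equiv.swap_inv x y) u v

theorem rho_swap_swap [DecidableEq Ω] (x y : Ω) (v : E) :
    ρ (Equiv.swap x y) (ρ (Equiv.swap x y) v) = v := by
  rw [← rho_mul_apply, Equiv.swap_mul_self, rho_one_apply]

/-- `Lap ρ` is central. -/
theorem lap_rho_comm [Fintype Ω] [DecidableEq Ω] (g : Equiv.Perm Ω) (v : E) :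
    Lap ρ (ρ g v) = ρ g (Lap ρ v) := by
  unfold Lap
  simp only [smul_apply, sum_apply,
    sub_apply, one_apply_eq_self, map_smul, map_sum, map_sub]
  congr 1
  rw [← Equiv.sum_comp g]
  refine Finset.sum_congr rfl fun x _ => ?_
  rw [← Equiv.sum_comp g]
  refine Finset.sum_congr rfl fun y _ => ?_
  have h : Equiv.swap (g x) (g y) * g = g * Equiv.swap x y := by
    rw [Equiv.mul_swap_eq_swap_mul]
  rw [← rho_mul_apply, ← rho_mul_apply, h]

/-- `⟨v, (1 - τ) v⟩ ≥ 0` -/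
theorem inner_one_sub_nonneg (hρ : IsOrth ρ) (g : Equiv.Perm Ω) (v : E) :
    0 ≤ inner ℝ v v - inner ℝ v (ρ g v) := by
  have h1 : inner ℝ v (ρ g v) ≤ ‖v‖ * ‖ρ g v‖ := real_inner_le_norm v (ρ g v)
  rw [hρ g v] at h1
  rw [real_inner_self_eq_norm_mul_norm]
  linarith

theorem inner_one_sub_le (hρ : IsOrth ρ) (g : Equiv.Perm Ω) (v : E) :
    inner ℝ v v - inner ℝ v (ρ g v) ≤ 2 * ‖v‖ ^ 2 := by
  have h1 : -(‖v‖ * ‖ρ g v‖) ≤ inner ℝ v (ρ g v) := neg_le_of_abs_le (abs_real_inner_le_norm v (ρ g v))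
  rw [hρ g v] at h1
  rw [real_inner_self_eq_norm_mul_norm]
  nlinarith

theorem inner_lap [Fintype Ω] [DecidableEq Ω] (v : E) :
    inner ℝ v (Lap ρ v) = (1 / (2 * (Fintype.card Ω : ℝ))) *
      ∑ x : Ω, ∑ y : Ω, (inner ℝ v v - inner ℝ v (ρ (Equiv.swap x y) v)) := by
  unfold Lap
  simp only [smul_apply, sum_apply,
    sub_apply, one_apply_eq_self, inner_smul_right, inner_sum,
    inner_sub_right]

theorem lap_symm [Fintype Ω] [DecidableEq Ω] (hρ : IsOrth ρ) (u v : E) :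
    inner ℝ (Lap ρ u) v = inner ℝ u (Lap ρ v) := by
  unfold Lap
  simp only [smul_apply, sum_apply, sub_apply, one_apply_eq_self, inner_smul_right,
    inner_smul_left, inner_sum, sum_inner, inner_sub_right, inner_sub_left, conj_trivial,
    rho_swap_symm hρ]

end basic

end P162
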