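/-
P162 (Thorp shuffle), module Proj (helper22): simultaneous eigenspaces of the vertical swaps.
-/
import Vale.Agent.P162.Basic

namespace P162

open scoped BigOperators

variable {κ : Type*} [Fintype κ] [DecidableEq κ]
  {E : Type*} [NormedAddCommGroup E] [InnerProductSpace ℝ E]
  {ρ : Equiv.Perm (κ × Bool) →* (E →L[ℝ] E)}

/-- vertical swap -/
def sw {κ : Type*} [DecidableEq κ] (p : κ) : Equiv.Perm (κ × Bool) :=
  Equiv.swap (p, false) (p, true)

/-- toggle the coin at `p` -/
def tog {κ : Type*} [DecidableEq κ] (p : κ) (ω : κ → Bool) : κ → Bool :=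
  fun r => xor (decide (r = p)) (ω r)

theorem tog_tog {κ : Type*} [DecidableEq κ] (p : κ) (ω : κ → Bool) : tog p (tog p ω) = ω := by
  funext r
  simp [tog]

theorem sw_mul_flips {κ : Type*} [DecidableEq κ] (p : κ) (ω : κ → Bool) :
    sw p * flips ω = flips (tog p ω) := by
  ext z
  · rcases z with ⟨r, b⟩
    by_cases h : r = p
    · subst h
      cases b <;> cases hω : ω r <;> simp [sw, flips, tog, Equiv.swap_apply_def, hω]
    · simp [sw, flips, tog, Equiv.swap_apply_def, h]
  · rcases z with ⟨r, b⟩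
    by_cases h : r = p
    · subst h
      cases b <;> cases hω : ω r <;> simp [sw, flips, tog, Equiv.swap_apply_def, hω]
    · simp [sw, flips, tog, Equiv.swap_apply_def, h]

/-- the character -/
noncomputable def chi (O : Finset κ) (ω : κ → Bool) : ℝ := ∏ p ∈ O, (if ω p then (-1 : ℝ) else 1)

/-- sign -/
noncomputable def sg (O : Finset κ) (p : κ) : ℝ := if p ∈ O then -1 else 1

theorem chi_tog (O : Finset κ) (p : κ) (ω : κ → Bool) : chi O (tog p ω) = sg O p * chi O ω := by
  unfold chi sg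
  have h : ∀ r ∈ O, (if tog p ω r then (-1 : ℝ) else 1) =
      (if r = p then (-1 : ℝ) else 1) * (if ω r then (-1 : ℝ) else 1) := by
    intro r _
    by_cases h : r = p <;> cases hω : ω r <;> simp [tog, h, hω]
    · subst h; simp [hω]
    · subst h; simp [hω]
  rw [Finset.prod_congr rfl h, Finset.prod_mul_distrib, Finset.prod_ite_eq']

theorem sg_mul_self (O : Finset κ) (p : κ) : sg O p * sg O p = 1 := by
  unfold sg; split <;> norm_num

theorem sum_chi (ω : κ → Bool) : ∑ O : Finset κ, chi O ω =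
    if ω = fun _ => false then (2 : ℝ) ^ Fintype.card κ else 0 := by
  have h : ∑ O : Finset κ, chi O ω = ∏ p : κ, (1 + (if ω p then (-1 : ℝ) else 1)) := by
    rw [Finset.prod_one_add]
    rw [Finset.powerset_univ]
    rfl
  rw [h]
  split_ifs with h0
  · subst h0
    simp only [Bool.false_eq_true, if_false]
    norm_num [Finset.prod_const]
  · have : ∃ p, ω p = true := by
      by_contra hc
      push Not at hc
      apply h0
      funext p
      simpa using hc p
    obtain ⟨p, hp⟩ := this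
    exact Finset.prod_eq_zero (Finset.mem_univ p) (by simp [hp])

/-- `v` has odd set `O`: `s_p v = - v` for `p ∈ O` and `s_p v = v` otherwise -/
def Sgn (ρ : Equiv.Perm (κ × Bool) →* (E →L[ℝ] E)) (O : Finset κ) (v : E) : Prop :=
  ∀ p, ρ (sw p) v = sg O p • v

/-- projection onto vectors with odd set `O` -/
noncomputable def proj (ρ : Equiv.Perm (κ × Bool) →* (E →L[ℝ] E)) (O : Finset κ) : E →L[ℝ] E :=
  (1 / (2 : ℝ) ^ Fintype.card κ) • ∑ ω : κ → Bool, chi O ω • ρ (flips ω)

theorem proj_apply (O : Finset κ) (v : E) :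
    proj ρ O v = (1 / (2 : ℝ) ^ Fintype.card κ) • ∑ ω : κ → Bool, chi O ω • ρ (flips ω) v := by
  simp [proj]

theorem flips_false {κ : Type*} : flips (fun _ : κ => false) = 1 := by
  ext z <;> simp [flips]

theorem sgn_proj (O : Finset κ) (v : E) : Sgn ρ O (proj ρ O v) := by
  intro p
  rw [proj_apply, map_smul, smul_comm, map_sum]
  congr 1
  have h1 : ∀ ω : κ → Bool, ρ (sw p) (chi O ω • ρ (flips ω) v) =
      chi O ω • ρ (flips (tog p ω)) v := by
    intro ω
    rw [map_smul, ← rho_mul_apply, sw_mul_flips]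
  simp only [h1]
  let e : (κ → Bool) ≃ (κ → Bool) := ⟨tog p, tog p, tog_tog p, tog_tog p⟩
  rw [← Equiv.sum_comp e, Finset.smul_sum]
  refine Finset.sum_congr rfl fun ω _ => ?_
  change chi O (tog p ω) • ρ (flips (tog p (tog p ω))) v = _
  rw [tog_tog, chi_tog, smul_smul]

theorem sum_proj (v : E) : ∑ O : Finset κ, proj ρ O v = v := by
  simp only [proj_apply]
  rw [← Finset.smul_sum, Finset.sum_comm]
  have h1 : ∀ ω : κ → Bool, ∑ O : Finset κ, chi O ω • ρ (flips ω) v =
      (if ω = fun _ => false then (2 : ℝ) ^ Fintype.card κ else 0) • ρ (flips ω) v := by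
    intro ω
    rw [← Finset.sum_smul, sum_chi]
  simp only [h1, ite_smul, zero_smul, Finset.sum_ite_eq', Finset.mem_univ, if_true]
  rw [flips_false, rho_one_apply, smul_smul, one_div, inv_mul_cancel₀, one_smul]
  positivity

theorem sgn_orth (hρ : IsOrth ρ) {O O' : Finset κ} (hne : O ≠ O') {v v' : E}
    (hv : Sgn ρ O v) (hv' : Sgn ρ O' v') : inner ℝ v v' = 0 := by
  have : ∃ p, sg O p * sg O' p = -1 := by
    by_contra hc
    push Not at hc
    apply hne
    ext p
    have := hc p
    unfold sg at this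
    by_cases h1 : p ∈ O <;> by_cases h2 : p ∈ O' <;> simp [h1, h2] at this ⊢
  obtain ⟨p, hp⟩ := this
  have h1 : inner ℝ (ρ (sw p) v) (ρ (sw p) v') = inner ℝ v v' := inner_rho hρ _ v v'
  rw [hv p, hv' p, inner_smul_left, inner_smul_right] at h1
  simp only [conj_trivial] at h1
  rw [← mul_assoc, hp] at h1
  linarith

theorem inner_proj_eq (hρ : IsOrth ρ) {O : Finset κ} {v : E} (hv : Sgn ρ O v) (u : E) :
    inner ℝ v u = inner ℝ v (proj ρ O u) := by
  conv_lhs => rw [← sum_proj (ρ := ρ) u, inner_sum]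
  rw [Finset.sum_eq_single O]
  · intro O' _ hne
    exact sgn_orth hρ hne.symm hv (sgn_proj O' u)
  · intro h; exact absurd (Finset.mem_univ O) h

theorem norm_sq_eq_sum (hρ : IsOrth ρ) (v : E) :
    ‖v‖ ^ 2 = ∑ O : Finset κ, ‖proj ρ O v‖ ^ 2 := by
  rw [← real_inner_self_eq_norm_sq]
  conv_lhs => rw [← sum_proj (ρ := ρ) v]
  rw [sum_inner]
  refine Finset.sum_congr rfl fun O _ => ?_
  rw [sum_proj, inner_proj_eq hρ (sgn_proj O v) v, real_inner_self_eq_norm_sq]

theorem proj_of_sgn (hρ : IsOrth ρ) {O O' : Finset κ} (hne : O' ≠ O) {v : E} (hv : Sgn ρ O v) :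
    proj ρ O' v = 0 := by
  have h := inner_proj_eq hρ (sgn_proj O' v) v
  rw [sgn_orth hρ hne (sgn_proj O' v) hv] at h
  exact inner_self_eq_zero.mp h.symm

end P162
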