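/-
P162 (Thorp shuffle), module Delta (helper22): the operators `δ_{pq}`, `D_{pq}`.
-/
import Vale.Agent.P162.Proj

namespace P162

open scoped BigOperators

variable {κ : Type*} [Fintype κ] [DecidableEq κ]
  {E : Type*} [NormedAddCommGroup E] [InnerProductSpace ℝ E]
  {ρ : Equiv.Perm (κ × Bool) →* (E →L[ℝ] E)}

/-- `τ` between `(p,b)` and `(q,c)` -/
noncomputable def tt {κ : Type*} [DecidableEq κ]
    {E : Type*} [NormedAddCommGroup E] [InnerProductSpace ℝ E]
    (ρ : Equiv.Perm (κ × Bool) →* (E →L[ℝ] E)) (p q : κ) (b c : Bool) :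
    E →L[ℝ] E := ρ (Equiv.swap (p, b) (q, c))

/-- `δ_{pq}` -/
noncomputable def dlt {κ : Type*} [DecidableEq κ]
    {E : Type*} [NormedAddCommGroup E] [InnerProductSpace ℝ E]
    (ρ : Equiv.Perm (κ × Bool) →* (E →L[ℝ] E)) (p q : κ) : E →L[ℝ] E :=
  tt ρ p q false false + tt ρ p q true true - tt ρ p q false true - tt ρ p q true false

/-- `⟨v, D_{pq} v⟩` -/
noncomputable def qd {κ : Type*} [DecidableEq κ]
    {E : Type*} [NormedAddCommGroup E] [InnerProductSpace ℝ E]
    (ρ : Equiv.Perm (κ × Bool) →* (E →L[ℝ] E)) (p q : κ) (v : E) : ℝ :=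
  (inner ℝ v v - inner ℝ v (tt ρ p q false false v)) +
  (inner ℝ v v - inner ℝ v (tt ρ p q true true v)) +
  (inner ℝ v v - inner ℝ v (tt ρ p q false true v)) +
  (inner ℝ v v - inner ℝ v (tt ρ p q true false v))

theorem dlt_apply {κ : Type*} [DecidableEq κ]
    {E : Type*} [NormedAddCommGroup E] [InnerProductSpace ℝ E]
    (ρ : Equiv.Perm (κ × Bool) →* (E →L[ℝ] E)) (p q : κ) (v : E) : dlt ρ p q v =
  tt ρ p q false false v + tt ρ p q true true v - tt ρ p q false true v
    - tt ρ p q true false v := by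
  simp [dlt]

theorem tt_symm (hρ : IsOrth ρ) (p q : κ) (b c : Bool) (u v : E) :
    inner ℝ (tt ρ p q b c u) v = inner ℝ u (tt ρ p q b c v) :=
  rho_swap_symm hρ _ _ u v

theorem tt_norm (hρ : IsOrth ρ) (p q : κ) (b c : Bool) (v : E) : ‖tt ρ p q b c v‖ = ‖v‖ :=
  hρ _ v

theorem dlt_symm (hρ : IsOrth ρ) (p q : κ) (u v : E) :
    inner ℝ (dlt ρ p q u) v = inner ℝ u (dlt ρ p q v) := by
  simp only [dlt_apply, inner_sub_left, inner_add_left, inner_sub_right, inner_add_right,
    tt_symm hρ]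

theorem dlt_norm (hρ : IsOrth ρ) (p q : κ) (v : E) : ‖dlt ρ p q v‖ ≤ 4 * ‖v‖ := by
  rw [dlt_apply]
  have h1 := norm_sub_le (tt ρ p q false false v + tt ρ p q true true v - tt ρ p q false true v)
    (tt ρ p q true false v)
  have h2 := norm_sub_le (tt ρ p q false false v + tt ρ p q true true v) (tt ρ p q false true v)
  have h3 := norm_add_le (tt ρ p q false false v) (tt ρ p q true true v)
  simp only [tt_norm hρ] at h1 h2 h3
  linarith

theorem qd_nonneg (hρ : IsOrth ρ) (p q : κ) (v : E) : 0 ≤ qd ρ p q v := by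
  unfold qd
  have h := fun b c => inner_one_sub_nonneg hρ (Equiv.swap ((p, b) : κ × Bool) (q, c)) v
  have h1 := h false false
  have h2 := h true true
  have h3 := h false true
  have h4 := h true false
  unfold tt
  linarith

/-- conjugating: `s_p τ_{(p,b),(q,c)} = τ_{(p,!b),(q,c)} s_p` for `p ≠ q` -/
theorem sw_tt_left (p q : κ) (hpq : p ≠ q) (b c : Bool) (v : E) :
    ρ (sw p) (tt ρ p q b c v) = tt ρ p q (!b) c (ρ (sw p) v) := by
  unfold tt
  rw [← rho_mul_apply, ← rho_mul_apply]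
  congr 2
  rw [Equiv.mul_swap_eq_swap_mul]
  congr 1
  have h1 : sw p (p, b) = (p, !b) := by
    cases b <;> simp [sw]
  have h2 : sw p (q, c) = (q, c) := by
    unfold sw
    apply Equiv.swap_apply_of_ne_of_ne <;> simp [hpq.symm]
  rw [h1, h2]

theorem sw_tt_right (p q : κ) (hpq : p ≠ q) (b c : Bool) (v : E) :
    ρ (sw q) (tt ρ p q b c v) = tt ρ p q b (!c) (ρ (sw q) v) := by
  unfold tt
  rw [← rho_mul_apply, ← rho_mul_apply]
  congr 2
  rw [Equiv.mul_swap_eq_swap_mul]
  congr 1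
  have h1 : sw q (q, c) = (q, !c) := by
    cases c <;> simp [sw]
  have h2 : sw q (p, b) = (p, b) := by
    unfold sw
    apply Equiv.swap_apply_of_ne_of_ne <;> simp [hpq]
  rw [h1, h2]

theorem sw_tt_other (p q r : κ) (hp : r ≠ p) (hq : r ≠ q) (b c : Bool) (v : E) :
    ρ (sw r) (tt ρ p q b c v) = tt ρ p q b c (ρ (sw r) v) := by
  unfold tt
  rw [← rho_mul_apply, ← rho_mul_apply]
  congr 2
  rw [Equiv.mul_swap_eq_swap_mul]
  congr 1
  have h1 : sw r (q, c) = (q, c) := by
    unfold sw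
    apply Equiv.swap_apply_of_ne_of_ne <;> simp [hq.symm]
  have h2 : sw r (p, b) = (p, b) := by
    unfold sw
    apply Equiv.swap_apply_of_ne_of_ne <;> simp [hp.symm]
  rw [h1, h2]

theorem sgn_dlt (p q : κ) (hpq : p ≠ q) {O : Finset κ} {v : E} (hv : Sgn ρ O v) :
    Sgn ρ (symmDiff O {p, q}) (dlt ρ p q v) := by
  intro r
  rw [dlt_apply, map_sub, map_sub, map_add]
  by_cases hrp : r = p
  · subst hrp
    simp only [sw_tt_left r q hpq, hv r, map_smul, Bool.not_false, Bool.not_true]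
    have hs : sg (symmDiff O {r, q}) r = - sg O r := by
      unfold sg
      by_cases h : r ∈ O <;> simp [Finset.mem_symmDiff, h]
    rw [hs]
    module
  · by_cases hrq : r = q
    · subst hrq
      simp only [sw_tt_right p r hpq, hv r, map_smul, Bool.not_false, Bool.not_true]
      have hs : sg (symmDiff O {p, r}) r = - sg O r := by
        unfold sg
        by_cases h : r ∈ O <;> simp [Finset.mem_symmDiff, h]
      rw [hs]
      module
    · simp only [sw_tt_other p q r hrp hrq, hv r, map_smul]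
      have hs : sg (symmDiff O {p, q}) r = sg O r := by
        unfold sg
        by_cases h : r ∈ O <;> simp [Finset.mem_symmDiff, h, hrp, hrq]
      rw [hs]
      module

/-- key inequality: `‖δ v‖² ≤ 8 ⟨v, D v⟩` for `v` even in `p` and `q` -/
theorem dlt_norm_sq_le (hρ : IsOrth ρ) (p q : κ) (hpq : p ≠ q) (v : E)
    (hp : ρ (sw p) v = v) (hq : ρ (sw q) v = v) :
    ‖dlt ρ p q v‖ ^ 2 ≤ 8 * qd ρ p q v := by
  -- all four `τ v` are obtained from `t = τ00 v`
  set t := tt ρ p q false false v with ht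
  have h10 : tt ρ p q true false v = ρ (sw p) t := by
    rw [ht, sw_tt_left p q hpq, hp]; rfl
  have h01 : tt ρ p q false true v = ρ (sw q) t := by
    rw [ht, sw_tt_right p q hpq, hq]; rfl
  have h11 : tt ρ p q true true v = ρ (sw p) (ρ (sw q) t) := by
    rw [ht, sw_tt_right p q hpq, hq, sw_tt_left p q hpq, hp]; rfl
  have hsymm : ∀ (r : κ) (a b : E), inner ℝ (ρ (sw r) a) b = inner ℝ a (ρ (sw r) b) :=
    fun r a b => rho_swap_symm hρ _ _ a b
  have i10 : inner ℝ v (tt ρ p q true false v) = inner ℝ v t := by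
    rw [h10, ← hsymm, hp]
  have i01 : inner ℝ v (tt ρ p q false true v) = inner ℝ v t := by
    rw [h01, ← hsymm, hq]
  have i11 : inner ℝ v (tt ρ p q true true v) = inner ℝ v t := by
    rw [h11, ← hsymm, hp, ← hsymm, hq]
  have hqd : qd ρ p q v = 4 * (inner ℝ v v - inner ℝ v t) := by
    unfold qd
    rw [i10, i01, i11]
    ring
  have hd : dlt ρ p q v = (t - v) + ρ (sw p) (ρ (sw q) (t - v)) - ρ (sw q) (t - v)
      - ρ (sw p) (t - v) := by
    rw [dlt_apply, h10, h01, h11]
    simp only [map_sub, hq, hp]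
    abel
  have hn : ‖dlt ρ p q v‖ ≤ 4 * ‖t - v‖ := by
    rw [hd]
    have h1 := norm_sub_le ((t - v) + ρ (sw p) (ρ (sw q) (t - v)) - ρ (sw q) (t - v))
      (ρ (sw p) (t - v))
    have h2 := norm_sub_le ((t - v) + ρ (sw p) (ρ (sw q) (t - v))) (ρ (sw q) (t - v))
    have h3 := norm_add_le (t - v) (ρ (sw p) (ρ (sw q) (t - v)))
    simp only [hρ _ _] at h1 h2 h3
    linarith
  have hsq : ‖t - v‖ ^ 2 = 2 * (inner ℝ v v - inner ℝ v t) := by
    rw [norm_sub_sq_real, ht, tt_norm hρ, real_inner_self_eq_norm_sq, real_inner_comm]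
    ring
  have : ‖dlt ρ p q v‖ ^ 2 ≤ (4 * ‖t - v‖) ^ 2 :=
    pow_le_pow_left₀ (norm_nonneg _) hn 2
  rw [hqd]
  nlinarith

theorem half_swap_eq {κ : Type*} [DecidableEq κ] (b : Bool) (p q : κ) :
    half b (Equiv.swap p q) = Equiv.swap (p, b) (q, b) := by
  apply Equiv.ext
  rintro ⟨r, c⟩
  by_cases hc : c = b
  · subst hc
    simp only [half, MonoidHom.coe_mk, OneHom.coe_mk, Equiv.prodCongrLeft_apply, if_true]
    by_cases h1 : r = p
    · subst h1; simp
    · by_cases h2 : r = q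
      · subst h2; simp
      · rw [Equiv.swap_apply_of_ne_of_ne h1 h2, Equiv.swap_apply_of_ne_of_ne] <;> simp [h1, h2]
  · simp only [half, MonoidHom.coe_mk, OneHom.coe_mk, Equiv.prodCongrLeft_apply, if_neg hc]
    rw [Equiv.swap_apply_of_ne_of_ne] <;> simp [hc]

theorem sum_prod_bool (f : κ × Bool → κ × Bool → E) :
    ∑ z : κ × Bool, ∑ w : κ × Bool, f z w =
      ∑ p : κ, ∑ q : κ, (f (p, false) (q, false) + f (p, true) (q, true)
        + f (p, false) (q, true) + f (p, true) (q, false)) := by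
  simp only [Fintype.sum_prod_type, Fintype.sum_bool]
  simp only [Finset.sum_add_distrib]
  abel

/-- the generator identity -/
theorem gen_apply [Nonempty κ] (c : ℝ) (v : E) :
    ((1 - c) • Lap ρ - Lap (ρ.comp (half false)) - Lap (ρ.comp (half true))) v =
      (1 / (4 * (Fintype.card κ : ℝ))) • ∑ p : κ, ∑ q : κ, dlt ρ p q v - c • Lap ρ v := by
  have hN : (Fintype.card κ : ℝ) ≠ 0 := by
    have := Fintype.card_pos (α := κ)
    positivity
  have hB : Lap ρ v = (1 / (4 * (Fintype.card κ : ℝ))) • ∑ p : κ, ∑ q : κ,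
      ((v - tt ρ p q false false v) + (v - tt ρ p q true true v)
        + (v - tt ρ p q false true v) + (v - tt ρ p q true false v)) := by
    unfold Lap
    simp only [smul_apply, sum_apply, sub_apply, one_apply_eq_self]
    rw [sum_prod_bool (fun z w => v - ρ (Equiv.swap z w) v), Fintype.card_prod, Fintype.card_bool]
    congr 1
    push_cast
    ring
  have hA : ∀ b, Lap (ρ.comp (half b)) v = (1 / (4 * (Fintype.card κ : ℝ))) • ∑ p : κ, ∑ q : κ,
      ((2 : ℝ) • (v - tt ρ p q b b v)) := by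
    intro b
    unfold Lap
    simp only [smul_apply, sum_apply, sub_apply, one_apply_eq_self, MonoidHom.comp_apply,
      half_swap_eq, ← Finset.smul_sum, smul_smul, tt]
    congr 1
    field_simp
    norm_num
  have hsplit : ((1 - c) • Lap ρ - Lap (ρ.comp (half false)) - Lap (ρ.comp (half true))) v =
      (Lap ρ v - Lap (ρ.comp (half false)) v - Lap (ρ.comp (half true)) v) - c • Lap ρ v := by
    simp only [sub_apply, smul_apply]
    module
  rw [hsplit]
  congr 1
  rw [hB, hA, hA, ← smul_sub, ← smul_sub, ← Finset.sum_sub_distrib, ← Finset.sum_sub_distrib]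
  congr 1
  refine Finset.sum_congr rfl fun p _ => ?_
  rw [← Finset.sum_sub_distrib, ← Finset.sum_sub_distrib]
  refine Finset.sum_congr rfl fun q _ => ?_
  rw [dlt_apply]
  module

theorem sum_qd [Nonempty κ] (v : E) :
    ∑ p : κ, ∑ q : κ, qd ρ p q v = 4 * (Fintype.card κ : ℝ) * inner ℝ v (Lap ρ v) := by
  have hN : (Fintype.card κ : ℝ) ≠ 0 := by
    have := Fintype.card_pos (α := κ)
    positivity
  rw [inner_lap, Fintype.card_prod, Fintype.card_bool,
    sum_prod_bool (fun z w => inner ℝ v v - inner ℝ v (ρ (Equiv.swap z w) v))]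
  unfold qd tt
  push_cast
  field_simp
  ring

theorem inner_lap_le (hρ : IsOrth ρ) [Nonempty κ] (v : E) :
    inner ℝ v (Lap ρ v) ≤ 2 * (Fintype.card κ : ℝ) * ‖v‖ ^ 2 := by
  have hN : (0 : ℝ) < (Fintype.card κ : ℝ) := by
    have := Fintype.card_pos (α := κ)
    positivity
  have h1 := sum_qd (ρ := ρ) v
  have h2 : ∑ p : κ, ∑ q : κ, qd ρ p q v ≤ ∑ p : κ, ∑ q : κ, 8 * ‖v‖ ^ 2 := by
    refine Finset.sum_le_sum fun p _ => Finset.sum_le_sum fun q _ => ?_
    unfold qd
    have h := fun b c => inner_one_sub_le hρ (Equiv.swap ((p, b) : κ × Bool) (q, c)) v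
    have h1 := h false false
    have h2 := h true true
    have h3 := h false true
    have h4 := h true false
    unfold tt
    linarith
  rw [h1] at h2
  simp only [Finset.sum_const, Finset.card_univ, nsmul_eq_mul] at h2
  have h3 : (4 * (Fintype.card κ : ℝ)) * inner ℝ v (Lap ρ v) ≤
      (4 * (Fintype.card κ : ℝ)) * (2 * (Fintype.card κ : ℝ) * ‖v‖ ^ 2) := by
    linarith
  exact le_of_mul_le_mul_left h3 (by positivity)

theorem inner_lap_nonneg (hρ : IsOrth ρ) [Nonempty κ] (v : E) :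
    0 ≤ inner ℝ v (Lap ρ v) := by
  have hN : (0 : ℝ) < (Fintype.card κ : ℝ) := by
    have := Fintype.card_pos (α := κ)
    positivity
  have h1 := sum_qd (ρ := ρ) v
  have h2 : 0 ≤ ∑ p : κ, ∑ q : κ, qd ρ p q v :=
    Finset.sum_nonneg fun p _ => Finset.sum_nonneg fun q _ => qd_nonneg hρ p q v
  rw [h1] at h2
  exact nonneg_of_mul_nonneg_right h2 (by positivity)

end P162
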