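/-
P162 (Thorp shuffle): concrete definitions of the problem (helper22).
-/
import Vale.Agent.P162.Basic

namespace P162

open scoped BigOperators

/-- One Thorp shuffle of a deck of `2k` cards with coin flips `ω`, as a map of positions
(0-based): the cards in positions `i` (top half) and `k+i` (bottom half) are moved to the
positions `2i` and `2i+1`; the coin `ω i` decides the order. -/
def thorpPos (k : ℕ) (ω : Fin k → Bool) (x : Fin (2 * k)) : Fin (2 * k) :=
  if h : x.1 < k then
    ⟨2 * x.1 + (if ω ⟨x.1, h⟩ then 1 else 0), by split <;> omega⟩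
  else
    ⟨2 * (x.1 - k) + (if ω ⟨x.1 - k, by omega⟩ then 0 else 1), by split <;> omega⟩

/-- The law `q_n` (`n = 2k`) on permutations of positions of one Thorp shuffle. -/
noncomputable def thorpLaw (k : ℕ) (g : Equiv.Perm (Fin (2 * k))) : ℝ :=
  ((Finset.univ.filter fun ω : Fin k → Bool => ∀ x, g x = thorpPos k ω x).card : ℝ) / 2 ^ k

/-- Convolution of real functions on a finite group. -/
noncomputable def conv {G : Type*} [Group G] [Fintype G] (μ ν : G → ℝ) (g : G) : ℝ :=
  ∑ h : G, μ h * ν (h⁻¹ * g)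

/-- `t`-fold convolution power. -/
noncomputable def convPow {G : Type*} [Group G] [Fintype G] [DecidableEq G] (μ : G → ℝ) :
    ℕ → G → ℝ
  | 0 => fun g => if g = 1 then 1 else 0
  | (t + 1) => conv μ (convPow μ t)

/-- Total variation distance to the uniform law on a finite group. -/
noncomputable def tvUnif {G : Type*} [Fintype G] (μ : G → ℝ) : ℝ :=
  (1 / 2) * ∑ g : G, |μ g - 1 / (Fintype.card G : ℝ)|

/-- The mixing time of the Thorp shuffle of `2k` cards. -/
noncomputable def tmix (k : ℕ) : ℕ :=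
  sInf {t : ℕ | tvUnif (convPow (thorpLaw k) t) ≤ 1 / 4}

/-! ### auxiliary: the shuffle as permutations and operators -/

theorem thorpPos_injective (k : ℕ) (ω : Fin k → Bool) : Function.Injective (thorpPos k ω) := by
  intro x y h
  unfold thorpPos at h
  by_cases hx : x.1 < k <;> by_cases hy : y.1 < k <;> simp only [hx, hy, dif_pos, dif_neg,
    not_false_eq_true, Fin.mk.injEq] at h
  · apply Fin.ext
    split at h <;> split at h <;> omega
  · exfalso
    have hxy : x.1 = y.1 - k := by split at h <;> split at h <;> omega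
    have : (⟨x.1, hx⟩ : Fin k) = ⟨y.1 - k, by omega⟩ := Fin.ext hxy
    rw [this] at h
    split at h <;> omega
  · exfalso
    have hxy : x.1 - k = y.1 := by split at h <;> split at h <;> omega
    have : (⟨x.1 - k, by omega⟩ : Fin k) = ⟨y.1, hy⟩ := Fin.ext hxy
    rw [this] at h
    split at h <;> omega
  · apply Fin.ext
    split at h <;> split at h <;> omega

/-- The permutation of positions. -/
noncomputable def thorpPerm (k : ℕ) (ω : Fin k → Bool) : Equiv.Perm (Fin (2 * k)) :=
  Equiv.ofBijective _ (Finite.injective_iff_bijective.mp (thorpPos_injective k ω))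

@[simp] theorem thorpPerm_apply (k : ℕ) (ω : Fin k → Bool) (x : Fin (2 * k)) :
    thorpPerm k ω x = thorpPos k ω x := rfl

/-- The averaging operator of one Thorp shuffle in a representation. -/
noncomputable def Top {E : Type*} [NormedAddCommGroup E] [InnerProductSpace ℝ E] (k : ℕ)
    (ρ : Equiv.Perm (Fin (2 * k)) →* (E →L[ℝ] E)) : E →L[ℝ] E :=
  (1 / (2 : ℝ) ^ k) • ∑ ω : Fin k → Bool, ρ (thorpPerm k ω)

/-- The left regular representation: `(regRep g f) h = f (g⁻¹ * h)`. -/
noncomputable def regRep (Ω : Type*) [Fintype Ω] [DecidableEq Ω] :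
    Equiv.Perm Ω →* (EuclideanSpace ℝ (Equiv.Perm Ω) →L[ℝ] EuclideanSpace ℝ (Equiv.Perm Ω)) where
  toFun g := ((LinearIsometryEquiv.piLpCongrLeft 2 ℝ ℝ (Equiv.mulLeft g)).toContinuousLinearEquiv :
    EuclideanSpace ℝ (Equiv.Perm Ω) →L[ℝ] EuclideanSpace ℝ (Equiv.Perm Ω))
  map_one' := by
    ext f h
    rfl
  map_mul' g g' := by
    ext f h
    rfl

theorem regRep_apply (Ω : Type*) [Fintype Ω] [DecidableEq Ω] (g h : Equiv.Perm Ω)
    (f : EuclideanSpace ℝ (Equiv.Perm Ω)) : regRep Ω g f h = f (g⁻¹ * h) := rfl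

theorem regRep_isOrth (Ω : Type*) [Fintype Ω] [DecidableEq Ω] : IsOrth (regRep Ω) := by
  intro g v
  exact (LinearIsometryEquiv.piLpCongrLeft 2 ℝ ℝ (Equiv.mulLeft g)).norm_map v

end P162
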