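/-
P162 (Thorp shuffle), module Lower: lower bounds for `Lap` from antisymmetric pairs.
-/
import Vale.Agent.P162.Thorp

namespace P162

open scoped BigOperators

/-- The product of `1 - ρ(x y)` over a list of pairs. -/
noncomputable def altOp {Ω : Type*} [DecidableEq Ω] {E : Type*}
    [NormedAddCommGroup E] [InnerProductSpace ℝ E]
    (ρ : Equiv.Perm Ω →* (E →L[ℝ] E)) (l : List (Ω × Ω)) : E →L[ℝ] E :=
  (l.map fun p => 1 - ρ (Equiv.swap p.1 p.2)).prod

/-- the entries of the list of pairs are pairwise distinct (disjoint transpositions) -/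
def DisjPairs {Ω : Type*} (l : List (Ω × Ω)) : Prop :=
  (l.flatMap fun p => [p.1, p.2]).Nodup

section
variable {Ω : Type*} [DecidableEq Ω] {E : Type*}
    [NormedAddCommGroup E] [InnerProductSpace ℝ E]
    {ρ : Equiv.Perm Ω →* (E →L[ℝ] E)}

theorem altOp_nil (w : E) : altOp ρ [] w = w := by
  simp [altOp]

theorem altOp_cons (p : Ω × Ω) (l : List (Ω × Ω)) (w : E) :
    altOp ρ (p :: l) w = altOp ρ l w - ρ (Equiv.swap p.1 p.2) (altOp ρ l w) := by
  unfold altOp
  rw [List.map_cons, List.prod_cons]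
  rfl

omit [DecidableEq Ω] in
theorem DisjPairs.cons_iff {p : Ω × Ω} {l : List (Ω × Ω)} :
    DisjPairs (p :: l) ↔ p.1 ≠ p.2 ∧ (∀ q ∈ l, p.1 ≠ q.1 ∧ p.1 ≠ q.2 ∧ p.2 ≠ q.1 ∧ p.2 ≠ q.2) ∧
      DisjPairs l := by
  unfold DisjPairs
  rw [List.flatMap_cons]
  simp only [List.cons_append, List.nil_append, List.nodup_cons, List.mem_cons, List.mem_flatMap,
    List.not_mem_nil, or_false, not_or, not_exists, not_and]
  constructor
  · rintro ⟨⟨h1, h2⟩, h3, h4⟩
    exact ⟨h1, fun q hq => ⟨(h2 q hq).1, (h2 q hq).2, (h3 q hq).1, (h3 q hq).2⟩, h4⟩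
  · rintro ⟨h1, h2, h4⟩
    exact ⟨⟨h1, fun q hq => ⟨(h2 q hq).1, (h2 q hq).2.1⟩⟩,
      fun q hq => ⟨(h2 q hq).2.2.1, (h2 q hq).2.2.2⟩, h4⟩

theorem altOp_anti (w : E) : ∀ (l : List (Ω × Ω)), DisjPairs l → ∀ q ∈ l,
    ρ (Equiv.swap q.1 q.2) (altOp ρ l w) = - altOp ρ l w := by
  intro l
  induction l with
  | nil => intro _ q hq; simp at hq
  | cons p l ih =>
    intro hl q hq
    rw [DisjPairs.cons_iff] at hl
    obtain ⟨h1, h2, h3⟩ := hl
    rw [altOp_cons, map_sub]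
    rcases List.mem_cons.1 hq with rfl | hq'
    · rw [rho_swap_swap]; abel
    · have hd := h2 q hq'
      have hc : Equiv.swap q.1 q.2 * Equiv.swap p.1 p.2 = Equiv.swap p.1 p.2 * Equiv.swap q.1 q.2 := by
        ext x
        simp only [Equiv.Perm.mul_apply, Equiv.swap_apply_def]
        obtain ⟨a1, a2, a3, a4⟩ := hd
        split_ifs <;> simp_all
      rw [← rho_mul_apply, hc, rho_mul_apply, ih h3 q hq', map_neg]
      abel

theorem altOp_lap [Fintype Ω] (w : E) : ∀ (l : List (Ω × Ω)),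
    Lap ρ (altOp ρ l w) = altOp ρ l (Lap ρ w) := by
  intro l
  induction l with
  | nil => rw [altOp_nil, altOp_nil]
  | cons p l ih => rw [altOp_cons, altOp_cons, map_sub, lap_rho_comm, ih]

/-- for an antisymmetric pair `(a,b)` and any `x`. -/
theorem pair_bound (hρ : IsOrth ρ) {a b : Ω} (hab : a ≠ b) (x : Ω) {v : E}
    (hv : ρ (Equiv.swap a b) v = -v) :
    ‖v‖ ^ 2 ≤ (inner ℝ v v - inner ℝ v (ρ (Equiv.swap a x) v)) +
      (inner ℝ v v - inner ℝ v (ρ (Equiv.swap b x) v)) := by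
  have hvv : inner ℝ v v = ‖v‖ ^ 2 := real_inner_self_eq_norm_sq v
  rcases eq_or_ne x a with rfl | hxa
  · rw [Equiv.swap_self, show (Equiv.refl Ω : Equiv.Perm Ω) = 1 from rfl, rho_one_apply,
      Equiv.swap_comm b x, hv, inner_neg_right, hvv]
    nlinarith [sq_nonneg ‖v‖]
  rcases eq_or_ne x b with rfl | hxb
  · rw [Equiv.swap_self, show (Equiv.refl Ω : Equiv.Perm Ω) = 1 from rfl, rho_one_apply,
      hv, inner_neg_right, hvv]
    nlinarith [sq_nonneg ‖v‖]
  set α := ρ (Equiv.swap a x) v with hα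
  set β := ρ (Equiv.swap b x) v with hβ
  have e1 : Equiv.swap b x = Equiv.swap a b * (Equiv.swap a x * Equiv.swap a b) := by
    ext y
    simp only [Equiv.Perm.mul_apply, Equiv.swap_apply_def]
    split_ifs <;> simp_all
  have e2 : Equiv.swap a x * Equiv.swap b x = Equiv.swap a b * Equiv.swap a x := by
    ext y
    simp only [Equiv.Perm.mul_apply, Equiv.swap_apply_def]
    split_ifs <;> simp_all
  have h1 : inner ℝ v β = inner ℝ v α := by
    rw [hβ, e1, rho_mul_apply, rho_mul_apply, hv, map_neg, map_neg, inner_neg_right,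
      ← rho_swap_symm hρ, hv, inner_neg_left, neg_neg]
  have h2 : inner ℝ α β = - inner ℝ v α := by
    rw [hα, hβ, rho_swap_symm hρ, ← rho_mul_apply, e2, rho_mul_apply, ← rho_swap_symm hρ, hv,
      inner_neg_left]
  have nα : inner ℝ α α = ‖v‖ ^ 2 := by rw [real_inner_self_eq_norm_sq, hα, hρ]
  have nβ : inner ℝ β β = ‖v‖ ^ 2 := by rw [real_inner_self_eq_norm_sq, hβ, hρ]
  have h3 : 0 ≤ inner ℝ (v - α - β) (v - α - β) := real_inner_self_nonneg
  have h4 : inner ℝ (v - α - β) (v - α - β) = 3 * ‖v‖ ^ 2 - 6 * inner ℝ v α := by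
    simp only [inner_sub_left, inner_sub_right]
    rw [hvv, nα, nβ, real_inner_comm v α, real_inner_comm v β, real_inner_comm α β, h1, h2]
    ring
  rw [h1, hvv]
  linarith

/-- **Lower bound**: `v` antisymmetric under `k` disjoint transpositions has
`⟨v, L v⟩ ≥ (k/2) ‖v‖²`. -/
theorem Lap_ge_of_anti [Fintype Ω] [Nonempty Ω]
    (ρ : Equiv.Perm Ω →* (E →L[ℝ] E)) (hρ : IsOrth ρ) (l : List (Ω × Ω)) (hl : DisjPairs l)
    (v : E) (hv : ∀ p ∈ l, ρ (Equiv.swap p.1 p.2) v = -v) :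
    (l.length : ℝ) / 2 * ‖v‖ ^ 2 ≤ inner ℝ v (Lap ρ v) := by
  rw [inner_lap]
  set F : Ω → ℝ := fun x => ∑ y : Ω, (inner ℝ v v - inner ℝ v (ρ (Equiv.swap x y) v)) with hF
  have hF0 : ∀ x, 0 ≤ F x := fun x => Finset.sum_nonneg fun y _ => inner_one_sub_nonneg hρ _ v
  have hn : (0 : ℝ) < Fintype.card Ω := by exact_mod_cast Fintype.card_pos
  have h1 : ∑ x ∈ (l.flatMap fun p => [p.1, p.2]).toFinset, F x ≤ ∑ x : Ω, F x :=
    Finset.sum_le_sum_of_subset_of_nonneg (Finset.subset_univ _) fun x _ _ => hF0 x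
  rw [List.sum_toFinset F hl] at h1
  have h2 : ∀ l' : List (Ω × Ω), DisjPairs l' → (∀ p ∈ l', ρ (Equiv.swap p.1 p.2) v = -v) →
      (l'.length : ℝ) * ((Fintype.card Ω : ℝ) * ‖v‖ ^ 2) ≤
        ((l'.flatMap fun p => [p.1, p.2]).map F).sum := by
    intro l'
    induction l' with
    | nil => intro _ _; simp
    | cons p l' ih =>
      intro hd hv'
      rw [DisjPairs.cons_iff] at hd
      obtain ⟨d1, d2, d3⟩ := hd
      have h3 := ih d3 (fun q hq => hv' q (List.mem_cons_of_mem _ hq))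
      have h4 : (Fintype.card Ω : ℝ) * ‖v‖ ^ 2 ≤ F p.1 + F p.2 := by
        rw [hF]
        simp only
        rw [← Finset.sum_add_distrib]
        calc (Fintype.card Ω : ℝ) * ‖v‖ ^ 2 = ∑ _y : Ω, ‖v‖ ^ 2 := by
              rw [Finset.sum_const, Finset.card_univ, nsmul_eq_mul]
          _ ≤ _ := Finset.sum_le_sum fun y _ => pair_bound hρ d1 y (hv' p List.mem_cons_self)
      rw [List.flatMap_cons, List.map_append, List.sum_append, List.length_cons]
      simp only [List.map_cons, List.map_nil, List.sum_cons, List.sum_nil]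
      push_cast
      linarith
  have h3 := h2 l hl hv
  rw [one_div, inv_mul_eq_div, le_div_iff₀ (by positivity)]
  calc (l.length : ℝ) / 2 * ‖v‖ ^ 2 * (2 * (Fintype.card Ω : ℝ)) =
        (l.length : ℝ) * ((Fintype.card Ω : ℝ) * ‖v‖ ^ 2) := by ring
    _ ≤ _ := h3.trans h1

/-- An eigenvector of `Lap` with eigenvalue `< (k+1)/2` is killed by all products of `k+1`
disjoint `1 - ρ(x y)`. -/
theorem alt_eq_zero_of_eigen [Fintype Ω] [Nonempty Ω]
    (ρ : Equiv.Perm Ω →* (E →L[ℝ] E)) (hρ : IsOrth ρ) (w : E) (lam : ℝ)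
    (hw : Lap ρ w = lam • w) (k : ℕ) (hlam : lam < ((k : ℝ) + 1) / 2)
    (l : List (Ω × Ω)) (hl : DisjPairs l) (hk : l.length = k + 1) : altOp ρ l w = 0 := by
  set v := altOp ρ l w with hv
  have h1 : Lap ρ v = lam • v := by rw [hv, altOp_lap, hw, map_smul]
  have h2 := Lap_ge_of_anti ρ hρ l hl v (fun p hp => altOp_anti w l hl p hp)
  rw [h1, inner_smul_right, real_inner_self_eq_norm_sq, hk] at h2
  push_cast at h2
  by_contra h0
  have h3 : 0 < ‖v‖ ^ 2 := by positivity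
  nlinarith

end

end P162
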