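/-
P162 (Thorp shuffle), module Dim: functions on `Perm Ω` killed by all products of `k+1`
disjoint `1 - (x y)` form a space of dimension `≤ n^{4k}`.
-/
import Vale.Agent.P162.Lower

namespace P162

open scoped BigOperators

/-! ### every permutation is a product of two involutions -/

theorem exists_two_involutions {Ω : Type*} (g : Equiv.Perm Ω) :
    ∃ a b : Equiv.Perm Ω, a * a = 1 ∧ b * b = 1 ∧ a * b = g := by
  classical
  let s : Setoid Ω := Equiv.Perm.SameCycle.setoid g
  let r : Ω → Ω := fun x => (Quotient.mk s x).out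
  have hr : ∀ x, ∃ i : ℤ, (g ^ i) (r x) = x := by
    intro x
    have : s.r (r x) x := Quotient.exact (Quotient.out_eq (Quotient.mk s x))
    exact this
  choose e he using hr
  let c : Ω → Ω := fun x => (g ^ (-(e x))) (r x)
  have key : ∀ x (i : ℤ), (g ^ i) (r x) = x → c x = (g ^ (-i)) (r x) := by
    intro x i hi
    show (g ^ (-(e x))) (r x) = (g ^ (-i)) (r x)
    have h1 : (g ^ i) (r x) = (g ^ (e x)) (r x) := by rw [hi, he x]
    have h2 : (g ^ (-(e x) + i)) (r x) = r x := by
      rw [zpow_add, Equiv.Perm.mul_apply, h1, ← Equiv.Perm.mul_apply, ← zpow_add]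
      simp
    have h3 : (g ^ (-i)) ((g ^ (-(e x) + i)) (r x)) = (g ^ (-(e x))) (r x) := by
      rw [← Equiv.Perm.mul_apply, ← zpow_add]
      congr 2
      ring
    rw [← h3, h2]
  have hrep : ∀ x y, g.SameCycle x y → r x = r y := by
    intro x y h
    have : Quotient.mk s x = Quotient.mk s y := Quotient.sound h
    show (Quotient.mk s x).out = (Quotient.mk s y).out
    rw [this]
  have hrc : ∀ x, r (c x) = r x := by
    intro x
    apply hrep
    have h1 : g.SameCycle (r x) x := ⟨e x, he x⟩
    have h2 : g.SameCycle (r x) (c x) := ⟨-(e x), rfl⟩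
    exact h2.symm.trans h1
  have hcc : Function.Involutive c := by
    intro x
    have h1 := key (c x) (-(e x)) (by rw [hrc])
    rw [h1, hrc, neg_neg, he]
  have hcg : ∀ x, c (g x) = g⁻¹ (c x) := by
    intro x
    have h0 : r (g x) = r x := by
      apply hrep
      have h2 : g.SameCycle x (g x) := ⟨1, by simp⟩
      exact h2.symm
    have h1 := key (g x) (1 + e x) (by
      rw [h0, zpow_add, Equiv.Perm.mul_apply, he, zpow_one])
    rw [h1, h0]
    show _ = g⁻¹ ((g ^ (-(e x))) (r x))
    rw [← Equiv.Perm.mul_apply, ← zpow_neg_one, ← zpow_add]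
    congr 2
    ring
  let C : Equiv.Perm Ω := hcc.toPerm
  have hC : ∀ x, C x = c x := fun x => rfl
  have hCC : C * C = 1 := by
    ext x
    rw [Equiv.Perm.mul_apply, hC, hC, hcc]; rfl
  refine ⟨C, C * g, hCC, ?_, ?_⟩
  · ext x
    simp only [Equiv.Perm.mul_apply, hC]
    rw [hcg, hcc]
    simp
  · rw [← mul_assoc, hCC, one_mul]

/-! ### sub-products of a list of transpositions -/

section
variable {Ω : Type*} [DecidableEq Ω]

/-- all products of subfamilies of the transpositions of a list -/
def subs : List (Ω × Ω) → List (Equiv.Perm Ω)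
  | [] => [1]
  | p :: l => subs l ++ (subs l).map (fun u => u * Equiv.swap p.1 p.2)

theorem subs_fix (l : List (Ω × Ω)) (x : Ω) (hx : ∀ q ∈ l, x ≠ q.1 ∧ x ≠ q.2) :
    ∀ u ∈ subs l, u x = x := by
  induction l with
  | nil => intro u hu; simp [subs] at hu; rw [hu]; rfl
  | cons p l ih =>
    intro u hu
    have h1 := ih (fun q hq => hx q (List.mem_cons_of_mem _ hq))
    have h2 := hx p List.mem_cons_self
    rw [subs, List.mem_append, List.mem_map] at hu
    rcases hu with hu | ⟨w, hw, rfl⟩
    · exact h1 u hu
    · rw [Equiv.Perm.mul_apply, Equiv.swap_apply_of_ne_of_ne h2.1 h2.2]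
      exact h1 w hw

theorem subs_spec (a : Equiv.Perm Ω) (ha : a * a = 1) (l : List (Ω × Ω)) (hl : DisjPairs l)
    (hp : ∀ p ∈ l, p.2 = a p.1) :
    ∀ u ∈ subs l, (∀ x, u (u x) = x) ∧ (∀ x, u x = x ∨ u x = a x) := by
  have haa : ∀ x, a (a x) = x := by
    intro x; rw [← Equiv.Perm.mul_apply, ha]; rfl
  induction l with
  | nil => intro u hu; simp [subs] at hu; subst hu; simp
  | cons p l ih =>
    rw [DisjPairs.cons_iff] at hl
    obtain ⟨h1, h2, h3⟩ := hl
    have ih' := ih h3 (fun q hq => hp q (List.mem_cons_of_mem _ hq))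
    have hpa := hp p List.mem_cons_self
    intro u hu
    rw [subs, List.mem_append, List.mem_map] at hu
    rcases hu with hu | ⟨w, hw, rfl⟩
    · exact ih' u hu
    · obtain ⟨i1, i2⟩ := ih' w hw
      have f1 : w p.1 = p.1 := subs_fix l p.1 (fun q hq => ⟨(h2 q hq).1, (h2 q hq).2.1⟩) w hw
      have f2 : w p.2 = p.2 := subs_fix l p.2 (fun q hq => ⟨(h2 q hq).2.2.1, (h2 q hq).2.2.2⟩) w hw
      constructor
      · intro x
        simp only [Equiv.Perm.mul_apply]
        rcases eq_or_ne x p.1 with rfl | hx1
        · rw [Equiv.swap_apply_left, f2, Equiv.swap_apply_right, f1]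
        rcases eq_or_ne x p.2 with rfl | hx2
        · rw [Equiv.swap_apply_right, f1, Equiv.swap_apply_left, f2]
        rw [Equiv.swap_apply_of_ne_of_ne hx1 hx2, Equiv.swap_apply_of_ne_of_ne, i1]
        · intro h; apply hx1; rw [← i1 x, h, f1]
        · intro h; apply hx2; rw [← i1 x, h, f2]
      · intro x
        simp only [Equiv.Perm.mul_apply]
        rcases eq_or_ne x p.1 with rfl | hx1
        · right; rw [Equiv.swap_apply_left, f2, hpa]
        rcases eq_or_ne x p.2 with rfl | hx2
        · right; rw [Equiv.swap_apply_right, f1, hpa, haa]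
        rw [Equiv.swap_apply_of_ne_of_ne hx1 hx2]
        exact i2 x

theorem mul_inv_spec {a u : Equiv.Perm Ω} [Fintype Ω] (ha : a * a = 1) (h1 : ∀ x, u (u x) = x)
    (h2 : ∀ x, u x = x ∨ u x = a x) :
    (u * a) * (u * a) = 1 ∧ (u ≠ 1 → (u * a).support.card < a.support.card) := by
  have haa : ∀ x, a (a x) = x := by
    intro x; rw [← Equiv.Perm.mul_apply, ha]; rfl
  have e1 : ∀ x, u x = x → u (a x) = a x := by
    intro x hx
    rcases h2 (a x) with h | h
    · exact h
    · rw [haa] at h
      have := h1 (a x)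
      rw [h, hx] at this
      rw [h, ← this]
  have e2 : ∀ x, u x ≠ x → u (a x) = x := by
    intro x hx
    rcases h2 x with h | h
    · exact absurd h hx
    · rw [← h, h1]
  have e3 : ∀ x, (u * a) x = if u x = x then a x else x := by
    intro x
    rw [Equiv.Perm.mul_apply]
    split_ifs with h
    · exact e1 x h
    · exact e2 x h
  constructor
  · ext x
    rw [Equiv.Perm.mul_apply, e3 x]
    split_ifs with h
    · rw [e3, if_pos (e1 x h), haa]; rfl
    · rw [e3, if_neg h]; rfl
  · intro hu
    apply Finset.card_lt_card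
    rw [Finset.ssubset_iff_of_subset]
    · obtain ⟨x, hx⟩ : ∃ x, u x ≠ x := by
        by_contra hcon
        push Not at hcon
        exact hu (Equiv.ext hcon)
      refine ⟨x, ?_, ?_⟩
      · rw [Equiv.Perm.mem_support]
        rcases h2 x with h | h
        · exact absurd h hx
        · rw [← h]; exact hx
      · rw [Equiv.Perm.mem_support, e3, if_neg hx]
        simp
    · intro x hx
      rw [Equiv.Perm.mem_support, e3] at hx
      rw [Equiv.Perm.mem_support]
      split_ifs at hx with h
      · exact hx
      · exact absurd rfl hx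

theorem subs_conj (g : Equiv.Perm Ω) (l : List (Ω × Ω)) :
    ∀ u' ∈ subs (l.map (Prod.map g g)), ∃ u ∈ subs l, u' = g * u * g⁻¹ := by
  induction l with
  | nil =>
    intro u' hu'
    simp [subs] at hu'
    exact ⟨1, by simp [subs], by rw [hu']; simp⟩
  | cons p l ih =>
    intro u' hu'
    rw [List.map_cons, subs, List.mem_append, List.mem_map] at hu'
    rcases hu' with hu | ⟨w, hw, rfl⟩
    · obtain ⟨u, hu1, hu2⟩ := ih u' hu
      exact ⟨u, by rw [subs, List.mem_append]; exact Or.inl hu1, hu2⟩
    · obtain ⟨u, hu1, hu2⟩ := ih w hw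
      refine ⟨u * Equiv.swap p.1 p.2, ?_, ?_⟩
      · rw [subs, List.mem_append, List.mem_map]
        exact Or.inr ⟨u, hu1, rfl⟩
      · rw [hu2]
        have : Equiv.swap (Prod.map g g p).1 (Prod.map g g p).2 = g * Equiv.swap p.1 p.2 * g⁻¹ := by
          rw [Equiv.mul_swap_eq_swap_mul]
          simp
        rw [this]
        group

omit [DecidableEq Ω] in
theorem DisjPairs.map {l : List (Ω × Ω)} (hl : DisjPairs l) (g : Equiv.Perm Ω) :
    DisjPairs (l.map (Prod.map g g)) := by
  unfold DisjPairs at *
  have : (l.map (Prod.map g g)).flatMap (fun p => [p.1, p.2]) =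
      (l.flatMap fun p => [p.1, p.2]).map g := by
    induction l with
    | nil => rfl
    | cons p l ih =>
      have hl' : (l.flatMap fun p => [p.1, p.2]).Nodup := by
        rw [List.flatMap_cons] at hl
        exact (List.nodup_append.1 hl).2.1
      rw [List.map_cons, List.flatMap_cons, List.flatMap_cons, ih hl', List.map_append]
      rfl
  rw [this]
  exact hl.map g.injective

/-- choose `k+1` disjoint pairs -/
theorem exists_pairs (a : Equiv.Perm Ω) (ha : a * a = 1) : ∀ (k : ℕ) (D : Finset Ω),
    (∀ x ∈ D, a x ∈ D ∧ a x ≠ x) → 2 * k + 1 ≤ D.card →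
    ∃ l : List (Ω × Ω), DisjPairs l ∧ l.length = k + 1 ∧ ∀ p ∈ l, p.1 ∈ D ∧ p.2 = a p.1 := by
  have haa : ∀ x, a (a x) = x := by
    intro x; rw [← Equiv.Perm.mul_apply, ha]; rfl
  intro k
  induction k with
  | zero =>
    intro D hD hc
    obtain ⟨x, hx⟩ := Finset.card_pos.1 (by omega : 0 < D.card)
    refine ⟨[(x, a x)], ?_, rfl, ?_⟩
    · rw [DisjPairs.cons_iff]
      exact ⟨(hD x hx).2.symm, by simp, by simp [DisjPairs]⟩
    · intro p hp
      rw [List.mem_singleton] at hp
      subst hp
      exact ⟨hx, rfl⟩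
  | succ k ih =>
    intro D hD hc
    obtain ⟨x, hx⟩ := Finset.card_pos.1 (by omega : 0 < D.card)
    set D' := (D.erase x).erase (a x) with hD'
    have hc' : 2 * k + 1 ≤ D'.card := by
      have h1 := Finset.card_erase_of_mem hx
      have h2 := Finset.pred_card_le_card_erase (s := D.erase x) (a := a x)
      rw [← hD'] at h2
      omega
    obtain ⟨l, hl1, hl2, hl3⟩ := ih D' (by
      intro y hy
      rw [hD', Finset.mem_erase, Finset.mem_erase] at hy
      obtain ⟨y1, y2, y3⟩ := hy
      refine ⟨?_, (hD y y3).2⟩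
      rw [hD', Finset.mem_erase, Finset.mem_erase]
      refine ⟨fun h => y2 (a.injective h), fun h => y1 (by rw [← h, haa]), (hD y y3).1⟩) hc'
    refine ⟨(x, a x) :: l, ?_, by rw [List.length_cons, hl2], ?_⟩
    · rw [DisjPairs.cons_iff]
      refine ⟨(hD x hx).2.symm, ?_, hl1⟩
      intro q hq
      obtain ⟨q1, q2⟩ := hl3 q hq
      rw [hD', Finset.mem_erase, Finset.mem_erase] at q1
      obtain ⟨q1a, q1b, q1c⟩ := q1
      refine ⟨fun h => q1b h.symm, ?_, fun h => q1a h.symm, ?_⟩
      · intro h
        apply q1a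
        rw [q2] at h
        simp only at h
        rw [h, haa]
      · intro h
        apply q1b
        rw [q2] at h
        exact (a.injective h).symm
    · intro p hp
      rcases List.mem_cons.1 hp with rfl | hp
      · exact ⟨hx, rfl⟩
      · obtain ⟨q1, q2⟩ := hl3 p hp
        rw [hD', Finset.mem_erase, Finset.mem_erase] at q1
        exact ⟨q1.2.2, q2⟩

/-! ### products of `k` transpositions -/

variable [Fintype Ω]

/-- products of `k` (possibly trivial) transpositions -/
def prods : ℕ → Finset (Equiv.Perm Ω)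
  | 0 => {1}
  | k + 1 => Finset.image₂ (fun (p : Ω × Ω) u => Equiv.swap p.1 p.2 * u) Finset.univ (prods k)

theorem prods_card (k : ℕ) : (prods (Ω := Ω) k).card ≤ (Fintype.card Ω) ^ (2 * k) := by
  induction k with
  | zero => simp [prods]
  | succ k ih =>
    rw [prods]
    refine (Finset.card_image₂_le _ _ _).trans ?_
    rw [Finset.card_univ, Fintype.card_prod]
    calc Fintype.card Ω * Fintype.card Ω * (prods (Ω := Ω) k).card
        ≤ Fintype.card Ω * Fintype.card Ω * (Fintype.card Ω) ^ (2 * k) := by gcongr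
      _ = (Fintype.card Ω) ^ (2 * (k + 1)) := by ring

theorem one_mem_prods [Nonempty Ω] (k : ℕ) : (1 : Equiv.Perm Ω) ∈ prods k := by
  induction k with
  | zero => simp [prods]
  | succ k ih =>
    rw [prods, Finset.mem_image₂]
    obtain ⟨x⟩ := ‹Nonempty Ω›
    refine ⟨(x, x), Finset.mem_univ _, 1, ih, ?_⟩
    rw [Equiv.swap_self, mul_one]
    rfl

theorem mem_prods [Nonempty Ω] : ∀ (k : ℕ) (a : Equiv.Perm Ω), a * a = 1 →
    a.support.card ≤ 2 * k → a ∈ prods k := by
  intro k
  induction k with
  | zero =>
    intro a ha hc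
    have : a.support = ∅ := Finset.card_eq_zero.1 (by omega)
    rw [Equiv.Perm.support_eq_empty_iff] at this
    rw [this]; simp [prods]
  | succ k ih =>
    intro a ha hc
    have haa : ∀ x, a (a x) = x := by
      intro x; rw [← Equiv.Perm.mul_apply, ha]; rfl
    by_cases h1 : a = 1
    · rw [h1]; exact one_mem_prods _
    obtain ⟨x, hx⟩ : ∃ x, a x ≠ x := by
      by_contra hcon
      push Not at hcon
      exact h1 (Equiv.ext hcon)
    have hs := mul_inv_spec (a := a) (u := Equiv.swap x (a x)) ha
      (fun y => Equiv.swap_apply_self _ _ _) (fun y => by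
        rcases eq_or_ne y x with rfl | h1
        · right; rw [Equiv.swap_apply_left]
        rcases eq_or_ne y (a x) with rfl | h2
        · right; rw [Equiv.swap_apply_right, haa]
        left; exact Equiv.swap_apply_of_ne_of_ne h1 h2)
    have hcard : (Equiv.swap x (a x) * a).support.card + 2 ≤ a.support.card := by
      have h2 : (Equiv.swap x (a x) * a).support ⊆ (a.support.erase x).erase (a x) := by
        intro y hy
        rw [Equiv.Perm.mem_support, Equiv.Perm.mul_apply] at hy
        have y1 : y ≠ x := by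
          rintro rfl
          apply hy; rw [Equiv.swap_apply_right]
        have y2 : y ≠ a x := by
          rintro rfl
          apply hy; rw [haa, Equiv.swap_apply_left]
        rw [Finset.mem_erase, Finset.mem_erase, Equiv.Perm.mem_support]
        refine ⟨y2, y1, ?_⟩
        intro h
        rw [h, Equiv.swap_apply_of_ne_of_ne y1 y2] at hy
        exact hy rfl
      have h3 := Finset.card_le_card h2
      have h4 : a x ∈ a.support.erase x := by
        rw [Finset.mem_erase, Equiv.Perm.mem_support]
        exact ⟨hx, fun h => hx (a.injective h)⟩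
      have h5 : x ∈ a.support := Equiv.Perm.mem_support.2 hx
      rw [Finset.card_erase_of_mem h4, Finset.card_erase_of_mem h5] at h3
      have h6 : 0 < (a.support.erase x).card := Finset.card_pos.2 ⟨_, h4⟩
      rw [Finset.card_erase_of_mem h5] at h6
      omega
    have h3 := ih (Equiv.swap x (a x) * a) hs.1 (by omega)
    rw [prods, Finset.mem_image₂]
    refine ⟨(x, a x), Finset.mem_univ _, _, h3, ?_⟩
    simp only
    rw [← mul_assoc, Equiv.swap_mul_self, one_mul]

/-! ### the vanishing argument -/

theorem altOp_eq_zero (f : EuclideanSpace ℝ (Equiv.Perm Ω)) : ∀ (l : List (Ω × Ω))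
    (g : Equiv.Perm Ω), (∀ u ∈ subs l, f (u * g) = 0) → altOp (regRep Ω) l f g = 0 := by
  intro l
  induction l with
  | nil =>
    intro g h
    rw [altOp_nil]
    have := h 1 (by simp [subs])
    rwa [one_mul] at this
  | cons p l ih =>
    intro g h
    rw [altOp_cons]
    show (altOp (regRep Ω) l f) g - (regRep Ω (Equiv.swap p.1 p.2) (altOp (regRep Ω) l f)) g = 0
    rw [regRep_apply, Equiv.swap_inv, ih g, ih (Equiv.swap p.1 p.2 * g), sub_zero]
    · intro u hu
      rw [← mul_assoc]
      apply h
      rw [subs, List.mem_append, List.mem_map]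
      exact Or.inr ⟨u, hu, rfl⟩
    · intro u hu
      apply h
      rw [subs, List.mem_append]
      exact Or.inl hu

theorem altOp_eq_self (f : EuclideanSpace ℝ (Equiv.Perm Ω)) : ∀ (l : List (Ω × Ω))
    (g : Equiv.Perm Ω), DisjPairs l → (∀ u ∈ subs l, u ≠ 1 → f (u * g) = 0) →
    altOp (regRep Ω) l f g = f g := by
  intro l
  induction l with
  | nil =>
    intro g _ h
    rw [altOp_nil]
  | cons p l ih =>
    intro g hl h
    rw [DisjPairs.cons_iff] at hl
    obtain ⟨h1, h2, h3⟩ := hl
    rw [altOp_cons]
    show (altOp (regRep Ω) l f) g - (regRep Ω (Equiv.swap p.1 p.2) (altOp (regRep Ω) l f)) g = f g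
    rw [regRep_apply, Equiv.swap_inv, ih g h3, altOp_eq_zero f l (Equiv.swap p.1 p.2 * g), sub_zero]
    · intro u hu
      rw [← mul_assoc]
      apply h
      · rw [subs, List.mem_append, List.mem_map]
        exact Or.inr ⟨u, hu, rfl⟩
      · intro he
        have f2 : u p.2 = p.2 := subs_fix l p.2
          (fun q hq => ⟨(h2 q hq).2.2.1, (h2 q hq).2.2.2⟩) u hu
        have h5 : (u * Equiv.swap p.1 p.2) p.1 = p.1 := by rw [he]; rfl
        rw [Equiv.Perm.mul_apply, Equiv.swap_apply_left, f2] at h5
        exact h1 h5.symm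
    · intro u hu hu1
      apply h u _ hu1
      rw [subs, List.mem_append]
      exact Or.inl hu

theorem vanish_inv [Nonempty Ω] (k : ℕ) (f : EuclideanSpace ℝ (Equiv.Perm Ω))
    (h0 : ∀ l : List (Ω × Ω), DisjPairs l → l.length = k + 1 → altOp (regRep Ω) l f = 0)
    (h1 : ∀ a ∈ prods (Ω := Ω) k, ∀ b ∈ prods (Ω := Ω) k, f (a * b) = 0) :
    ∀ (m : ℕ) (a b : Equiv.Perm Ω), a * a = 1 → b * b = 1 →
      a.support.card + b.support.card ≤ m → f (a * b) = 0 := by
  intro m
  induction m using Nat.strong_induction_on with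
  | _ m ih =>
    intro a b ha hb hm
    rcases le_or_gt a.support.card (2 * k) with hak | hak
    · rcases le_or_gt b.support.card (2 * k) with hbk | hbk
      · exact h1 a (mem_prods k a ha hak) b (mem_prods k b hb hbk)
      · -- many moved points of `b`
        obtain ⟨l, hl1, hl2, hl3⟩ := exists_pairs b hb k b.support (by
          intro x hx
          rw [Equiv.Perm.mem_support] at hx
          exact ⟨by rw [Equiv.Perm.mem_support]; exact fun h => hx (b.injective h), hx⟩) (by omega)
        have hl' := hl1.map (a * b)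
        have h2 := h0 _ hl' (by rw [List.length_map, hl2])
        have h3 := altOp_eq_self f _ (a * b) hl' (by
          intro u' hu' hne
          obtain ⟨u, hu, rfl⟩ := subs_conj (a * b) l u' hu'
          have hu1 : u ≠ 1 := by
            rintro rfl
            apply hne; simp
          obtain ⟨s1, s2⟩ := subs_spec b hb l hl1 (fun p hp => (hl3 p hp).2) u hu
          obtain ⟨t1, t2⟩ := mul_inv_spec hb s1 s2
          have hbu : b * u = u * b := by
            have e1 : (u * b)⁻¹ = u * b := inv_eq_of_mul_eq_one_left t1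
            have e2 : (u * b)⁻¹ = b * u := by
              rw [mul_inv_rev, inv_eq_of_mul_eq_one_left hb]
              congr 1
              apply inv_eq_of_mul_eq_one_left
              ext x
              rw [Equiv.Perm.mul_apply, s1]; rfl
            rw [← e2, e1]
          have e : a * b * u * (a * b)⁻¹ * (a * b) = a * (u * b) := by
            rw [← hbu]; group
          rw [e]
          exact ih (a.support.card + (u * b).support.card) (by have := t2 hu1; omega) a (u * b) ha t1
            le_rfl)
        rw [h2] at h3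
        exact h3.symm
    · obtain ⟨l, hl1, hl2, hl3⟩ := exists_pairs a ha k a.support (by
        intro x hx
        rw [Equiv.Perm.mem_support] at hx
        exact ⟨by rw [Equiv.Perm.mem_support]; exact fun h => hx (a.injective h), hx⟩) (by omega)
      have h2 := h0 _ hl1 hl2
      have h3 := altOp_eq_self f _ (a * b) hl1 (by
        intro u hu hu1
        obtain ⟨s1, s2⟩ := subs_spec a ha l hl1 (fun p hp => (hl3 p hp).2) u hu
        obtain ⟨t1, t2⟩ := mul_inv_spec ha s1 s2
        rw [← mul_assoc]
        exact ih ((u * a).support.card + b.support.card) (by have := t2 hu1; omega) (u * a) b t1 hb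
          le_rfl)
      rw [h2] at h3
      exact h3.symm

end

/-- linearly independent families in `W_k` have at most `n^{4k}` members. -/
theorem card_le_of_alt {Ω : Type*} [Fintype Ω] [DecidableEq Ω] [Nonempty Ω] (k : ℕ)
    {ι : Type*} [Fintype ι] (f : ι → EuclideanSpace ℝ (Equiv.Perm Ω))
    (hf : LinearIndependent ℝ f)
    (h0 : ∀ i, ∀ l : List (Ω × Ω), DisjPairs l → l.length = k + 1 → altOp (regRep Ω) l (f i) = 0) :
    Fintype.card ι ≤ (Fintype.card Ω) ^ (4 * k) := by
  classical
  let J := prods (Ω := Ω) k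
  let F : ι → (J × J → ℝ) := fun i ab => f i (ab.1.1 * ab.2.1)
  have hF : LinearIndependent ℝ F := by
    rw [Fintype.linearIndependent_iff] at hf ⊢
    intro c hc
    apply hf c
    set w := ∑ i, c i • f i with hw
    have hw0 : ∀ l : List (Ω × Ω), DisjPairs l → l.length = k + 1 → altOp (regRep Ω) l w = 0 := by
      intro l h1 h2
      rw [hw, map_sum]
      apply Finset.sum_eq_zero
      intro i _
      rw [map_smul, h0 i l h1 h2, smul_zero]
    have hw1 : ∀ a ∈ J, ∀ b ∈ J, w (a * b) = 0 := by
      intro a ha b hb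
      have h3 := congrFun hc (⟨a, ha⟩, ⟨b, hb⟩)
      rw [hw]
      simp only [F, Finset.sum_apply, Pi.smul_apply, Pi.zero_apply] at h3
      rw [← h3]
      simp
    ext g
    obtain ⟨a, b, ha, hb, rfl⟩ := exists_two_involutions g
    exact vanish_inv k w hw0 hw1 _ a b ha hb le_rfl
  have h1 := hF.fintype_card_le_finrank
  rw [Module.finrank_fintype_fun_eq_card, Fintype.card_prod, Fintype.card_coe] at h1
  have h2 := prods_card (Ω := Ω) k
  calc Fintype.card ι ≤ J.card * J.card := h1
    _ ≤ (Fintype.card Ω) ^ (2 * k) * (Fintype.card Ω) ^ (2 * k) := Nat.mul_le_mul h2 h2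
    _ = (Fintype.card Ω) ^ (4 * k) := by rw [← pow_add]; congr 1; ring

end P162
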