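/-
P162 (Thorp shuffle), module Energy (helper22): the weighted energy inequality.
-/
import Vale.Agent.P162.Delta

namespace P162

open scoped BigOperators

variable {κ : Type*} [Fintype κ] [DecidableEq κ]
  {E : Type*} [NormedAddCommGroup E] [InnerProductSpace ℝ E]
  {ρ : Equiv.Perm (κ × Bool) →* (E →L[ℝ] E)}

/-- weighted mass of the component with odd set `O` -/
noncomputable def hh (ρ : Equiv.Perm (κ × Bool) →* (E →L[ℝ] E)) (y : ℝ) (ψ : E)
    (O : Finset κ) : ℝ := y ^ O.card * ‖proj ρ O ψ‖ ^ 2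

/-- upper bound functional -/
noncomputable def gam (ρ : Equiv.Perm (κ × Bool) →* (E →L[ℝ] E)) (y : ℝ) (ψ : E) (p q : κ)
    (O : Finset κ) : ℝ :=
  if p ∈ O ∧ q ∈ O then 1280 * (Fintype.card κ : ℝ) / O.card * hh ρ y ψ O
  else if p ∈ O ∨ q ∈ O then 2 * hh ρ y ψ O
  else (O.card + 2) / (160 * (Fintype.card κ : ℝ)) * (y ^ O.card * qd ρ p q (proj ρ O ψ))

theorem hh_nonneg (y : ℝ) (hy : 0 ≤ y) (ψ : E) (O : Finset κ) : 0 ≤ hh ρ y ψ O := by
  unfold hh; positivity

/-- real-variable inequality -/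
theorem amgm (y a b θ : ℝ) (hy1 : 1 ≤ y) (hy2 : y ≤ 3) (ha : 0 ≤ a) (hb : 0 ≤ b) (hθ : 0 < θ) :
    (1 + y ^ 2) * (a * b) ≤ 2 * (θ * (y ^ 2 * a ^ 2) + b ^ 2 / θ) := by
  have h1 : 1 + y ^ 2 ≤ 4 * y := by nlinarith
  have hab : 0 ≤ a * b := mul_nonneg ha hb
  have h2 : (1 + y ^ 2) * (a * b) ≤ 4 * y * (a * b) := mul_le_mul_of_nonneg_right h1 hab
  have h3 : 2 * (y * a) * b ≤ θ * (y * a) ^ 2 + b ^ 2 / θ := by
    have h4 : 0 ≤ (θ * (y * a) - b) ^ 2 / θ := by positivity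
    have h5 : (θ * (y * a) - b) ^ 2 / θ = θ * (y * a) ^ 2 - 2 * (y * a) * b + b ^ 2 / θ := by
      field_simp
      ring
    rw [h5] at h4
    linarith
  nlinarith

/-- case `p,q ∉ O` -/
theorem pair_bound_none (hρ : IsOrth ρ) [Nonempty κ] (y : ℝ) (hy1 : 1 ≤ y) (hy2 : y ≤ 3) (ψ : E)
    (p q : κ) (hpq : p ≠ q) (O : Finset κ) (hp : p ∉ O) (hq : q ∉ O) :
    (y ^ O.card + y ^ (symmDiff O {p, q}).card) *
        inner ℝ (proj ρ O ψ) (dlt ρ p q (proj ρ (symmDiff O {p, q}) ψ)) ≤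
      2 * (gam ρ y ψ p q O + gam ρ y ψ p q (symmDiff O {p, q})) := by
  have hN : (0 : ℝ) < (Fintype.card κ : ℝ) := by
    have := Fintype.card_pos (α := κ)
    positivity
  have hy0 : 0 < y := by linarith
  set O' := symmDiff O {p, q} with hO'
  have hO'eq : O' = insert p (insert q O) := by
    ext r
    simp only [hO', Finset.mem_symmDiff, Finset.mem_insert, Finset.mem_singleton]
    by_cases h1 : r = p
    · subst h1; simp [hp]
    · by_cases h2 : r = q
      · subst h2; simp [hq]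
      · simp [h1, h2]
  have hcard : O'.card = O.card + 2 := by
    rw [hO'eq, Finset.card_insert_of_notMem, Finset.card_insert_of_notMem hq]
    simp [hpq, hp]
  have hpO' : p ∈ O' := by rw [hO'eq]; simp
  have hqO' : q ∈ O' := by rw [hO'eq]; simp
  have hg1 : gam ρ y ψ p q O =
      (O.card + 2) / (160 * (Fintype.card κ : ℝ)) * (y ^ O.card * qd ρ p q (proj ρ O ψ)) := by
    unfold gam
    simp [hp, hq]
  have hg2 : gam ρ y ψ p q O' = 1280 * (Fintype.card κ : ℝ) / O'.card * hh ρ y ψ O' := by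
    unfold gam
    simp [hpO', hqO']
  rw [hg1, hg2]
  unfold hh
  rw [hcard]
  -- even
  have hev : ∀ r, r ∉ O → ρ (sw r) (proj ρ O ψ) = proj ρ O ψ := by
    intro r hr
    rw [sgn_proj O ψ r]
    simp [sg, hr]
  have hkey := dlt_norm_sq_le hρ p q hpq (proj ρ O ψ) (hev p hp) (hev q hq)
  have hcs : inner ℝ (proj ρ O ψ) (dlt ρ p q (proj ρ O' ψ)) ≤
      ‖proj ρ O' ψ‖ * ‖dlt ρ p q (proj ρ O ψ)‖ := by
    rw [← dlt_symm hρ, mul_comm]
    exact real_inner_le_norm _ _
  set a := ‖proj ρ O' ψ‖ with ha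
  set b := ‖dlt ρ p q (proj ρ O ψ)‖ with hb
  set m : ℝ := (O.card : ℝ) with hm
  have hm0 : 0 ≤ m := by positivity
  set N : ℝ := (Fintype.card κ : ℝ) with hNdef
  have hθ : 0 < 1280 * N / (m + 2) := by positivity
  have ham := amgm y a b (1280 * N / (m + 2)) hy1 hy2 (norm_nonneg _) (norm_nonneg _) hθ
  have hym : 0 < y ^ O.card := by positivity
  have step1 : (y ^ O.card + y ^ (O.card + 2)) *
      inner ℝ (proj ρ O ψ) (dlt ρ p q (proj ρ O' ψ)) ≤ y ^ O.card * ((1 + y ^ 2) * (a * b)) := by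
    have : (y ^ O.card + y ^ (O.card + 2)) = y ^ O.card * (1 + y ^ 2) := by ring
    rw [this, mul_assoc]
    apply mul_le_mul_of_nonneg_left _ hym.le
    exact mul_le_mul_of_nonneg_left hcs (by positivity)
  have step2 : y ^ O.card * ((1 + y ^ 2) * (a * b)) ≤
      y ^ O.card * (2 * (1280 * N / (m + 2) * (y ^ 2 * a ^ 2) + b ^ 2 / (1280 * N / (m + 2)))) :=
    mul_le_mul_of_nonneg_left ham hym.le
  have step3 : b ^ 2 / (1280 * N / (m + 2)) ≤
      (m + 2) / (160 * N) * qd ρ p q (proj ρ O ψ) := by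
    have e1 : b ^ 2 / (1280 * N / (m + 2)) = (m + 2) / (1280 * N) * b ^ 2 := by
      field_simp
    rw [e1]
    have e2 : (m + 2) / (160 * N) * qd ρ p q (proj ρ O ψ) =
        (m + 2) / (1280 * N) * (8 * qd ρ p q (proj ρ O ψ)) := by
      field_simp
      ring
    rw [e2]
    exact mul_le_mul_of_nonneg_left hkey (by positivity)
  refine step1.trans (step2.trans ?_)
  have hpush : ((O.card + 2 : ℕ) : ℝ) = m + 2 := by push_cast; ring
  rw [hpush]
  have e3 : 2 * ((m + 2) / (160 * N) * (y ^ O.card * qd ρ p q (proj ρ O ψ)) +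
      1280 * N / (m + 2) * (y ^ (O.card + 2) * a ^ 2)) =
      y ^ O.card * (2 * (1280 * N / (m + 2) * (y ^ 2 * a ^ 2) +
        (m + 2) / (160 * N) * qd ρ p q (proj ρ O ψ))) := by ring
  rw [e3]
  apply mul_le_mul_of_nonneg_left _ hym.le
  linarith

/-- case exactly one of `p, q` in `O` -/
theorem pair_bound_one (hρ : IsOrth ρ) (y : ℝ) (hy1 : 1 ≤ y) (ψ : E)
    (p q : κ) (O : Finset κ) (hp : p ∈ O) (hq : q ∉ O) :
    (y ^ O.card + y ^ (symmDiff O {p, q}).card) *
        inner ℝ (proj ρ O ψ) (dlt ρ p q (proj ρ (symmDiff O {p, q}) ψ)) ≤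
      2 * (gam ρ y ψ p q O + gam ρ y ψ p q (symmDiff O {p, q})) := by
  have hpq : p ≠ q := by rintro rfl; exact hq hp
  have hy0 : 0 < y := by linarith
  set O' := symmDiff O {p, q} with hO'
  have hO'eq : O' = insert q (O.erase p) := by
    ext r
    simp only [hO', Finset.mem_symmDiff, Finset.mem_insert, Finset.mem_singleton,
      Finset.mem_erase]
    by_cases h1 : r = p
    · subst h1; simp [hp, hpq]
    · by_cases h2 : r = q
      · subst h2; simp [hq]
      · simp [h1, h2]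
  have hcard : O'.card = O.card := by
    rw [hO'eq, Finset.card_insert_of_notMem (by simp [hq]), Finset.card_erase_of_mem hp]
    have : 0 < O.card := Finset.card_pos.mpr ⟨p, hp⟩
    omega
  have hpO' : p ∉ O' := by rw [hO'eq]; simp [hpq]
  have hqO' : q ∈ O' := by rw [hO'eq]; simp
  have hg1 : gam ρ y ψ p q O = 2 * hh ρ y ψ O := by
    unfold gam
    simp [hp, hq]
  have hg2 : gam ρ y ψ p q O' = 2 * hh ρ y ψ O' := by
    unfold gam
    simp [hpO', hqO']
  rw [hg1, hg2]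
  unfold hh
  rw [hcard]
  have hcs : inner ℝ (proj ρ O ψ) (dlt ρ p q (proj ρ O' ψ)) ≤
      ‖proj ρ O ψ‖ * (4 * ‖proj ρ O' ψ‖) :=
    (real_inner_le_norm _ _).trans
      (mul_le_mul_of_nonneg_left (dlt_norm hρ p q _) (norm_nonneg _))
  set a := ‖proj ρ O ψ‖
  set b := ‖proj ρ O' ψ‖
  have hym : 0 < y ^ O.card := by positivity
  have : (y ^ O.card + y ^ O.card) * inner ℝ (proj ρ O ψ) (dlt ρ p q (proj ρ O' ψ)) ≤
      (y ^ O.card + y ^ O.card) * (a * (4 * b)) :=
    mul_le_mul_of_nonneg_left hcs (by positivity)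
  refine this.trans ?_
  have h2 : 0 ≤ y ^ O.card * (a - b) ^ 2 := by positivity
  nlinarith

theorem symmDiff_pair_comm (O : Finset κ) (p q : κ) :
    symmDiff O {p, q} = symmDiff O {q, p} := by
  rw [Finset.pair_comm]

theorem dlt_comm (p q : κ) : dlt ρ p q = dlt ρ q p := by
  unfold dlt tt
  rw [Equiv.swap_comm (p, false) (q, false), Equiv.swap_comm (p, true) (q, true),
    Equiv.swap_comm (p, false) (q, true), Equiv.swap_comm (p, true) (q, false)]
  abel

theorem qd_comm (p q : κ) (v : E) : qd ρ p q v = qd ρ q p v := by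
  unfold qd tt
  rw [Equiv.swap_comm (p, false) (q, false), Equiv.swap_comm (p, true) (q, true),
    Equiv.swap_comm (p, false) (q, true), Equiv.swap_comm (p, true) (q, false)]
  ring

theorem gam_comm (y : ℝ) (ψ : E) (p q : κ) (O : Finset κ) :
    gam ρ y ψ p q O = gam ρ y ψ q p O := by
  unfold gam
  rw [qd_comm]
  simp only [and_comm, or_comm]

/-- the bound for each pair and each `O` -/
theorem pair_bound_all (hρ : IsOrth ρ) [Nonempty κ] (y : ℝ) (hy1 : 1 ≤ y) (hy2 : y ≤ 3) (ψ : E)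
    (p q : κ) (hpq : p ≠ q) (O : Finset κ) :
    (y ^ O.card + y ^ (symmDiff O {p, q}).card) *
        inner ℝ (proj ρ O ψ) (dlt ρ p q (proj ρ (symmDiff O {p, q}) ψ)) ≤
      2 * (gam ρ y ψ p q O + gam ρ y ψ p q (symmDiff O {p, q})) := by
  by_cases hp : p ∈ O
  · by_cases hq : q ∈ O
    · -- both: reduce to none for O' = symmDiff
      have hO'' : symmDiff (symmDiff O {p, q}) {p, q} = O := by
        rw [symmDiff_assoc, symmDiff_self, symmDiff_bot]
      have h := pair_bound_none hρ y hy1 hy2 ψ p q hpq (symmDiff O {p, q})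
        (by simp [Finset.mem_symmDiff, hp]) (by simp [Finset.mem_symmDiff, hq])
      rw [hO''] at h
      have hs : inner ℝ (proj ρ O ψ) (dlt ρ p q (proj ρ (symmDiff O {p, q}) ψ)) =
          inner ℝ (proj ρ (symmDiff O {p, q}) ψ) (dlt ρ p q (proj ρ O ψ)) := by
        rw [← dlt_symm hρ, real_inner_comm]
      rw [hs]
      linarith
    · exact pair_bound_one hρ y hy1 ψ p q O hp hq
  · by_cases hq : q ∈ O
    · have h := pair_bound_one hρ y hy1 ψ q p O hq hp
      rw [gam_comm, gam_comm (O := symmDiff O {q, p}), ← dlt_comm] at h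
      rw [symmDiff_pair_comm O p q]
      exact h
    · exact pair_bound_none hρ y hy1 hy2 ψ p q hpq O hp hq

/-- sum over `O` for a fixed pair -/
theorem pair_sum (hρ : IsOrth ρ) [Nonempty κ] (y : ℝ) (hy1 : 1 ≤ y) (hy2 : y ≤ 3) (ψ : E)
    (p q : κ) (hpq : p ≠ q) :
    ∑ O : Finset κ, y ^ O.card * inner ℝ (proj ρ O ψ) (dlt ρ p q ψ) ≤
      2 * ∑ O : Finset κ, gam ρ y ψ p q O := by
  have hinv : ∀ O : Finset κ, symmDiff (symmDiff O {p, q}) {p, q} = O := fun O => by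
    rw [symmDiff_assoc, symmDiff_self, symmDiff_bot]
  let e : Finset κ ≃ Finset κ := ⟨fun O => symmDiff O {p, q}, fun O => symmDiff O {p, q}, hinv, hinv⟩
  have h1 : ∀ O : Finset κ, inner ℝ (proj ρ O ψ) (dlt ρ p q ψ) =
      inner ℝ (proj ρ O ψ) (dlt ρ p q (proj ρ (symmDiff O {p, q}) ψ)) := by
    intro O
    rw [← dlt_symm hρ, inner_proj_eq hρ (sgn_dlt p q hpq (sgn_proj O ψ)) ψ, dlt_symm hρ]
  set f : Finset κ → ℝ := fun O => y ^ O.card * inner ℝ (proj ρ O ψ) (dlt ρ p q ψ) with hf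
  have h2 : ∑ O : Finset κ, f O = ∑ O : Finset κ, f (symmDiff O {p, q}) :=
    (Equiv.sum_comp e f).symm
  have h3 : ∀ O : Finset κ, f O + f (symmDiff O {p, q}) ≤
      2 * (gam ρ y ψ p q O + gam ρ y ψ p q (symmDiff O {p, q})) := by
    intro O
    have hs : inner ℝ (proj ρ (symmDiff O {p, q}) ψ) (dlt ρ p q (proj ρ O ψ)) =
        inner ℝ (proj ρ O ψ) (dlt ρ p q (proj ρ (symmDiff O {p, q}) ψ)) := by
      rw [← dlt_symm hρ, real_inner_comm]
    have h4 := pair_bound_all hρ y hy1 hy2 ψ p q hpq O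
    simp only [hf]
    rw [h1 O, h1 (symmDiff O {p, q}), hinv O, hs]
    linarith
  have h5 : ∑ O : Finset κ, (f O + f (symmDiff O {p, q})) ≤
      ∑ O : Finset κ, 2 * (gam ρ y ψ p q O + gam ρ y ψ p q (symmDiff O {p, q})) :=
    Finset.sum_le_sum fun O _ => h3 O
  rw [Finset.sum_add_distrib, ← h2, ← Finset.mul_sum, Finset.sum_add_distrib] at h5
  have h6 : ∑ O : Finset κ, gam ρ y ψ p q (symmDiff O {p, q}) = ∑ O : Finset κ, gam ρ y ψ p q O :=
    Equiv.sum_comp e (gam ρ y ψ p q)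
  rw [h6] at h5
  linarith

end P162
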