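/-
P162 (Thorp shuffle), module Energy2 (helper22): the weighted energy inequality, summed.
-/
import Vale.Agent.P162.Energy

namespace P162

open scoped BigOperators

variable {κ : Type*} [Fintype κ] [DecidableEq κ]
  {E : Type*} [NormedAddCommGroup E] [InnerProductSpace ℝ E]
  {ρ : Equiv.Perm (κ × Bool) →* (E →L[ℝ] E)}

/-- majorant of `gam` -/
noncomputable def gal (ρ : Equiv.Perm (κ × Bool) →* (E →L[ℝ] E)) (y : ℝ) (ψ : E) (p q : κ)
    (O : Finset κ) : ℝ :=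
  (if p ∈ O then (1 : ℝ) else 0) * (if q ∈ O then (1 : ℝ) else 0) *
      (1280 * (Fintype.card κ : ℝ) / O.card * hh ρ y ψ O)
    + 2 * hh ρ y ψ O * ((if p ∈ O then (1 : ℝ) else 0) + (if q ∈ O then (1 : ℝ) else 0))
    + (O.card + 2) / (160 * (Fintype.card κ : ℝ)) * (y ^ O.card * qd ρ p q (proj ρ O ψ))

theorem gam_le_gal (hρ : IsOrth ρ) (y : ℝ) (hy : 0 ≤ y) (ψ : E) (p q : κ) (O : Finset κ) :
    gam ρ y ψ p q O ≤ gal ρ y ψ p q O := by
  have h1 : 0 ≤ hh ρ y ψ O := hh_nonneg y hy ψ O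
  have h2 : 0 ≤ (O.card + 2) / (160 * (Fintype.card κ : ℝ)) *
      (y ^ O.card * qd ρ p q (proj ρ O ψ)) := by
    have := qd_nonneg hρ p q (proj ρ O ψ)
    positivity
  have h3 : 0 ≤ 1280 * (Fintype.card κ : ℝ) / O.card * hh ρ y ψ O := by positivity
  unfold gam gal
  by_cases hp : p ∈ O <;> by_cases hq : q ∈ O <;> simp only [hp, hq, if_true, if_false, and_self,
    and_true, and_false, or_true, or_self, or_false, mul_one, mul_zero,
    zero_mul, add_zero, zero_add] <;> linarith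

theorem gal_nonneg (hρ : IsOrth ρ) (y : ℝ) (hy : 0 ≤ y) (ψ : E) (p q : κ) (O : Finset κ) :
    0 ≤ gal ρ y ψ p q O := by
  have h1 : 0 ≤ hh ρ y ψ O := hh_nonneg y hy ψ O
  have h2 := qd_nonneg hρ p q (proj ρ O ψ)
  unfold gal
  have i1 : (0 : ℝ) ≤ if p ∈ O then (1 : ℝ) else 0 := by split <;> norm_num
  have i2 : (0 : ℝ) ≤ if q ∈ O then (1 : ℝ) else 0 := by split <;> norm_num
  positivity

theorem sum_ind (O : Finset κ) : ∑ p : κ, (if p ∈ O then (1 : ℝ) else 0) = O.card := by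
  simp

theorem sum_gal (hρ : IsOrth ρ) [Nonempty κ] (y : ℝ) (hy : 0 ≤ y) (ψ : E) (O : Finset κ) :
    ∑ p : κ, ∑ q : κ, gal ρ y ψ p q O ≤
      1285 * (Fintype.card κ : ℝ) * (O.card * hh ρ y ψ O)
        + (1 / 20) * (y ^ O.card * inner ℝ (proj ρ O ψ) (Lap ρ (proj ρ O ψ))) := by
  have hN : (0 : ℝ) < (Fintype.card κ : ℝ) := by
    have := Fintype.card_pos (α := κ)
    positivity
  have h1 : 0 ≤ hh ρ y ψ O := hh_nonneg y hy ψ O
  unfold gal
  simp only [Finset.sum_add_distrib]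
  have e1 : ∑ p : κ, ∑ q : κ, (if p ∈ O then (1 : ℝ) else 0) * (if q ∈ O then (1 : ℝ) else 0) *
      (1280 * (Fintype.card κ : ℝ) / O.card * hh ρ y ψ O) =
      (O.card : ℝ) * O.card * (1280 * (Fintype.card κ : ℝ) / O.card * hh ρ y ψ O) := by
    simp only [← Finset.sum_mul]
    congr 1
    simp only [← Finset.mul_sum, sum_ind, ← Finset.sum_mul]
  have e2 : ∑ p : κ, ∑ q : κ, 2 * hh ρ y ψ O *
      ((if p ∈ O then (1 : ℝ) else 0) + (if q ∈ O then (1 : ℝ) else 0)) =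
      4 * (Fintype.card κ : ℝ) * (O.card * hh ρ y ψ O) := by
    simp only [← Finset.mul_sum, Finset.sum_add_distrib, sum_ind, Finset.sum_const,
      Finset.card_univ, nsmul_eq_mul]
    ring
  have e3 : ∑ p : κ, ∑ q : κ, ((O.card : ℝ) + 2) / (160 * (Fintype.card κ : ℝ)) *
      (y ^ O.card * qd ρ p q (proj ρ O ψ)) =
      ((O.card : ℝ) + 2) / 40 * (y ^ O.card * inner ℝ (proj ρ O ψ) (Lap ρ (proj ρ O ψ))) := by
    simp only [← Finset.mul_sum, sum_qd]
    field_simp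
    ring
  rw [e1, e2, e3]
  have e4 : (O.card : ℝ) * O.card * (1280 * (Fintype.card κ : ℝ) / O.card * hh ρ y ψ O) =
      1280 * (Fintype.card κ : ℝ) * (O.card * hh ρ y ψ O) := by
    by_cases h0 : (O.card : ℝ) = 0
    · rw [h0]; ring
    · field_simp
  rw [e4]
  have h5 : y ^ O.card * inner ℝ (proj ρ O ψ) (Lap ρ (proj ρ O ψ)) ≤
      2 * (Fintype.card κ : ℝ) * hh ρ y ψ O := by
    unfold hh
    have := mul_le_mul_of_nonneg_left (inner_lap_le hρ (proj ρ O ψ)) (pow_nonneg hy O.card)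
    linarith
  have h6 : (O.card : ℝ) * (y ^ O.card * inner ℝ (proj ρ O ψ) (Lap ρ (proj ρ O ψ))) ≤
      (O.card : ℝ) * (2 * (Fintype.card κ : ℝ) * hh ρ y ψ O) :=
    mul_le_mul_of_nonneg_left h5 (by positivity)
  have h7 : 0 ≤ (Fintype.card κ : ℝ) * ((O.card : ℝ) * hh ρ y ψ O) := by positivity
  nlinarith

theorem sgn_lap {O : Finset κ} {v : E} (hv : Sgn ρ O v) : Sgn ρ O (Lap ρ v) := by
  intro p
  rw [← lap_rho_comm, hv p, map_smul]

theorem inner_lap_proj (hρ : IsOrth ρ) (O : Finset κ) (ψ : E) :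
    inner ℝ (proj ρ O ψ) (Lap ρ ψ) = inner ℝ (proj ρ O ψ) (Lap ρ (proj ρ O ψ)) := by
  rw [← lap_symm hρ, inner_proj_eq hρ (sgn_lap (sgn_proj O ψ)) ψ, lap_symm hρ]

/-- diagonal terms -/
theorem diag_term (hρ : IsOrth ρ) (p : κ) (O : Finset κ) (ψ : E) :
    inner ℝ (proj ρ O ψ) (dlt ρ p p ψ) =
      (if p ∈ O then (1 : ℝ) else 0) * (4 * ‖proj ρ O ψ‖ ^ 2) := by
  have h1 : dlt ρ p p ψ = (2 : ℝ) • (ψ - ρ (sw p) ψ) := by
    rw [dlt_apply]
    unfold tt
    rw [Equiv.swap_self, Equiv.swap_self, Equiv.swap_comm (p, true) (p, false)]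
    change ρ 1 ψ + ρ 1 ψ - ρ (sw p) ψ - ρ (sw p) ψ = _
    rw [rho_one_apply]
    module
  have h2 : inner ℝ (proj ρ O ψ) (ρ (sw p) ψ) = sg O p * ‖proj ρ O ψ‖ ^ 2 := by
    have : inner ℝ (ρ (sw p) (proj ρ O ψ)) ψ = inner ℝ (proj ρ O ψ) (ρ (sw p) ψ) :=
      rho_swap_symm hρ _ _ _ _
    rw [← this, sgn_proj O ψ p, inner_smul_left, inner_proj_eq hρ (sgn_proj O ψ) ψ,
      real_inner_self_eq_norm_sq]
    simp
  rw [h1, inner_smul_right, inner_sub_right, h2, inner_proj_eq hρ (sgn_proj O ψ) ψ,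
    real_inner_self_eq_norm_sq]
  unfold sg
  split <;> ring

/-- **energy inequality** -/
theorem energy (hρ : IsOrth ρ) [Nonempty κ] (y : ℝ) (hy1 : 1 ≤ y) (hy2 : y ≤ 3) (ψ : E) :
    2 * ∑ O : Finset κ, y ^ O.card * inner ℝ (proj ρ O ψ)
      (((1 - 1 / (40 * (Fintype.card κ : ℝ))) • Lap ρ
        - Lap (ρ.comp (half false)) - Lap (ρ.comp (half true))) ψ) ≤
      1300 * ∑ O : Finset κ, O.card * hh ρ y ψ O := by
  have hN1 : (1 : ℝ) ≤ (Fintype.card κ : ℝ) := by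
    have := Fintype.card_pos (α := κ)
    exact_mod_cast this
  have hN : (0 : ℝ) < (Fintype.card κ : ℝ) := by linarith
  have hy0 : 0 ≤ y := by linarith
  set N : ℝ := (Fintype.card κ : ℝ) with hNdef
  -- bound for every ordered pair
  have hpair : ∀ p q : κ, ∑ O : Finset κ, y ^ O.card * inner ℝ (proj ρ O ψ) (dlt ρ p q ψ) ≤
      2 * ∑ O : Finset κ, gal ρ y ψ p q O +
        (if p = q then 4 * ∑ O : Finset κ, (if p ∈ O then (1 : ℝ) else 0) * hh ρ y ψ O else 0) := by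
    intro p q
    by_cases hpq : p = q
    · subst hpq
      have h1 : ∑ O : Finset κ, y ^ O.card * inner ℝ (proj ρ O ψ) (dlt ρ p p ψ) =
          4 * ∑ O : Finset κ, (if p ∈ O then (1 : ℝ) else 0) * hh ρ y ψ O := by
        rw [Finset.mul_sum]
        refine Finset.sum_congr rfl fun O _ => ?_
        rw [diag_term hρ]
        unfold hh
        ring
      rw [h1, if_pos rfl]
      have h2 : 0 ≤ ∑ O : Finset κ, gal ρ y ψ p p O :=
        Finset.sum_nonneg fun O _ => gal_nonneg hρ y hy0 ψ p p O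
      linarith
    · rw [if_neg hpq, add_zero]
      refine (pair_sum hρ y hy1 hy2 ψ p q hpq).trans ?_
      have := Finset.sum_le_sum fun (O : Finset κ) (_ : O ∈ Finset.univ) =>
        gam_le_gal hρ y hy0 ψ p q O
      linarith
  -- sum over pairs
  have hsum : ∑ p : κ, ∑ q : κ, ∑ O : Finset κ,
      y ^ O.card * inner ℝ (proj ρ O ψ) (dlt ρ p q ψ) ≤
      2 * ∑ O : Finset κ, (∑ p : κ, ∑ q : κ, gal ρ y ψ p q O) +
        4 * ∑ O : Finset κ, O.card * hh ρ y ψ O := by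
    have h1 := Finset.sum_le_sum fun (p : κ) (_ : p ∈ Finset.univ) =>
      Finset.sum_le_sum fun (q : κ) (_ : q ∈ Finset.univ) => hpair p q
    refine h1.trans (le_of_eq ?_)
    simp only [Finset.sum_add_distrib, ← Finset.mul_sum]
    congr 1
    · congr 1
      conv_rhs => rw [Finset.sum_comm]
      refine Finset.sum_congr rfl fun p _ => ?_
      rw [Finset.sum_comm]
    · simp only [Finset.sum_ite_eq, Finset.mem_univ, if_true]
      rw [← Finset.mul_sum, Finset.sum_comm]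
      congr 1
      refine Finset.sum_congr rfl fun O _ => ?_
      rw [← Finset.sum_mul, sum_ind]
  have hO : ∑ O : Finset κ, (∑ p : κ, ∑ q : κ, gal ρ y ψ p q O) ≤
      1285 * N * ∑ O : Finset κ, (O.card * hh ρ y ψ O)
        + (1 / 20) * ∑ O : Finset κ, (y ^ O.card * inner ℝ (proj ρ O ψ) (Lap ρ (proj ρ O ψ))) := by
    refine (Finset.sum_le_sum fun O _ => sum_gal hρ y hy0 ψ O).trans (le_of_eq ?_)
    rw [Finset.sum_add_distrib, ← Finset.mul_sum, ← Finset.mul_sum]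
  -- express the left-hand side
  have hL : ∑ O : Finset κ, y ^ O.card * inner ℝ (proj ρ O ψ)
      (((1 - 1 / (40 * N)) • Lap ρ
        - Lap (ρ.comp (half false)) - Lap (ρ.comp (half true))) ψ) =
      (1 / (4 * N)) * (∑ p : κ, ∑ q : κ, ∑ O : Finset κ,
        y ^ O.card * inner ℝ (proj ρ O ψ) (dlt ρ p q ψ)) -
      (1 / (40 * N)) * ∑ O : Finset κ,
        (y ^ O.card * inner ℝ (proj ρ O ψ) (Lap ρ (proj ρ O ψ))) := by
    rw [Finset.mul_sum (s := Finset.univ (α := Finset κ)) (a := 1 / (40 * N))]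
    have h1 : ∀ O : Finset κ, y ^ O.card * inner ℝ (proj ρ O ψ)
      (((1 - 1 / (40 * N)) • Lap ρ
        - Lap (ρ.comp (half false)) - Lap (ρ.comp (half true))) ψ) =
        (1 / (4 * N)) * (∑ p : κ, ∑ q : κ, y ^ O.card * inner ℝ (proj ρ O ψ) (dlt ρ p q ψ)) -
        (1 / (40 * N)) * (y ^ O.card * inner ℝ (proj ρ O ψ) (Lap ρ (proj ρ O ψ))) := by
      intro O
      rw [gen_apply, inner_sub_right, inner_smul_right, inner_smul_right, inner_sum,
        inner_lap_proj hρ]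
      simp only [inner_sum, ← Finset.mul_sum]
      ring
    rw [Finset.sum_congr rfl fun O _ => h1 O, Finset.sum_sub_distrib, ← Finset.mul_sum]
    congr 2
    rw [Finset.sum_comm]
    refine Finset.sum_congr rfl fun p _ => ?_
    rw [Finset.sum_comm]
  rw [hL]
  set M := ∑ O : Finset κ, (O.card * hh ρ y ψ O) with hM
  set B := ∑ O : Finset κ, (y ^ O.card * inner ℝ (proj ρ O ψ) (Lap ρ (proj ρ O ψ))) with hB
  set S := ∑ p : κ, ∑ q : κ, ∑ O : Finset κ,
      y ^ O.card * inner ℝ (proj ρ O ψ) (dlt ρ p q ψ) with hS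
  have hM0 : 0 ≤ M := Finset.sum_nonneg fun O _ => by
    have := hh_nonneg (ρ := ρ) y hy0 ψ O
    positivity
  have hS2 : S ≤ 2 * (1285 * N * M + (1 / 20) * B) + 4 * M := by linarith
  have hfin : 2 * (1 / (4 * N) * S - 1 / (40 * N) * B) ≤
      2 * (1 / (4 * N) * (2 * (1285 * N * M + (1 / 20) * B) + 4 * M) - 1 / (40 * N) * B) := by
    have : 1 / (4 * N) * S ≤ 1 / (4 * N) * (2 * (1285 * N * M + (1 / 20) * B) + 4 * M) :=
      mul_le_mul_of_nonneg_left hS2 (by positivity)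
    linarith
  refine hfin.trans ?_
  have e : 2 * (1 / (4 * N) * (2 * (1285 * N * M + (1 / 20) * B) + 4 * M) - 1 / (40 * N) * B) =
      1285 * M + 2 * (M / N) := by
    field_simp
    ring
  rw [e]
  have : M / N ≤ M := div_le_self hM0 hN1
  linarith

end P162
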