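/-
P162 (Thorp shuffle), module Heat: L² bound for the heat kernel `exp(-τ L) δ_1`.
-/
import Vale.Agent.P162.Dim

namespace P162

open scoped BigOperators

/-- the point mass at the identity minus the uniform law, as a vector -/
noncomputable def delta0 (Ω : Type*) [Fintype Ω] [DecidableEq Ω] :
    EuclideanSpace ℝ (Equiv.Perm Ω) :=
  WithLp.toLp 2 fun g => (if g = 1 then 1 else 0) - 1 / (Fintype.card (Equiv.Perm Ω) : ℝ)

/-- exponential of an operator on an eigenvector -/
theorem exp_eigen {E : Type*} [NormedAddCommGroup E] [InnerProductSpace ℝ E] [CompleteSpace E]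
    (A : E →L[ℝ] E) (v : E) (μ : ℝ) (h : A v = μ • v) :
    NormedSpace.exp A v = Real.exp μ • v := by
  have h1 := NormedSpace.exp_series_hasSum_exp' (𝕂 := ℝ) A
  have h2 := h1.mapL (ContinuousLinearMap.apply ℝ E v)
  have h3 : ∀ n : ℕ, (A ^ n) v = μ ^ n • v := by
    intro n
    induction n with
    | zero => simp
    | succ n ih =>
      rw [pow_succ', ContinuousLinearMap.mul_apply, ih, map_smul, h, smul_smul, pow_succ]
  have h4 := NormedSpace.exp_series_hasSum_exp' (𝕂 := ℝ) μ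
  have h5 := h4.smul_const v
  rw [Real.exp_eq_exp_ℝ]
  refine h2.unique ?_
  convert h5 using 2 with n
  rw [ContinuousLinearMap.apply_apply, ContinuousLinearMap.smul_apply, h3]
  rw [smul_smul]; rfl

theorem lap_symm_heat {Ω : Type*} [Fintype Ω] [DecidableEq Ω] {E : Type*} [NormedAddCommGroup E]
    [InnerProductSpace ℝ E] {ρ : Equiv.Perm Ω →* (E →L[ℝ] E)} (hρ : IsOrth ρ) (u v : E) :
    inner ℝ (Lap ρ u) v = inner ℝ u (Lap ρ v) := by
  unfold Lap
  simp only [smul_apply, sum_apply, sub_apply, one_apply_eq_self, inner_smul_right,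
    real_inner_smul_left, inner_sum, sum_inner, inner_sub_right, inner_sub_left]
  congr 1
  refine Finset.sum_congr rfl fun x _ => Finset.sum_congr rfl fun y _ => ?_
  rw [rho_swap_symm hρ]

/-- the combinatorial sum -/
theorem sum_exp_le {N : ℕ} (lam : Fin N → ℝ) (h0 : ∀ i, 0 ≤ lam i) (n : ℝ) (τ : ℝ) (hn : 1 ≤ n)
    (hτ : 5 * n ^ 4 ≤ Real.exp τ)
    (hc : ∀ k : ℕ, ((Finset.univ.filter fun i => lam i < ((k : ℝ) + 1) / 2).card : ℝ) ≤
      n ^ (4 * k)) :
    ∑ i, Real.exp (-(2 * τ * lam i)) ≤ 5 / 4 := by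
  have hn4 : 1 ≤ n ^ 4 := one_le_pow₀ hn
  have hτ0 : 0 < τ := by
    have : Real.exp 0 < Real.exp τ := by rw [Real.exp_zero]; linarith
    exact Real.exp_lt_exp.1 this
  set q := Real.exp (-τ) with hq
  have hq0 : 0 < q := Real.exp_pos _
  have hnq : n ^ 4 * q ≤ 1 / 5 := by
    rw [hq, Real.exp_neg, ← div_eq_mul_inv, div_le_div_iff₀ (Real.exp_pos _) (by norm_num)]
    linarith
  let κ : Fin N → ℕ := fun i => ⌊2 * lam i⌋₊
  have hκ1 : ∀ i, ((κ i : ℕ) : ℝ) ≤ 2 * lam i := fun i => Nat.floor_le (by have := h0 i; positivity)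
  have hκ2 : ∀ i, 2 * lam i < ((κ i : ℕ) : ℝ) + 1 := fun i => Nat.lt_floor_add_one _
  have h1 : ∀ i, Real.exp (-(2 * τ * lam i)) ≤ q ^ (κ i) := by
    intro i
    rw [hq, ← Real.exp_nat_mul]
    apply Real.exp_le_exp.2
    have := hκ1 i
    nlinarith
  obtain ⟨K, hK⟩ : ∃ K, ∀ i, κ i < K := by
    refine ⟨(Finset.univ.sup κ) + 1, fun i => ?_⟩
    have := Finset.le_sup (f := κ) (Finset.mem_univ i)
    omega
  calc ∑ i, Real.exp (-(2 * τ * lam i)) ≤ ∑ i, q ^ (κ i) := Finset.sum_le_sum fun i _ => h1 i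
    _ = ∑ k ∈ Finset.range K, ∑ i ∈ Finset.univ.filter (fun i => κ i = k), q ^ (κ i) := by
        rw [Finset.sum_fiberwise_of_maps_to]
        intro i _
        exact Finset.mem_range.2 (hK i)
    _ ≤ ∑ k ∈ Finset.range K, (1 / 5 : ℝ) ^ k := by
        apply Finset.sum_le_sum
        intro k _
        have e1 : ∑ i ∈ Finset.univ.filter (fun i => κ i = k), q ^ (κ i) =
            ((Finset.univ.filter (fun i => κ i = k)).card : ℝ) * q ^ k := by
          rw [Finset.sum_congr rfl (g := fun _ => q ^ k), Finset.sum_const, nsmul_eq_mul]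
          intro i hi
          rw [(Finset.mem_filter.1 hi).2]
        have e2 : ((Finset.univ.filter (fun i => κ i = k)).card : ℝ) ≤ n ^ (4 * k) := by
          refine le_trans ?_ (hc k)
          apply Nat.cast_le.2
          apply Finset.card_le_card
          intro i hi
          rw [Finset.mem_filter] at hi ⊢
          refine ⟨hi.1, ?_⟩
          have := hκ2 i
          rw [hi.2] at this
          linarith
        rw [e1]
        calc ((Finset.univ.filter (fun i => κ i = k)).card : ℝ) * q ^ k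
            ≤ n ^ (4 * k) * q ^ k := by gcongr
          _ = (n ^ 4 * q) ^ k := by rw [mul_pow, ← pow_mul]
          _ ≤ (1 / 5 : ℝ) ^ k := by gcongr
    _ ≤ ∑' k : ℕ, (1 / 5 : ℝ) ^ k :=
        (summable_geometric_of_lt_one (by norm_num) (by norm_num)).sum_le_tsum _
          fun k _ => by positivity
    _ = 5 / 4 := by rw [tsum_geometric_of_lt_one (by norm_num) (by norm_num)]; norm_num

section
variable (Ω : Type*) [Fintype Ω] [DecidableEq Ω] (τ : ℝ)

/-- the heat operator -/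
noncomputable def heat : EuclideanSpace ℝ (Equiv.Perm Ω) →L[ℝ] EuclideanSpace ℝ (Equiv.Perm Ω) :=
  NormedSpace.exp ((-τ) • Lap (regRep Ω))

theorem lap_isSymm : (Lap (regRep Ω) : EuclideanSpace ℝ (Equiv.Perm Ω) →ₗ[ℝ]
    EuclideanSpace ℝ (Equiv.Perm Ω)).IsSymmetric :=
  fun u v => lap_symm_heat (regRep_isOrth Ω) u v

theorem exists_basis : ∃ (N : ℕ) (b : OrthonormalBasis (Fin N) ℝ (EuclideanSpace ℝ (Equiv.Perm Ω)))
    (lam : Fin N → ℝ), ∀ i, Lap (regRep Ω) (b i) = lam i • b i := by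
  refine ⟨_, (lap_isSymm Ω).eigenvectorBasis rfl, (lap_isSymm Ω).eigenvalues rfl, fun i => ?_⟩
  exact (lap_isSymm Ω).apply_eigenvectorBasis rfl i

theorem heat_comm (g : Equiv.Perm Ω) (v : EuclideanSpace ℝ (Equiv.Perm Ω)) :
    heat Ω τ (regRep Ω g v) = regRep Ω g (heat Ω τ v) := by
  have h1 : Commute (Lap (regRep Ω)) (regRep Ω g) := by
    ext1 v
    exact lap_rho_comm g v
  have h2 : Commute (heat Ω τ) (regRep Ω g) := (h1.smul_left (-τ)).exp_left
  have h3 := congrArg (fun T : EuclideanSpace ℝ (Equiv.Perm Ω) →L[ℝ]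
    EuclideanSpace ℝ (Equiv.Perm Ω) => T v) h2.eq
  exact h3

variable {Ω τ}
variable {N : ℕ} (b : OrthonormalBasis (Fin N) ℝ (EuclideanSpace ℝ (Equiv.Perm Ω)))
    (lam : Fin N → ℝ) (hb : ∀ i, Lap (regRep Ω) (b i) = lam i • b i)
include hb

theorem heat_basis (i : Fin N) : heat Ω τ (b i) = Real.exp (-(τ * lam i)) • b i := by
  unfold heat
  rw [exp_eigen _ (b i) (-(τ * lam i))]
  rw [ContinuousLinearMap.smul_apply, hb, smul_smul]
  congr 1
  ring

theorem heat_inner (v w : EuclideanSpace ℝ (Equiv.Perm Ω)) :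
    inner ℝ (heat Ω τ v) w = ∑ i, Real.exp (-(τ * lam i)) * inner ℝ (b i) v * inner ℝ (b i) w := by
  conv_lhs => rw [← b.sum_repr' v, map_sum]
  rw [sum_inner]
  refine Finset.sum_congr rfl fun i _ => ?_
  rw [map_smul, heat_basis b lam hb, real_inner_smul_left, real_inner_smul_left]
  ring

theorem heat_symm (v w : EuclideanSpace ℝ (Equiv.Perm Ω)) :
    inner ℝ (heat Ω τ v) w = inner ℝ v (heat Ω τ w) := by
  rw [real_inner_comm (heat Ω τ w) v, heat_inner b lam hb, heat_inner b lam hb]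
  refine Finset.sum_congr rfl fun i _ => ?_
  ring

theorem heat_norm (v : EuclideanSpace ℝ (Equiv.Perm Ω)) :
    ‖heat Ω τ v‖ ^ 2 = ∑ i, Real.exp (-(2 * τ * lam i)) * (inner ℝ (b i) v) ^ 2 := by
  rw [← real_inner_self_eq_norm_sq, heat_inner b lam hb]
  refine Finset.sum_congr rfl fun i _ => ?_
  have h1 : inner ℝ (b i) (heat Ω τ v) = Real.exp (-(τ * lam i)) * inner ℝ (b i) v := by
    rw [← heat_symm b lam hb, heat_basis b lam hb, real_inner_smul_left]
  rw [h1]
  have h2 : Real.exp (-(2 * τ * lam i)) = Real.exp (-(τ * lam i)) * Real.exp (-(τ * lam i)) := by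
    rw [← Real.exp_add]; congr 1; ring
  rw [h2]; ring

end

/-- **Heat kernel bound.** -/
theorem heat_bound (Ω : Type*) [Fintype Ω] [DecidableEq Ω] [Nonempty Ω] (τ : ℝ)
    (hτ : 5 * (Fintype.card Ω : ℝ) ^ 4 ≤ Real.exp τ) :
    ‖NormedSpace.exp ((-τ) • Lap (regRep Ω)) (delta0 Ω)‖ ^ 2 ≤
      1 / (4 * (Fintype.card (Equiv.Perm Ω) : ℝ)) := by
  classical
  obtain ⟨N, b, lam, hb⟩ := exists_basis Ω
  have hG0 : (0 : ℝ) < Fintype.card (Equiv.Perm Ω) := by exact_mod_cast Fintype.card_pos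
  set G : ℝ := (Fintype.card (Equiv.Perm Ω) : ℝ) with hG
  show ‖heat Ω τ (delta0 Ω)‖ ^ 2 ≤ 1 / (4 * G)
  -- the vectors
  let e : Equiv.Perm Ω → EuclideanSpace ℝ (Equiv.Perm Ω) := fun g => EuclideanSpace.single g (1:ℝ)
  let u : EuclideanSpace ℝ (Equiv.Perm Ω) := WithLp.toLp 2 fun _ => 1 / G
  have hd : delta0 Ω = e 1 - u := by
    ext g
    simp only [delta0, e, u, PiLp.sub_apply, EuclideanSpace.single_apply]
    rfl
  have he : ∀ g, e g = regRep Ω g (e 1) := by
    intro g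
    ext h
    rw [regRep_apply]
    simp only [e, EuclideanSpace.single_apply]
    congr 1
    rw [eq_iff_iff, inv_mul_eq_one, eq_comm]
  have hu : Lap (regRep Ω) u = (0 : ℝ) • u := by
    have h1 : ∀ g, regRep Ω g u = u := by
      intro g; ext h; rw [regRep_apply]
    rw [zero_smul]
    unfold Lap
    simp only [smul_apply, sum_apply, sub_apply, one_apply_eq_self, h1, sub_self,
      Finset.sum_const_zero, smul_zero]
  have hTu : heat Ω τ u = u := by
    unfold heat
    rw [exp_eigen _ u 0]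
    · simp
    · rw [ContinuousLinearMap.smul_apply, hu]; simp
  have hTe : ∀ g, ‖heat Ω τ (e g)‖ = ‖heat Ω τ (e 1)‖ := by
    intro g
    rw [he g, heat_comm, regRep_isOrth Ω g]
  have hinner_eu : inner ℝ (e 1) u = 1 / G := by
    simp only [e, u]
    rw [EuclideanSpace.inner_single_left]
    simp
  have hnorm_u : ‖u‖ ^ 2 = 1 / G := by
    rw [EuclideanSpace.norm_sq_eq]
    simp only [u]
    rw [Finset.sum_const, Finset.card_univ, nsmul_eq_mul, ← hG, Real.norm_eq_abs, sq_abs]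
    field_simp
  have h1 : ‖heat Ω τ (delta0 Ω)‖ ^ 2 = ‖heat Ω τ (e 1)‖ ^ 2 - 1 / G := by
    rw [hd, map_sub, hTu, norm_sub_sq_real, heat_symm b lam hb, hTu, hinner_eu, hnorm_u]
    ring
  have h2 : G * ‖heat Ω τ (e 1)‖ ^ 2 = ∑ i, Real.exp (-(2 * τ * lam i)) := by
    calc G * ‖heat Ω τ (e 1)‖ ^ 2 = ∑ g : Equiv.Perm Ω, ‖heat Ω τ (e g)‖ ^ 2 := by
          simp_rw [hTe]
          rw [Finset.sum_const, Finset.card_univ, nsmul_eq_mul]
      _ = ∑ g : Equiv.Perm Ω, ∑ i, Real.exp (-(2 * τ * lam i)) * (inner ℝ (b i) (e g)) ^ 2 := by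
          refine Finset.sum_congr rfl fun g _ => heat_norm b lam hb (e g)
      _ = ∑ i, ∑ g : Equiv.Perm Ω, Real.exp (-(2 * τ * lam i)) * (inner ℝ (b i) (e g)) ^ 2 :=
          Finset.sum_comm
      _ = ∑ i, Real.exp (-(2 * τ * lam i)) := by
          refine Finset.sum_congr rfl fun i _ => ?_
          rw [← Finset.mul_sum]
          have h3 : ∑ g : Equiv.Perm Ω, (inner ℝ (b i) (e g)) ^ 2 = 1 := by
            have h4 := (EuclideanSpace.norm_sq_eq (b i)).symm
            rw [b.norm_eq_one, one_pow] at h4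
            rw [← h4]
            refine Finset.sum_congr rfl fun g _ => ?_
            simp only [e]
            rw [EuclideanSpace.inner_single_right, Real.norm_eq_abs, sq_abs]
            simp
          rw [h3, mul_one]
  have hlam0 : ∀ i, 0 ≤ lam i := by
    intro i
    have h3 := Lap_ge_of_anti (regRep Ω) (regRep_isOrth Ω) [] (by simp [DisjPairs]) (b i)
      (by intro p hp; simp at hp)
    rw [hb, inner_smul_right, real_inner_self_eq_norm_sq, b.norm_eq_one] at h3
    simpa using h3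
  have hcard : ∀ k : ℕ, ((Finset.univ.filter fun i => lam i < ((k : ℝ) + 1) / 2).card : ℝ) ≤
      (Fintype.card Ω : ℝ) ^ (4 * k) := by
    intro k
    have h3 := card_le_of_alt (Ω := Ω) k
      (ι := {i // i ∈ Finset.univ.filter fun i => lam i < ((k : ℝ) + 1) / 2}) (fun i => b i.1)
      (b.orthonormal.linearIndependent.comp _ Subtype.val_injective) (by
        intro i l hl hlen
        exact alt_eq_zero_of_eigen (regRep Ω) (regRep_isOrth Ω) (b i.1) (lam i.1) (hb i.1) k
          (Finset.mem_filter.1 i.2).2 l hl hlen)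
    rw [Fintype.card_coe] at h3
    exact_mod_cast h3
  have h3 := sum_exp_le lam hlam0 (Fintype.card Ω : ℝ) τ
    (by exact_mod_cast Fintype.card_pos) hτ hcard
  rw [h1, le_div_iff₀ (by positivity)]
  rw [← h2] at h3
  have h4 : (‖heat Ω τ (e 1)‖ ^ 2 - 1 / G) * (4 * G) = 4 * (G * ‖heat Ω τ (e 1)‖ ^ 2) - 4 := by
    field_simp
  rw [h4]
  linarith

end P162
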