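/-
P162 (Thorp shuffle), module Link: `d` Thorp shuffles of `2^d` cards = one butterfly round `Rop`.
(helper24)
-/
import Vale.Agent.P162.Thorp

namespace P162

open scoped BigOperators

/-! ### averaging projections -/

section Avg

variable {G H A : Type*} [Group G] [Group H] [Monoid A]

/-- `P` is the averaging projection of the group generated by `S`. -/
structure IsAvg (ρ : G →* A) (S : Set G) (P : A) : Prop where
  left : ∀ g ∈ S, ρ g * P = P
  right : ∀ g ∈ S, P * ρ g = P
  fixL : ∀ T, (∀ g ∈ S, ρ g * T = T) → P * T = T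
  fixR : ∀ T, (∀ g ∈ S, T * ρ g = T) → T * P = T

theorem IsAvg.uniq {ρ : G →* A} {S : Set G} {P P' : A} (h : IsAvg ρ S P) (h' : IsAvg ρ S P') :
    P = P' := by
  have h1 : P' * P = P := h'.fixL P h.left
  have h2 : P' * P = P' := h.fixR P' h'.right
  exact h1.symm.trans h2

theorem map_mul_inv_cancel' (ρ : G →* A) (g : G) : ρ g * ρ g⁻¹ = 1 := by
  rw [← map_mul, mul_inv_cancel, map_one]

theorem map_inv_mul_cancel' (ρ : G →* A) (g : G) : ρ g⁻¹ * ρ g = 1 := by
  rw [← map_mul, inv_mul_cancel, map_one]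

theorem IsAvg.conj {ρ : G →* A} {S : Set G} {P : A} (h : IsAvg ρ S P) (g : G) :
    IsAvg ρ ((fun s => g * s * g⁻¹) '' S) (ρ g * P * ρ g⁻¹) where
  left := by
    rintro _ ⟨s, hs, rfl⟩
    calc ρ (g * s * g⁻¹) * (ρ g * P * ρ g⁻¹) = ρ g * ρ s * (ρ g⁻¹ * ρ g) * P * ρ g⁻¹ := by
          simp only [map_mul, mul_assoc]
      _ = ρ g * (ρ s * P) * ρ g⁻¹ := by
          rw [map_inv_mul_cancel', mul_one, mul_assoc (ρ g)]
      _ = ρ g * P * ρ g⁻¹ := by rw [h.left s hs]
  right := by
    rintro _ ⟨s, hs, rfl⟩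
    calc ρ g * P * ρ g⁻¹ * ρ (g * s * g⁻¹) = ρ g * P * (ρ g⁻¹ * ρ g) * ρ s * ρ g⁻¹ := by
          simp only [map_mul, mul_assoc]
      _ = ρ g * (P * ρ s) * ρ g⁻¹ := by
          rw [map_inv_mul_cancel', mul_one, mul_assoc (ρ g)]
      _ = ρ g * P * ρ g⁻¹ := by rw [h.right s hs]
  fixL := by
    intro T hT
    have h1 : P * (ρ g⁻¹ * T) = ρ g⁻¹ * T := by
      refine h.fixL _ fun s hs => ?_
      have := hT _ ⟨s, hs, rfl⟩
      calc ρ s * (ρ g⁻¹ * T) = (ρ g⁻¹ * ρ g) * ρ s * ρ g⁻¹ * T := by
            rw [map_inv_mul_cancel', one_mul, mul_assoc]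
        _ = ρ g⁻¹ * (ρ (g * s * g⁻¹) * T) := by simp only [map_mul, mul_assoc]
        _ = ρ g⁻¹ * T := by rw [this]
    calc ρ g * P * ρ g⁻¹ * T = ρ g * (P * (ρ g⁻¹ * T)) := by simp only [mul_assoc]
      _ = (ρ g * ρ g⁻¹) * T := by rw [h1, mul_assoc]
      _ = T := by rw [map_mul_inv_cancel', one_mul]
  fixR := by
    intro T hT
    have h1 : (T * ρ g) * P = T * ρ g := by
      refine h.fixR _ fun s hs => ?_
      have := hT _ ⟨s, hs, rfl⟩
      calc (T * ρ g) * ρ s = T * ρ g * ρ s * (ρ g⁻¹ * ρ g) := by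
            rw [map_inv_mul_cancel', mul_one]
        _ = T * ρ (g * s * g⁻¹) * ρ g := by simp only [map_mul, mul_assoc]
        _ = T * ρ g := by rw [this]
    calc T * (ρ g * P * ρ g⁻¹) = ((T * ρ g) * P) * ρ g⁻¹ := by simp only [mul_assoc]
      _ = T * (ρ g * ρ g⁻¹) := by rw [h1, mul_assoc]
      _ = T := by rw [map_mul_inv_cancel', mul_one]

theorem IsAvg.comp {ρ : G →* A} {f : H →* G} {S : Set H} {P : A} (h : IsAvg (ρ.comp f) S P) :
    IsAvg ρ (f '' S) P where
  left := by rintro _ ⟨s, hs, rfl⟩; exact h.left s hs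
  right := by rintro _ ⟨s, hs, rfl⟩; exact h.right s hs
  fixL := fun T hT => h.fixL T fun s hs => hT _ ⟨s, hs, rfl⟩
  fixR := fun T hT => h.fixR T fun s hs => hT _ ⟨s, hs, rfl⟩

theorem IsAvg.commute_map {ρ : G →* A} {S : Set G} {P : A} (h : IsAvg ρ S P) (g : G)
    (hg : ∀ s ∈ S, g * s = s * g) : ρ g * P = P * ρ g := by
  have hS : (fun s => g * s * g⁻¹) '' S = S := by
    ext t
    constructor
    · rintro ⟨s, hs, rfl⟩
      simp only
      rw [hg s hs, mul_assoc, mul_inv_cancel, mul_one]; exact hs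
    · intro ht
      refine ⟨t, ht, ?_⟩
      simp only
      rw [hg t ht, mul_assoc, mul_inv_cancel, mul_one]
  have h1 := h.conj g
  rw [hS] at h1
  have h2 := h.uniq h1
  calc ρ g * P = ρ g * P * (ρ g⁻¹ * ρ g) := by rw [map_inv_mul_cancel', mul_one]
    _ = (ρ g * P * ρ g⁻¹) * ρ g := by simp only [mul_assoc]
    _ = P * ρ g := by rw [← h2]

theorem IsAvg.commute {ρ : G →* A} {S S' : Set G} {P P' : A} (h : IsAvg ρ S P)
    (h' : IsAvg ρ S' P') (hc : ∀ s ∈ S, ∀ s' ∈ S', s' * s = s * s') : P * P' = P' * P := by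
  have hcm : ∀ s' ∈ S', ρ s' * P = P * ρ s' := fun s' hs' =>
    h.commute_map s' fun s hs => hc s hs s' hs'
  have h1 : P' * (P * P') = P * P' := by
    refine h'.fixL _ fun s' hs' => ?_
    rw [← mul_assoc, hcm s' hs', mul_assoc, h'.left s' hs']
  have h2 : (P' * P) * P' = P' * P := by
    refine h'.fixR _ fun s' hs' => ?_
    rw [mul_assoc, ← hcm s' hs', ← mul_assoc, h'.right s' hs']
  rw [← h1, ← mul_assoc, h2]

theorem IsAvg.union {ρ : G →* A} {S S' : Set G} {P P' : A} (h : IsAvg ρ S P)
    (h' : IsAvg ρ S' P') (hc : ∀ s ∈ S, ∀ s' ∈ S', s' * s = s * s') :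
    IsAvg ρ (S ∪ S') (P * P') := by
  have hcm : ∀ s' ∈ S', ρ s' * P = P * ρ s' := fun s' hs' =>
    h.commute_map s' fun s hs => hc s hs s' hs'
  have hPP := h.commute h' hc
  refine ⟨?_, ?_, ?_, ?_⟩
  · rintro g (hg | hg)
    · rw [← mul_assoc, h.left g hg]
    · rw [← mul_assoc, hcm g hg, mul_assoc, h'.left g hg]
  · rintro g (hg | hg)
    · rw [hPP, mul_assoc, h.right g hg]
    · rw [mul_assoc, h'.right g hg]
  · intro T hT
    rw [mul_assoc, h'.fixL T fun s hs => hT s (Or.inr hs), h.fixL T fun s hs => hT s (Or.inl hs)]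
  · intro T hT
    rw [← mul_assoc, h.fixR T fun s hs => hT s (Or.inl hs),
      h'.fixR T fun s hs => hT s (Or.inr hs)]

end Avg

/-- existence of averaging projections for finite groups -/
theorem exists_isAvg {G A : Type*} [Group G] [Finite G] [Ring A] [Algebra ℝ A] (ρ : G →* A)
    (S : Set G) : ∃ P, IsAvg ρ S P := by
  classical
  set K := Subgroup.closure S with hK
  have : Fintype K := Fintype.ofFinite K
  have hcard : (Fintype.card K : ℝ) ≠ 0 := by
    have : 0 < Fintype.card K := Fintype.card_pos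
    positivity
  refine ⟨(1 / (Fintype.card K : ℝ)) • ∑ g : K, ρ (g : G), ?_, ?_, ?_, ?_⟩
  · intro s hs
    have hsK : s ∈ K := Subgroup.subset_closure hs
    rw [mul_smul_comm, Finset.mul_sum]
    congr 1
    rw [← Equiv.sum_comp (Equiv.mulLeft (⟨s, hsK⟩ : K)) (fun g : K => ρ (g : G))]
    refine Finset.sum_congr rfl fun g _ => ?_
    rw [← map_mul]; rfl
  · intro s hs
    have hsK : s ∈ K := Subgroup.subset_closure hs
    rw [smul_mul_assoc, Finset.sum_mul]
    congr 1
    rw [← Equiv.sum_comp (Equiv.mulRight (⟨s, hsK⟩ : K)) (fun g : K => ρ (g : G))]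
    refine Finset.sum_congr rfl fun g _ => ?_
    rw [← map_mul]; rfl
  · intro T hT
    have h1 : ∀ g ∈ K, ρ g * T = T := by
      intro g hg
      induction hg using Subgroup.closure_induction with
      | mem x hx => exact hT x hx
      | one => rw [map_one, one_mul]
      | mul x y _ _ hx hy => rw [map_mul, mul_assoc, hy, hx]
      | inv x _ hx =>
        calc ρ x⁻¹ * T = ρ x⁻¹ * (ρ x * T) := by rw [hx]
          _ = T := by rw [← mul_assoc, map_inv_mul_cancel', one_mul]
    have h3 : ∀ g : K, ρ (g : G) * T = T := fun g => h1 (g : G) g.2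
    rw [smul_mul_assoc, Finset.sum_mul, Finset.sum_congr rfl (fun g _ => h3 g),
      Finset.sum_const, Finset.card_univ, ← Nat.cast_smul_eq_nsmul ℝ, smul_smul,
      one_div, inv_mul_cancel₀ hcard, one_smul]
  · intro T hT
    have h1 : ∀ g ∈ K, T * ρ g = T := by
      intro g hg
      induction hg using Subgroup.closure_induction with
      | mem x hx => exact hT x hx
      | one => rw [map_one, mul_one]
      | mul x y _ _ hx hy => rw [map_mul, ← mul_assoc, hx, hy]
      | inv x _ hx =>
        calc T * ρ x⁻¹ = (T * ρ x) * ρ x⁻¹ := by rw [hx]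
          _ = T := by rw [mul_assoc, map_mul_inv_cancel', mul_one]
    have h3 : ∀ g : K, T * ρ (g : G) = T := fun g => h1 (g : G) g.2
    rw [mul_smul_comm, Finset.mul_sum, Finset.sum_congr rfl (fun g _ => h3 g),
      Finset.sum_const, Finset.card_univ, ← Nat.cast_smul_eq_nsmul ℝ, smul_smul,
      one_div, inv_mul_cancel₀ hcard, one_smul]

/-! ### `Qop` is an averaging projection -/

section Q

variable {κ : Type*} [DecidableEq κ]

theorem swap_mul_flips (p : κ) (ω : κ → Bool) :
    Equiv.swap (p, false) (p, true) * flips ω = flips (Function.update ω p (!ω p)) := by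
  apply Equiv.ext
  rintro ⟨q, b⟩
  by_cases hq : q = p
  · subst hq
    cases b <;> cases h : ω q <;> simp [flips, h]
  · have h1 : ∀ c, ((q, c) : κ × Bool) ≠ (p, false) := fun c h => hq (congrArg Prod.fst h)
    have h2 : ∀ c, ((q, c) : κ × Bool) ≠ (p, true) := fun c h => hq (congrArg Prod.fst h)
    simp only [Equiv.Perm.mul_apply, flips, Equiv.coe_fn_mk]
    rw [Equiv.swap_apply_of_ne_of_ne (h1 _) (h2 _), Function.update_of_ne hq]

theorem flips_mul_swap (p : κ) (ω : κ → Bool) :
    flips ω * Equiv.swap (p, false) (p, true) = flips (Function.update ω p (!ω p)) := by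
  apply Equiv.ext
  rintro ⟨q, b⟩
  by_cases hq : q = p
  · subst hq
    cases b <;> cases h : ω q <;> simp [flips, h]
  · have h1 : ∀ c, ((q, c) : κ × Bool) ≠ (p, false) := fun c h => hq (congrArg Prod.fst h)
    have h2 : ∀ c, ((q, c) : κ × Bool) ≠ (p, true) := fun c h => hq (congrArg Prod.fst h)
    simp only [Equiv.Perm.mul_apply]
    rw [Equiv.swap_apply_of_ne_of_ne (h1 _) (h2 _)]
    simp only [flips, Equiv.coe_fn_mk]
    rw [Function.update_of_ne hq]

/-- toggling the value at `p` -/
def toggle (p : κ) : Equiv.Perm (κ → Bool) where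
  toFun ω := Function.update ω p (!ω p)
  invFun ω := Function.update ω p (!ω p)
  left_inv ω := by
    ext q
    by_cases hq : q = p
    · subst hq; simp
    · simp [hq]
  right_inv ω := by
    ext q
    by_cases hq : q = p
    · subst hq; simp
    · simp [Function.update_of_ne hq]

theorem flips_mem_closure (s : Finset κ) :
    flips (fun q => decide (q ∈ s)) ∈ Subgroup.closure
      (Set.range fun p : κ => Equiv.swap ((p, false) : κ × Bool) (p, true)) := by
  induction s using Finset.induction_on with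
  | empty =>
    have : flips (fun q : κ => decide (q ∈ (∅ : Finset κ))) = 1 := by
      apply Equiv.ext
      rintro ⟨q, b⟩
      simp [flips]
    rw [this]
    exact one_mem _
  | insert p s hp ih =>
    have : flips (fun q : κ => decide (q ∈ insert p s)) =
        Equiv.swap ((p, false) : κ × Bool) (p, true) * flips (fun q => decide (q ∈ s)) := by
      rw [swap_mul_flips]
      congr 1
      ext q
      by_cases hq : q = p
      · subst hq; simp [hp]
      · simp [hq]
    rw [this]
    exact mul_mem (Subgroup.subset_closure ⟨p, rfl⟩) ih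

theorem isAvg_Qop [Fintype κ] {E : Type*} [NormedAddCommGroup E] [InnerProductSpace ℝ E]
    (ρ : Equiv.Perm (κ × Bool) →* (E →L[ℝ] E)) :
    IsAvg ρ (Set.range fun p : κ => Equiv.swap ((p, false) : κ × Bool) (p, true)) (Qop ρ) := by
  classical
  have hcard : Fintype.card (κ → Bool) = 2 ^ Fintype.card κ := by simp
  have h2 : ((2 : ℝ) ^ Fintype.card κ) ≠ 0 := by positivity
  refine ⟨?_, ?_, ?_, ?_⟩
  · rintro _ ⟨p, rfl⟩
    unfold Qop
    rw [mul_smul_comm, Finset.mul_sum]
    congr 1
    rw [← Equiv.sum_comp (toggle p) (fun ω : κ → Bool => ρ (flips ω))]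
    refine Finset.sum_congr rfl fun ω _ => ?_
    rw [← map_mul, swap_mul_flips]; rfl
  · rintro _ ⟨p, rfl⟩
    unfold Qop
    rw [smul_mul_assoc, Finset.sum_mul]
    congr 1
    rw [← Equiv.sum_comp (toggle p) (fun ω : κ → Bool => ρ (flips ω))]
    refine Finset.sum_congr rfl fun ω _ => ?_
    rw [← map_mul, flips_mul_swap]; rfl
  · intro T hT
    have h1 : ∀ g ∈ Subgroup.closure
        (Set.range fun p : κ => Equiv.swap ((p, false) : κ × Bool) (p, true)), ρ g * T = T := by
      intro g hg
      induction hg using Subgroup.closure_induction with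
      | mem x hx => exact hT x hx
      | one => rw [map_one, one_mul]
      | mul x y _ _ hx hy => rw [map_mul, mul_assoc, hy, hx]
      | inv x _ hx =>
        calc ρ x⁻¹ * T = ρ x⁻¹ * (ρ x * T) := by rw [hx]
          _ = T := by rw [← mul_assoc, map_inv_mul_cancel', one_mul]
    have h3 : ∀ ω : κ → Bool, ρ (flips ω) * T = T := by
      intro ω
      have := h1 _ (flips_mem_closure (Finset.univ.filter fun q => ω q = true))
      simpa using this
    unfold Qop
    rw [smul_mul_assoc, Finset.sum_mul, Finset.sum_congr rfl (fun ω _ => h3 ω),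
      Finset.sum_const, Finset.card_univ, hcard, ← Nat.cast_smul_eq_nsmul ℝ, smul_smul,
      Nat.cast_pow, Nat.cast_ofNat, one_div, inv_mul_cancel₀ h2, one_smul]
  · intro T hT
    have h1 : ∀ g ∈ Subgroup.closure
        (Set.range fun p : κ => Equiv.swap ((p, false) : κ × Bool) (p, true)), T * ρ g = T := by
      intro g hg
      induction hg using Subgroup.closure_induction with
      | mem x hx => exact hT x hx
      | one => rw [map_one, mul_one]
      | mul x y _ _ hx hy => rw [map_mul, ← mul_assoc, hx, hy]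
      | inv x _ hx =>
        calc T * ρ x⁻¹ = (T * ρ x) * ρ x⁻¹ := by rw [hx]
          _ = T := by rw [mul_assoc, map_mul_inv_cancel', mul_one]
    have h3 : ∀ ω : κ → Bool, T * ρ (flips ω) = T := by
      intro ω
      have := h1 _ (flips_mem_closure (Finset.univ.filter fun q => ω q = true))
      simpa using this
    unfold Qop
    rw [mul_smul_comm, Finset.mul_sum, Finset.sum_congr rfl (fun ω _ => h3 ω),
      Finset.sum_const, Finset.card_univ, hcard, ← Nat.cast_smul_eq_nsmul ℝ, smul_smul,
      Nat.cast_pow, Nat.cast_ofNat, one_div, inv_mul_cancel₀ h2, one_smul]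

end Q

/-! ### the cube -/

/-- flip of the coordinate `j` -/
def flipAt : (n : ℕ) → ℕ → Cube n → Cube n
  | 0, _, x => x
  | (n + 1), j, x =>
    let y : Cube n × Bool := x
    ((if j = n then (y.1, !y.2) else (flipAt n j y.1, y.2)) : Cube n × Bool)

/-- the coordinate `j` -/
def bit : (n : ℕ) → ℕ → Cube n → Bool
  | 0, _, _ => false
  | (n + 1), j, x =>
    let y : Cube n × Bool := x
    if j = n then y.2 else bit n j y.1

/-- prepend a bit -/
def consB : (n : ℕ) → Bool → Cube n → Cube (n + 1)
  | 0, b, x => ((x, b) : Cube 0 × Bool)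
  | (n + 1), b, x =>
    let y : Cube n × Bool := x
    ((consB n b y.1, y.2) : Cube (n + 1) × Bool)

/-- the number with given binary digits -/
def val : (n : ℕ) → Cube n → ℕ
  | 0, _ => 0
  | (n + 1), x =>
    let y : Cube n × Bool := x
    val n y.1 + (if y.2 then 2 ^ n else 0)

theorem flipAt_top (n : ℕ) (x : Cube n) (b : Bool) :
    flipAt (n + 1) n ((x, b) : Cube n × Bool) = ((x, !b) : Cube n × Bool) := by
  show ((if n = n then (x, !b) else (flipAt n n x, b)) : Cube n × Bool) = _
  rw [if_pos rfl]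

theorem flipAt_low {n j : ℕ} (h : j ≠ n) (x : Cube n) (b : Bool) :
    flipAt (n + 1) j ((x, b) : Cube n × Bool) = ((flipAt n j x, b) : Cube n × Bool) := by
  show ((if j = n then (x, !b) else (flipAt n j x, b)) : Cube n × Bool) = _
  rw [if_neg h]

theorem bit_top (n : ℕ) (x : Cube n) (b : Bool) :
    bit (n + 1) n ((x, b) : Cube n × Bool) = b := by
  show (if n = n then b else bit n n x) = _
  rw [if_pos rfl]

theorem bit_low {n j : ℕ} (h : j ≠ n) (x : Cube n) (b : Bool) :
    bit (n + 1) j ((x, b) : Cube n × Bool) = bit n j x := by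
  show (if j = n then b else bit n j x) = _
  rw [if_neg h]

theorem consB_succ (n : ℕ) (b : Bool) (x : Cube n) (c : Bool) :
    consB (n + 1) b ((x, c) : Cube n × Bool) = ((consB n b x, c) : Cube (n + 1) × Bool) := rfl

theorem val_succ (n : ℕ) (x : Cube n) (b : Bool) :
    val (n + 1) ((x, b) : Cube n × Bool) = val n x + (if b then 2 ^ n else 0) := rfl

theorem flip_cons_zero (n : ℕ) (b : Bool) (x : Cube n) :
    flipAt (n + 1) 0 (consB n b x) = consB n (!b) x := by
  induction n with
  | zero => exact flipAt_top 0 x b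
  | succ n ih =>
    obtain ⟨x, c⟩ := (x : Cube n × Bool)
    rw [consB_succ, consB_succ, flipAt_low (by omega), ih]

theorem flip_cons_succ (n : ℕ) (j : ℕ) (hj : j < n) (b : Bool) (x : Cube n) :
    flipAt (n + 1) (j + 1) (consB n b x) = consB n b (flipAt n j x) := by
  induction n with
  | zero => omega
  | succ n ih =>
    obtain ⟨x, c⟩ := (x : Cube n × Bool)
    rw [consB_succ]
    by_cases h : j = n
    · subst h
      rw [flipAt_top, flipAt_top, consB_succ]
    · rw [flipAt_low (by omega), flipAt_low h, consB_succ, ih (by omega)]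

theorem bit_cons_zero (n : ℕ) (b : Bool) (x : Cube n) :
    bit (n + 1) 0 (consB n b x) = b := by
  induction n with
  | zero => exact bit_top 0 x b
  | succ n ih =>
    obtain ⟨x, c⟩ := (x : Cube n × Bool)
    rw [consB_succ, bit_low (by omega), ih]

theorem bit_cons_succ (n : ℕ) (j : ℕ) (hj : j < n) (b : Bool) (x : Cube n) :
    bit (n + 1) (j + 1) (consB n b x) = bit n j x := by
  induction n with
  | zero => omega
  | succ n ih =>
    obtain ⟨x, c⟩ := (x : Cube n × Bool)
    rw [consB_succ]
    by_cases h : j = n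
    · subst h
      rw [bit_top, bit_top]
    · rw [bit_low (by omega), bit_low h, ih (by omega)]

theorem bit_ext (n : ℕ) (x y : Cube n) (h : ∀ j < n, bit n j x = bit n j y) : x = y := by
  induction n with
  | zero => rfl
  | succ n ih =>
    obtain ⟨x, c⟩ := (x : Cube n × Bool)
    obtain ⟨y, c'⟩ := (y : Cube n × Bool)
    have h1 := h n (by omega)
    rw [bit_top, bit_top] at h1
    have h2 : x = y := ih x y fun j hj => by
      have := h j (by omega)
      rwa [bit_low (by omega), bit_low (by omega)] at this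
    rw [h1, h2]

theorem val_lt (n : ℕ) (x : Cube n) : val n x < 2 ^ n := by
  induction n with
  | zero => simp [val]
  | succ n ih =>
    obtain ⟨x, c⟩ := (x : Cube n × Bool)
    have := ih x
    rw [val_succ, pow_succ]
    split <;> omega

theorem val_inj (n : ℕ) (x y : Cube n) (h : val n x = val n y) : x = y := by
  induction n with
  | zero => rfl
  | succ n ih =>
    obtain ⟨x, c⟩ := (x : Cube n × Bool)
    obtain ⟨y, c'⟩ := (y : Cube n × Bool)
    rw [val_succ, val_succ] at h
    have hx := val_lt n x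
    have hy := val_lt n y
    cases c <;> cases c' <;> simp only [Bool.false_eq_true, if_true, if_false] at h
    · rw [ih x y (by omega)]
    · omega
    · omega
    · rw [ih x y (by omega)]

theorem val_cons (n : ℕ) (b : Bool) (x : Cube n) :
    val (n + 1) (consB n b x) = (if b then 1 else 0) + 2 * val n x := by
  induction n with
  | zero =>
    show val 1 ((x, b) : Cube 0 × Bool) = _
    rw [val_succ]; simp [val]
  | succ n ih =>
    obtain ⟨x, c⟩ := (x : Cube n × Bool)
    rw [consB_succ, val_succ, val_succ, ih, pow_succ]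
    split <;> split <;> omega

/-! ### the shuffle permutation on the cube -/

/-- perfect shuffle of the cube: cyclic rotation of the bits -/
noncomputable def rot (n : ℕ) : Equiv.Perm (Cube (n + 1)) :=
  Equiv.ofBijective (fun x => consB n (x : Cube n × Bool).2 (x : Cube n × Bool).1)
    (Finite.injective_iff_bijective.mp (by
      intro x y h
      obtain ⟨x, c⟩ := (x : Cube n × Bool)
      obtain ⟨y, c'⟩ := (y : Cube n × Bool)
      have h1 : val (n + 1) (consB n c x) = val (n + 1) (consB n c' y) := congrArg _ h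
      rw [val_cons, val_cons] at h1
      have h2 : val n x = val n y := by
        revert h1; split <;> split <;> intro h1 <;> omega
      have h3 : c = c' := by
        cases c <;> cases c' <;> simp only [Bool.false_eq_true, if_true, if_false] at h1 ⊢ <;>
          omega
      rw [val_inj n x y h2, h3]))

theorem rot_apply (n : ℕ) (x : Cube n) (b : Bool) :
    rot n ((x, b) : Cube n × Bool) = consB n b x := rfl

theorem rot_flip_top (n : ℕ) (x : Cube (n + 1)) :
    rot n (flipAt (n + 1) n x) = flipAt (n + 1) 0 (rot n x) := by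
  obtain ⟨x, c⟩ := (x : Cube n × Bool)
  rw [flipAt_top, rot_apply, rot_apply, flip_cons_zero]

theorem rot_flip_low (n j : ℕ) (hj : j < n) (x : Cube (n + 1)) :
    rot n (flipAt (n + 1) j x) = flipAt (n + 1) (j + 1) (rot n x) := by
  obtain ⟨x, c⟩ := (x : Cube n × Bool)
  rw [flipAt_low (by omega), rot_apply, rot_apply, flip_cons_succ n j hj]

theorem rot_pow_flip (n j : ℕ) (hj : j ≤ n) (x : Cube (n + 1)) :
    (rot n ^ (j + 1)) (flipAt (n + 1) n x) = flipAt (n + 1) j ((rot n ^ (j + 1)) x) := by
  induction j with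
  | zero => simpa using rot_flip_top n x
  | succ j ih =>
    rw [pow_succ' (rot n) (j + 1), Equiv.Perm.mul_apply, Equiv.Perm.mul_apply, ih (by omega),
      rot_flip_low n j (by omega)]

theorem bit_rot_zero (n : ℕ) (x : Cube (n + 1)) : bit (n + 1) 0 (rot n x) = bit (n + 1) n x := by
  obtain ⟨x, c⟩ := (x : Cube n × Bool)
  rw [rot_apply, bit_cons_zero, bit_top]

theorem bit_rot_succ (n j : ℕ) (hj : j < n) (x : Cube (n + 1)) :
    bit (n + 1) (j + 1) (rot n x) = bit (n + 1) j x := by
  obtain ⟨x, c⟩ := (x : Cube n × Bool)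
  rw [rot_apply, bit_cons_succ n j hj, bit_low (by omega)]

theorem bit_rot_pow (n k : ℕ) (hk : k ≤ n + 1) (j : ℕ) (hj : j ≤ n) (x : Cube (n + 1)) :
    bit (n + 1) j ((rot n ^ k) x) =
      if k ≤ j then bit (n + 1) (j - k) x else bit (n + 1) (j + (n + 1) - k) x := by
  induction k generalizing j with
  | zero => simp
  | succ k ih =>
    rw [pow_succ' (rot n) k, Equiv.Perm.mul_apply]
    rcases Nat.eq_zero_or_pos j with h0 | hpos
    · subst h0
      rw [bit_rot_zero, ih (by omega) n le_rfl, if_pos (by omega), if_neg (by omega)]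
      congr 1
      omega
    · obtain ⟨i, rfl⟩ : ∃ i, j = i + 1 := ⟨j - 1, by omega⟩
      rw [bit_rot_succ n i (by omega), ih (by omega) i (by omega)]
      by_cases h : k ≤ i
      · rw [if_pos h, if_pos (by omega)]
        congr 1
        omega
      · rw [if_neg h, if_neg (by omega)]
        congr 1
        omega

theorem rot_pow (n : ℕ) : rot n ^ (n + 1) = 1 := by
  apply Equiv.ext
  intro x
  refine bit_ext (n + 1) _ _ fun j hj => ?_
  rw [bit_rot_pow n (n + 1) le_rfl j (by omega), if_neg (by omega), Equiv.Perm.one_apply]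
  congr 1
  omega

/-- the generating swaps in direction `j` -/
def Dir (n j : ℕ) : Set (Equiv.Perm (Cube n)) :=
  Set.range fun x : Cube n => Equiv.swap x (flipAt n j x)

theorem dir_top (n : ℕ) : Dir (n + 1) n =
    Set.range fun p : Cube n => Equiv.swap ((p, false) : Cube n × Bool) (p, true) := by
  ext g
  constructor
  · rintro ⟨x, rfl⟩
    obtain ⟨x, c⟩ := (x : Cube n × Bool)
    refine ⟨x, ?_⟩
    simp only
    rw [flipAt_top]
    cases c
    · rfl
    · exact Equiv.swap_comm _ _
  · rintro ⟨p, rfl⟩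
    refine ⟨((p, false) : Cube n × Bool), ?_⟩
    simp only
    rw [flipAt_top]
    rfl

theorem half_swap {κ : Type*} [DecidableEq κ] (b : Bool) (x y : κ) :
    half b (Equiv.swap x y) = Equiv.swap ((x, b) : κ × Bool) (y, b) := by
  apply Equiv.ext
  rintro ⟨z, c⟩
  by_cases hc : c = b
  · subst hc
    have h1 : half c (Equiv.swap x y) (z, c) = (Equiv.swap x y z, c) := by
      simp [half, Equiv.prodCongrLeft]
    rw [h1]
    rcases eq_or_ne z x with h | h
    · subst h; rw [Equiv.swap_apply_left, Equiv.swap_apply_left]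
    · rcases eq_or_ne z y with h' | h'
      · subst h'; rw [Equiv.swap_apply_right, Equiv.swap_apply_right]
      · rw [Equiv.swap_apply_of_ne_of_ne h h', Equiv.swap_apply_of_ne_of_ne]
        · intro h3; exact h (congrArg Prod.fst h3)
        · intro h3; exact h' (congrArg Prod.fst h3)
  · have h1 : half b (Equiv.swap x y) (z, c) = (z, c) := by
      simp [half, Equiv.prodCongrLeft, hc]
    rw [h1, Equiv.swap_apply_of_ne_of_ne]
    · intro h3; exact hc (congrArg Prod.snd h3)
    · intro h3; exact hc (congrArg Prod.snd h3)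

theorem half_comm {κ : Type*} (g h : Equiv.Perm κ) :
    half true h * half false g = half false g * half true h := by
  apply Equiv.ext
  rintro ⟨z, c⟩
  cases c <;> simp [half, Equiv.prodCongrLeft]

theorem dir_low (n j : ℕ) (h : j ≠ n) : Dir (n + 1) j =
    ((half false : Equiv.Perm (Cube n) →* Equiv.Perm (Cube n × Bool)) '' Dir n j) ∪
      ((half true : Equiv.Perm (Cube n) →* Equiv.Perm (Cube n × Bool)) '' Dir n j) := by
  ext g
  constructor
  · rintro ⟨x, rfl⟩
    obtain ⟨x, c⟩ := (x : Cube n × Bool)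
    simp only
    rw [flipAt_low h]
    cases c
    · exact Or.inl ⟨_, ⟨x, rfl⟩, half_swap false _ _⟩
    · exact Or.inr ⟨_, ⟨x, rfl⟩, half_swap true _ _⟩
  · rintro (⟨_, ⟨x, rfl⟩, rfl⟩ | ⟨_, ⟨x, rfl⟩, rfl⟩)
    · refine ⟨((x, false) : Cube n × Bool), ?_⟩
      simp only
      rw [flipAt_low h]
      exact (half_swap false _ _).symm
    · refine ⟨((x, true) : Cube n × Bool), ?_⟩
      simp only
      rw [flipAt_low h]
      exact (half_swap true _ _).symm

theorem conj_dir (n j : ℕ) (hj : j ≤ n) :
    (fun s => rot n ^ (j + 1) * s * (rot n ^ (j + 1))⁻¹) '' Dir (n + 1) n = Dir (n + 1) j := by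
  ext g
  constructor
  · rintro ⟨_, ⟨x, rfl⟩, rfl⟩
    refine ⟨(rot n ^ (j + 1)) x, ?_⟩
    simp only
    rw [← rot_pow_flip n j hj]
    exact (Equiv.swap_apply_apply (rot n ^ (j + 1)) x (flipAt (n + 1) n x))
  · rintro ⟨y, rfl⟩
    refine ⟨_, ⟨(rot n ^ (j + 1))⁻¹ y, rfl⟩, ?_⟩
    simp only
    have e : (rot n ^ (j + 1)) ((rot n ^ (j + 1))⁻¹ y) = y := by
      rw [← Equiv.Perm.mul_apply, mul_inv_cancel, Equiv.Perm.one_apply]
    rw [← Equiv.swap_apply_apply (rot n ^ (j + 1)), rot_pow_flip n j hj, e]

theorem card_cube (n : ℕ) : Fintype.card (Cube n) = 2 ^ n := by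
  induction n with
  | zero => rfl
  | succ n ih =>
    have : Fintype.card (Cube (n + 1)) = Fintype.card (Cube n × Bool) := rfl
    rw [this, Fintype.card_prod, ih, Fintype.card_bool, pow_succ]

/-! ### the butterfly round as a product of directional averages -/

theorem prod_range_mul {A : Type*} [Monoid A] (n : ℕ) (a b : ℕ → A)
    (h : ∀ i j, a i * b j = b j * a i) :
    ((List.range n).map fun j => a j * b j).prod =
      ((List.range n).map a).prod * ((List.range n).map b).prod := by
  have hc : ∀ (m i : ℕ), ((List.range m).map b).prod * a i = a i * ((List.range m).map b).prod := by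
    intro m i
    induction m with
    | zero => simp
    | succ m ih =>
      rw [List.range_succ, List.map_append, List.prod_append, List.map_singleton,
        List.prod_singleton, mul_assoc, ← h i m, ← mul_assoc, ih, mul_assoc]
  induction n with
  | zero => simp
  | succ n ih =>
    rw [List.range_succ, List.map_append, List.prod_append, List.map_singleton,
      List.prod_singleton, ih, List.map_append, List.prod_append, List.map_singleton,
      List.prod_singleton, List.map_append, List.prod_append, List.map_singleton,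
      List.prod_singleton]
    calc ((List.range n).map a).prod * ((List.range n).map b).prod * (a n * b n)
        = ((List.range n).map a).prod * (((List.range n).map b).prod * a n) * b n := by
          simp only [mul_assoc]
      _ = ((List.range n).map a).prod * a n * (((List.range n).map b).prod * b n) := by
          rw [hc]; simp only [mul_assoc]

theorem rop_eq {E : Type*} [NormedAddCommGroup E] [InnerProductSpace ℝ E] (n : ℕ) :
    ∀ (ρ : Equiv.Perm (Cube n) →* (E →L[ℝ] E)) (P : ℕ → (E →L[ℝ] E)),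
      (∀ j < n, IsAvg ρ (Dir n j) (P j)) → Rop n ρ = ((List.range n).map P).prod := by
  induction n with
  | zero => intro ρ P _; simp [Rop]
  | succ n ih =>
    intro ρ P hP
    have hQ : P n = Qop (κ := Cube n) ρ := by
      have h1 := hP n (by omega)
      rw [dir_top] at h1
      exact h1.uniq (isAvg_Qop (κ := Cube n) ρ)
    set ρf : Equiv.Perm (Cube n) →* (E →L[ℝ] E) :=
      MonoidHom.comp (M := Equiv.Perm (Cube n)) (N := Equiv.Perm (Cube n × Bool)) ρ (half false)
      with hρf
    set ρt : Equiv.Perm (Cube n) →* (E →L[ℝ] E) :=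
      MonoidHom.comp (M := Equiv.Perm (Cube n)) (N := Equiv.Perm (Cube n × Bool)) ρ (half true)
      with hρt
    choose Af hAf using fun j : ℕ => exists_isAvg ρf (Dir n j)
    choose At hAt using fun j : ℕ => exists_isAvg ρt (Dir n j)
    have hAf' : ∀ j, IsAvg (G := Equiv.Perm (Cube n × Bool)) ρ
        ((half false : Equiv.Perm (Cube n) →* Equiv.Perm (Cube n × Bool)) '' Dir n j) (Af j) :=
      fun j => IsAvg.comp (hAf j)
    have hAt' : ∀ j, IsAvg (G := Equiv.Perm (Cube n × Bool)) ρ
        ((half true : Equiv.Perm (Cube n) →* Equiv.Perm (Cube n × Bool)) '' Dir n j) (At j) :=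
      fun j => IsAvg.comp (hAt j)
    have hcomm : ∀ i j, ∀ s ∈
        ((half false : Equiv.Perm (Cube n) →* Equiv.Perm (Cube n × Bool)) '' Dir n i),
        ∀ s' ∈ ((half true : Equiv.Perm (Cube n) →* Equiv.Perm (Cube n × Bool)) '' Dir n j),
        s' * s = s * s' := by
      rintro i j _ ⟨g, _, rfl⟩ _ ⟨g', _, rfl⟩
      exact half_comm g g'
    have hPj : ∀ j < n, P j = Af j * At j := by
      intro j hj
      have h1 := hP j (by omega)
      rw [dir_low n j (by omega)] at h1
      exact h1.uniq ((hAf' j).union (hAt' j) (hcomm j j))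
    have hprod : ((List.range n).map P).prod =
        ((List.range n).map Af).prod * ((List.range n).map At).prod := by
      rw [← prod_range_mul n Af At fun i j => (hAf' i).commute (hAt' j) (hcomm i j)]
      congr 1
      refine List.map_congr_left fun j hj => ?_
      exact hPj j (List.mem_range.1 hj)
    rw [List.range_succ, List.map_append, List.prod_append, List.map_singleton,
      List.prod_singleton, hprod, hQ, ← ih ρf Af (fun j _ => hAf j), ← ih ρt At (fun j _ => hAt j)]
    rfl

theorem pow_rot {E : Type*} [NormedAddCommGroup E] [InnerProductSpace ℝ E] (n : ℕ)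
    (ρ : Equiv.Perm (Cube (n + 1)) →* (E →L[ℝ] E)) :
    (ρ (rot n) * Qop (κ := Cube n) ρ) ^ (n + 1) = Rop (n + 1) ρ := by
  set Q := Qop (κ := Cube n) ρ with hQ
  have key : ∀ k : ℕ, (ρ (rot n) * Q) ^ k =
      ((List.range k).map fun j => ρ (rot n ^ (j + 1)) * Q * ρ (rot n ^ (j + 1))⁻¹).prod *
        ρ (rot n ^ k) := by
    intro k
    induction k with
    | zero => simp
    | succ k ih =>
      rw [pow_succ, ih, List.range_succ, List.map_append, List.prod_append, List.map_singleton,
        List.prod_singleton]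
      have h1 : ρ (rot n ^ k) * (ρ (rot n) * Q) =
          ρ (rot n ^ (k + 1)) * Q * ρ (rot n ^ (k + 1))⁻¹ * ρ (rot n ^ (k + 1)) := by
        rw [mul_assoc (ρ (rot n ^ (k + 1)) * Q), map_inv_mul_cancel', mul_one, ← mul_assoc,
          ← map_mul, ← pow_succ]
      rw [mul_assoc, h1]; simp only [mul_assoc]
  rw [key (n + 1), rot_pow, map_one, mul_one]
  refine (rop_eq (n + 1) ρ _ fun j hj => ?_).symm
  rw [← conj_dir n j (by omega)]
  refine IsAvg.conj ?_ _
  rw [dir_top]
  exact isAvg_Qop (κ := Cube n) ρ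

/-! ### the Thorp shuffle -/

/-- numbering of the cube, target `Fin (2 * 2 ^ d)` -/
noncomputable def numEquiv (d : ℕ) : Cube (d + 1) ≃ Fin (2 * 2 ^ d) :=
  Equiv.ofBijective (fun x => ⟨val (d + 1) x, by
    have := val_lt (d + 1) x; rw [pow_succ] at this; omega⟩) <| by
    rw [Fintype.bijective_iff_injective_and_card]
    refine ⟨fun x y h => val_inj _ x y (by simpa using h), ?_⟩
    rw [card_cube, Fintype.card_fin, pow_succ, mul_comm]

/-- numbering of the cube, target `Fin (2 ^ d)` -/
noncomputable def numEquiv' (d : ℕ) : Cube d ≃ Fin (2 ^ d) :=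
  Equiv.ofBijective (fun x => ⟨val d x, val_lt d x⟩) <| by
    rw [Fintype.bijective_iff_injective_and_card]
    refine ⟨fun x y h => val_inj _ x y (by simpa using h), ?_⟩
    rw [card_cube, Fintype.card_fin]

/-- flips as permutations of the cube -/
def flipsC (d : ℕ) (ω : Cube d → Bool) : Equiv.Perm (Cube (d + 1)) := flips (κ := Cube d) ω

theorem thorpPos_val (k : ℕ) (ω : Fin k → Bool) (y : Fin (2 * k)) (i : Fin k) (c : Bool)
    (hy : y.1 = i.1 + if c then k else 0) :
    (thorpPos k ω y).1 = (if xor c (ω i) then 1 else 0) + 2 * i.1 := by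
  have hi := i.2
  unfold thorpPos
  cases c
  · simp only [Bool.false_eq_true, if_false, add_zero] at hy
    have h5 : y.1 < k := by omega
    rw [dif_pos h5]
    have h6 : (⟨y.1, h5⟩ : Fin k) = i := Fin.ext hy
    show 2 * y.1 + (if ω ⟨y.1, h5⟩ = true then 1 else 0) = _
    rw [h6, hy, Bool.false_xor]
    omega
  · simp only [if_true] at hy
    have h5 : ¬ y.1 < k := by omega
    rw [dif_neg h5]
    have h7 : y.1 - k = i.1 := by omega
    have h6 : (⟨y.1 - k, by omega⟩ : Fin k) = i := Fin.ext h7
    show 2 * (y.1 - k) + (if ω ⟨y.1 - k, _⟩ = true then 0 else 1) = _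
    rw [h6, h7, Bool.true_xor]
    cases ω i <;> simp <;> omega

theorem thorp_conj (d : ℕ) (ω : Fin (2 ^ d) → Bool) :
    thorpPerm (2 ^ d) ω = (numEquiv d).permCongr
      (rot d * flipsC d (fun x : Cube d => ω (numEquiv' d x))) := by
  apply Equiv.ext
  intro y
  obtain ⟨x, rfl⟩ := (numEquiv d).surjective y
  rw [Equiv.permCongr_apply, Equiv.symm_apply_apply]
  obtain ⟨x, c⟩ := (x : Cube d × Bool)
  have h2 : (rot d * flipsC d (fun x : Cube d => ω (numEquiv' d x))) ((x, c) : Cube d × Bool) =
      consB d (xor c (ω (numEquiv' d x))) x := rfl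
  rw [h2]
  apply Fin.ext
  have h3 : ((numEquiv d (consB d (xor c (ω (numEquiv' d x))) x)) : ℕ) =
      (if xor c (ω (numEquiv' d x)) then 1 else 0) + 2 * val d x := val_cons _ _ _
  rw [h3]
  exact thorpPos_val (2 ^ d) ω _ (numEquiv' d x) c rfl

/-- `(d+1)` Thorp shuffles of a deck of `2 * 2^d` cards are one round of the butterfly. -/
theorem link (d : ℕ) : ∃ φ : Cube (d + 1) ≃ Fin (2 * 2 ^ d),
    ∀ (E : Type) [NormedAddCommGroup E] [InnerProductSpace ℝ E]
      (ρ : Equiv.Perm (Fin (2 * 2 ^ d)) →* (E →L[ℝ] E)),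
      (Top (2 ^ d) ρ) ^ (d + 1) = Rop (d + 1) (ρ.comp (φ.permCongrHom).toMonoidHom) := by
  refine ⟨numEquiv d, fun E _ _ ρ => ?_⟩
  set ρ' : Equiv.Perm (Cube (d + 1)) →* (E →L[ℝ] E) :=
    ρ.comp ((numEquiv d).permCongrHom).toMonoidHom with hρ'
  rw [← pow_rot d ρ']
  congr 1
  unfold Top Qop
  rw [mul_smul_comm, card_cube, Finset.mul_sum]
  congr 1
  rw [← Equiv.sum_comp (Equiv.arrowCongr (numEquiv' d) (Equiv.refl Bool))
    (fun ω : Fin (2 ^ d) → Bool => ρ (thorpPerm (2 ^ d) ω))]
  refine Finset.sum_congr rfl fun ω _ => ?_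
  rw [thorp_conj]
  have h1 : (fun x : Cube d => (Equiv.arrowCongr (numEquiv' d) (Equiv.refl Bool)) ω
      (numEquiv' d x)) = ω := by
    ext x
    simp [Equiv.arrowCongr]
  rw [h1]
  have h2 : ρ ((numEquiv d).permCongr (rot d * flipsC d ω)) = ρ' (rot d * flipsC d ω) := rfl
  rw [h2]
  exact map_mul ρ' (rot d) (flipsC d ω)

end P162
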