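/-
P162 (Thorp shuffle), module Merge (owner helper22): the merging lemma.
-/
import Vale.Agent.P162.Energy2

namespace P162

open scoped BigOperators

/-- **Merging lemma.** With `N = |κ|`, `A = Lap(lower half) + Lap(upper half)`, `B = Lap ρ`:
if `u` is fixed by all the swaps `(p,0) ↔ (p,1)` then
`‖exp (s ((1 - 1/(40N)) B - A)) u‖ ≤ ‖u‖` for `0 ≤ s ≤ 1/1300`. -/
theorem merge_contraction {κ : Type*} [Fintype κ] [DecidableEq κ] [Nonempty κ]
    {E : Type*} [NormedAddCommGroup E] [InnerProductSpace ℝ E] [CompleteSpace E]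
    (ρ : Equiv.Perm (κ × Bool) →* (E →L[ℝ] E)) (hρ : IsOrth ρ) (u : E)
    (hu : ∀ p : κ, ρ (Equiv.swap (p, false) (p, true)) u = u) (s : ℝ)
    (hs0 : 0 ≤ s) (hs1 : s ≤ 1 / 1300) :
    ‖NormedSpace.exp (s • ((1 - 1 / (40 * (Fintype.card κ : ℝ))) • Lap ρ
      - Lap (ρ.comp (half false)) - Lap (ρ.comp (half true)))) u‖ ≤ ‖u‖ := by
  set G : E →L[ℝ] E := (1 - 1 / (40 * (Fintype.card κ : ℝ))) • Lap ρ
      - Lap (ρ.comp (half false)) - Lap (ρ.comp (half true)) with hG
  -- the flow
  set ψ : ℝ → E := fun r => NormedSpace.exp (r • G) u with hψ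
  have hder : ∀ r, HasDerivAt ψ (G (ψ r)) r := by
    intro r
    have h1 := hasDerivAt_exp_smul_const' G r
    have h2 := h1.clm_apply (hasDerivAt_const r u)
    simpa [hψ] using h2
  -- the weighted energy
  set F : ℝ → ℝ := fun r => ∑ O : Finset κ, Real.exp (1300 * (s - r) * O.card) *
    ‖proj ρ O (ψ r)‖ ^ 2 with hF
  have hFder : ∀ r, HasDerivAt F (∑ O : Finset κ,
      (Real.exp (1300 * (s - r) * O.card) * (-1300 * O.card) * ‖proj ρ O (ψ r)‖ ^ 2 +
        Real.exp (1300 * (s - r) * O.card) *
          (2 * inner ℝ (proj ρ O (ψ r)) (proj ρ O (G (ψ r)))))) r := by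
    intro r
    apply HasDerivAt.fun_sum
    intro O _
    have h1 : HasDerivAt (fun r => Real.exp (1300 * (s - r) * O.card))
        (Real.exp (1300 * (s - r) * O.card) * (-1300 * O.card)) r := by
      have h0 : HasDerivAt (fun r : ℝ => 1300 * (s - r) * (O.card : ℝ)) (-1300 * O.card) r := by
        have := (((hasDerivAt_id r).const_sub s).const_mul 1300).mul_const (O.card : ℝ)
        rw [show (-1300 * (O.card : ℝ)) = 1300 * -1 * (O.card : ℝ) by ring]
        exact this
      exact h0.exp
    have h2 : HasDerivAt (fun r => proj ρ O (ψ r)) (proj ρ O (G (ψ r))) r :=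
      (proj ρ O).hasFDerivAt.comp_hasDerivAt r (hder r)
    exact h1.mul h2.norm_sq
  have hanti : AntitoneOn F (Set.Icc 0 s) := by
    apply antitoneOn_of_deriv_nonpos (convex_Icc 0 s)
    · exact fun r _ => (hFder r).continuousAt.continuousWithinAt
    · exact fun r _ => (hFder r).differentiableAt.differentiableWithinAt
    · intro r hr
      rw [interior_Icc] at hr
      rw [(hFder r).deriv]
      set y : ℝ := Real.exp (1300 * (s - r)) with hy
      have hpow : ∀ O : Finset κ, Real.exp (1300 * (s - r) * O.card) = y ^ O.card := by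
        intro O
        rw [hy, ← Real.exp_nat_mul, mul_comm]
      have hy1 : 1 ≤ y := by
        rw [hy]
        apply Real.one_le_exp
        nlinarith [hr.2]
      have hy3 : y ≤ 3 := by
        rw [hy]
        have : 1300 * (s - r) ≤ 1 := by
          have := hr.1
          linarith
        calc Real.exp (1300 * (s - r)) ≤ Real.exp 1 := Real.exp_le_exp.mpr this
          _ ≤ 3 := by
            have := Real.exp_one_lt_d9
            linarith
      have hen := energy hρ y hy1 hy3 (ψ r)
      rw [← hG] at hen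
      simp only [hpow]
      have hterm : ∀ O : Finset κ, inner ℝ (proj ρ O (ψ r)) (proj ρ O (G (ψ r))) =
          inner ℝ (proj ρ O (ψ r)) (G (ψ r)) :=
        fun O => (inner_proj_eq hρ (sgn_proj O (ψ r)) (G (ψ r))).symm
      simp only [hterm]
      rw [Finset.sum_add_distrib]
      have e1 : ∑ O : Finset κ, y ^ O.card * (-1300 * O.card) * ‖proj ρ O (ψ r)‖ ^ 2 =
          - (1300 * ∑ O : Finset κ, O.card * hh ρ y (ψ r) O) := by
        rw [Finset.mul_sum, ← Finset.sum_neg_distrib]
        refine Finset.sum_congr rfl fun O _ => ?_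
        unfold hh
        ring
      have e2 : ∑ O : Finset κ, y ^ O.card * (2 * inner ℝ (proj ρ O (ψ r)) (G (ψ r))) =
          2 * ∑ O : Finset κ, y ^ O.card * inner ℝ (proj ρ O (ψ r)) (G (ψ r)) := by
        rw [Finset.mul_sum]
        refine Finset.sum_congr rfl fun O _ => ?_
        ring
      rw [e1, e2]
      linarith
  have hle : F s ≤ F 0 := hanti (Set.left_mem_Icc.mpr hs0) (Set.right_mem_Icc.mpr hs0) hs0
  have hFs : F s = ‖ψ s‖ ^ 2 := by
    rw [norm_sq_eq_sum hρ (ψ s)]
    simp only [hF]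
    refine Finset.sum_congr rfl fun O _ => ?_
    simp
  have hF0 : F 0 = ‖u‖ ^ 2 := by
    have hψ0 : ψ 0 = u := by simp [hψ]
    rw [norm_sq_eq_sum hρ u]
    simp only [hF]
    refine Finset.sum_congr rfl fun O _ => ?_
    rw [hψ0]
    by_cases hO : O = ∅
    · subst hO; simp
    · have hu' : Sgn ρ ∅ u := by
        intro p
        simp only [sg, Finset.notMem_empty, if_false, one_smul]
        exact hu p
      rw [proj_of_sgn hρ hO hu']
      simp
  rw [hFs, hF0] at hle
  exact le_of_sq_le_sq hle (norm_nonneg _)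

end P162
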