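/-
P162 (Thorp shuffle), module Induct: induction over cubes from the merging lemma. (helper24)
-/
import Vale.Agent.P162.Merge
import Vale.Agent.P162.Link

namespace P162

open scoped BigOperators

/-- `s_i = (1/1300) ∏_{j<i} (1 - 1/(40 2^j))`. -/
noncomputable def sconst (i : ℕ) : ℝ :=
  (1 / 1300) * ∏ j ∈ Finset.range i, (1 - 1 / (40 * (2 : ℝ) ^ j))

theorem cfac_pos (j : ℕ) : 0 < 1 - 1 / (40 * (2 : ℝ) ^ j) ∧ 1 - 1 / (40 * (2 : ℝ) ^ j) ≤ 1 ∧
    1 / (40 * (2 : ℝ) ^ j) ≤ 1 := by
  have h1 : (1 : ℝ) ≤ 2 ^ j := one_le_pow₀ (by norm_num)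
  have h2 : 0 < 1 / (40 * (2 : ℝ) ^ j) := by positivity
  have h3 : 1 / (40 * (2 : ℝ) ^ j) ≤ 1 / 40 := by
    apply one_div_le_one_div_of_le (by norm_num)
    linarith
  refine ⟨by linarith, by linarith, by linarith⟩

theorem prod_bounds (i : ℕ) :
    (∏ j ∈ Finset.range i, (1 - 1 / (40 * (2 : ℝ) ^ j))) ≤ 1 ∧
      1 - (1 / 20) * (1 - 1 / (2 : ℝ) ^ i) ≤
        ∏ j ∈ Finset.range i, (1 - 1 / (40 * (2 : ℝ) ^ j)) := by
  induction i with
  | zero => simp
  | succ i ih =>
    obtain ⟨h1, h2⟩ := ih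
    obtain ⟨c1, c2, c3⟩ := cfac_pos i
    have hp : (0 : ℝ) < 2 ^ i := by positivity
    have hq : 1 / (2 : ℝ) ^ i ≤ 1 := by
      rw [div_le_one hp]; exact one_le_pow₀ (by norm_num)
    have hq0 : 0 < 1 / (2 : ℝ) ^ i := by positivity
    have e1 : 1 / (40 * (2 : ℝ) ^ i) = (1 / 40) * (1 / (2 : ℝ) ^ i) := by field_simp
    have e2 : 1 / (2 : ℝ) ^ (i + 1) = (1 / 2) * (1 / (2 : ℝ) ^ i) := by
      rw [pow_succ]; field_simp
    rw [Finset.prod_range_succ]
    set P := ∏ j ∈ Finset.range i, (1 - 1 / (40 * (2 : ℝ) ^ j)) with hP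
    have hPpos : 0 ≤ P := by linarith
    constructor
    · calc P * (1 - 1 / (40 * (2 : ℝ) ^ i)) ≤ 1 * 1 := mul_le_mul h1 c2 c1.le zero_le_one
        _ = 1 := one_mul 1
    · rw [e1, e2]
      set t := 1 / (2 : ℝ) ^ i with ht
      nlinarith

/-- lower bound of `sconst` (infinite product) -/
theorem sconst_ge (i : ℕ) : 1 / 1400 ≤ sconst i := by
  obtain ⟨h1, h2⟩ := prod_bounds i
  have hq0 : 0 < 1 / (2 : ℝ) ^ i := by positivity
  unfold sconst
  linarith

theorem sconst_le (i : ℕ) : sconst i ≤ 1 / 1300 := by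
  obtain ⟨h1, h2⟩ := prod_bounds i
  unfold sconst
  linarith

theorem sconst_succ (i : ℕ) : sconst (i + 1) = sconst i * (1 - 1 / (40 * (2 : ℝ) ^ i)) := by
  unfold sconst
  rw [Finset.prod_range_succ, mul_assoc]

/-- An operator commuting with the whole representation commutes with `Qop`. -/
theorem Qop_commute {κ : Type*} [Fintype κ] [DecidableEq κ] {E : Type*} [NormedAddCommGroup E]
    [InnerProductSpace ℝ E] (ρ : Equiv.Perm (κ × Bool) →* (E →L[ℝ] E)) (T : E →L[ℝ] E)
    (hT : ∀ g, Commute T (ρ g)) : Commute T (Qop ρ) := by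
  unfold Qop
  exact (Commute.sum_right _ _ _ fun ω _ => hT (flips ω)).smul_right _

/-- An operator commuting with the whole representation commutes with `Rop`. -/
theorem Rop_commute {E : Type*} [NormedAddCommGroup E] [InnerProductSpace ℝ E]
    (i : ℕ) (ρ : Equiv.Perm (Cube i) →* (E →L[ℝ] E)) (T : E →L[ℝ] E)
    (hT : ∀ g, Commute T (ρ g)) : Commute T (Rop i ρ) := by
  induction i with
  | zero => exact Commute.one_right T
  | succ i ih =>
    unfold Rop
    refine (Commute.mul_right (Commute.mul_right ?_ ?_) ?_)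
    · exact ih _ fun g => hT _
    · exact ih _ fun g => hT _
    · exact Qop_commute (κ := Cube i) ρ T hT

/-- `Lap ρ` is central. -/
theorem Lap_commute {Ω : Type*} [Fintype Ω] [DecidableEq Ω] {E : Type*}
    [NormedAddCommGroup E] [InnerProductSpace ℝ E]
    (ρ : Equiv.Perm Ω →* (E →L[ℝ] E)) (g : Equiv.Perm Ω) : Commute (Lap ρ) (ρ g) := by
  apply ContinuousLinearMap.ext
  intro v
  exact lap_rho_comm g v

/-- An operator commuting with the whole representation commutes with `Lap`. -/
theorem commute_Lap {Ω : Type*} [Fintype Ω] [DecidableEq Ω] {E : Type*}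
    [NormedAddCommGroup E] [InnerProductSpace ℝ E]
    (ρ : Equiv.Perm Ω →* (E →L[ℝ] E)) (T : E →L[ℝ] E) (hT : ∀ g, Commute T (ρ g)) :
    Commute T (Lap ρ) := by
  unfold Lap
  exact (Commute.sum_right _ _ _ fun x _ => Commute.sum_right _ _ _ fun y _ =>
    (Commute.one_right T).sub_right (hT _)).smul_right _

theorem exp_add_op {E : Type*} [NormedAddCommGroup E] [InnerProductSpace ℝ E] [CompleteSpace E]
    (x y : E →L[ℝ] E) (h : Commute x y) :
    NormedSpace.exp (x + y) = NormedSpace.exp x * NormedSpace.exp y := by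
  let _ : NormedAlgebra ℚ (E →L[ℝ] E) := NormedAlgebra.restrictScalars ℚ ℝ _
  exact NormedSpace.exp_add_of_commute h

theorem norm_Qop_le {κ : Type*} [Fintype κ] [DecidableEq κ] {E : Type*} [NormedAddCommGroup E]
    [InnerProductSpace ℝ E] (ρ : Equiv.Perm (κ × Bool) →* (E →L[ℝ] E)) (hρ : IsOrth ρ) (v : E) :
    ‖Qop ρ v‖ ≤ ‖v‖ := by
  have h1 : Qop ρ v = (1 / (2 : ℝ) ^ Fintype.card κ) • ∑ ω : κ → Bool, ρ (flips ω) v := by
    unfold Qop
    simp only [smul_apply, sum_apply]
  rw [h1, norm_smul]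
  have h2 : ‖∑ ω : κ → Bool, ρ (flips ω) v‖ ≤ (2 : ℝ) ^ Fintype.card κ * ‖v‖ := by
    refine (norm_sum_le _ _).trans ?_
    rw [Finset.sum_congr rfl fun ω _ => hρ (flips ω) v]
    rw [Finset.sum_const, Finset.card_univ, nsmul_eq_mul]
    simp
  have h3 : (0 : ℝ) < 2 ^ Fintype.card κ := by positivity
  rw [Real.norm_of_nonneg (by positivity)]
  calc 1 / (2 : ℝ) ^ Fintype.card κ * ‖∑ ω : κ → Bool, ρ (flips ω) v‖
      ≤ 1 / (2 : ℝ) ^ Fintype.card κ * ((2 : ℝ) ^ Fintype.card κ * ‖v‖) :=
        mul_le_mul_of_nonneg_left h2 (by positivity)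
    _ = ‖v‖ := by field_simp

theorem isOrth_comp {Ω Ω' : Type*} {E : Type*} [NormedAddCommGroup E] [InnerProductSpace ℝ E]
    (ρ : Equiv.Perm Ω →* (E →L[ℝ] E)) (hρ : IsOrth ρ) (f : Equiv.Perm Ω' →* Equiv.Perm Ω) :
    IsOrth (ρ.comp f) := fun g v => hρ (f g) v

/-- **Main induction**: `‖R_i exp(s_i L)‖ ≤ 1`. -/
theorem cube_contraction {E : Type*} [NormedAddCommGroup E] [InnerProductSpace ℝ E]
    [CompleteSpace E] (i : ℕ) (ρ : Equiv.Perm (Cube i) →* (E →L[ℝ] E)) (hρ : IsOrth ρ) (v : E) :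
    ‖Rop i ρ (NormedSpace.exp (sconst i • Lap ρ) v)‖ ≤ ‖v‖ := by
  induction i generalizing v with
  | zero =>
    have h0 : Lap ρ = 0 := by
      unfold Lap
      have : ∀ x y : Cube 0, (1 : E →L[ℝ] E) - ρ (Equiv.swap x y) = 0 := by
        intro x y
        have hxy : x = y := rfl
        rw [hxy, Equiv.swap_self]
        exact sub_eq_zero.2 (map_one ρ).symm
      simp_rw [this]
      simp
    rw [h0, smul_zero, NormedSpace.exp_zero]
    exact le_refl _
  | succ i ih =>
    -- notation
    set ρf : Equiv.Perm (Cube i) →* (E →L[ℝ] E) :=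
      MonoidHom.comp (M := Equiv.Perm (Cube i)) (N := Equiv.Perm (Cube i × Bool)) ρ (half false)
      with hρf
    set ρt : Equiv.Perm (Cube i) →* (E →L[ℝ] E) :=
      MonoidHom.comp (M := Equiv.Perm (Cube i)) (N := Equiv.Perm (Cube i × Bool)) ρ (half true)
      with hρt
    set Q := Qop (κ := Cube i) ρ with hQ
    set s := sconst i with hs
    set c := 1 / (40 * (Fintype.card (Cube i) : ℝ)) with hc
    have hcard : (Fintype.card (Cube i) : ℝ) = 2 ^ i := by rw [card_cube]; push_cast; rfl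
    have hs' : sconst (i + 1) = s * (1 - c) := by rw [sconst_succ, hc, hcard]
    have hs0 : 0 ≤ s := by have := sconst_ge i; linarith
    have hs1 : s ≤ 1 / 1300 := sconst_le i
    have hρf_orth : IsOrth ρf := fun g v => hρ _ v
    have hρt_orth : IsOrth ρt := fun g v => hρ _ v
    set B := Lap ρ with hB
    set Af := Lap ρf with hAf
    set At := Lap ρt with hAt
    -- commutations
    have hBρ : ∀ g, Commute B (ρ g) := fun g => Lap_commute ρ g
    have hBf : ∀ g, Commute B (ρf g) := fun g => hBρ _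
    have hBt : ∀ g, Commute B (ρt g) := fun g => hBρ _
    have hBAf : Commute B Af := commute_Lap ρf B hBf
    have hBAt : Commute B At := commute_Lap ρt B hBt
    have hft : ∀ g h, Commute (ρf g) (ρt h) := by
      intro g h
      have := half_comm g h
      calc ρf g * ρt h = ρ (half false g * half true h : Equiv.Perm (Cube i × Bool)) :=
            (map_mul ρ _ _).symm
        _ = ρ (half true h * half false g : Equiv.Perm (Cube i × Bool)) := by rw [this]
        _ = ρt h * ρf g := map_mul ρ _ _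
    have hAfρt : ∀ h, Commute Af (ρt h) := fun h =>
      (commute_Lap ρf (ρt h) fun g => (hft g h).symm).symm
    have hAfAt : Commute Af At := commute_Lap ρt Af hAfρt
    have hBQ : Commute B Q := Qop_commute (κ := Cube i) ρ B hBρ
    -- the exponential
    set X := (1 - c) • B - Af - At with hX
    have hBX : Commute B X :=
      (((Commute.refl B).smul_right _).sub_right hBAf).sub_right hBAt
    have hAfX : Commute Af X :=
      ((hBAf.symm.smul_right _).sub_right (Commute.refl Af)).sub_right hAfAt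
    have hAtX : Commute At X :=
      ((hBAt.symm.smul_right _).sub_right hAfAt.symm).sub_right (Commute.refl At)
    have hsplit : sconst (i + 1) • B = s • Af + (s • At + s • X) := by
      rw [hs', hX, mul_smul, smul_sub, smul_sub]
      abel
    have hexp : NormedSpace.exp (sconst (i + 1) • B) =
        NormedSpace.exp (s • Af) * (NormedSpace.exp (s • At) * NormedSpace.exp (s • X)) := by
      rw [hsplit, exp_add_op, exp_add_op]
      · exact (hAtX.smul_left s).smul_right s
      · exact ((hAfAt.smul_left s).smul_right s).add_right ((hAfX.smul_left s).smul_right s)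
    have hcommQ : Commute (NormedSpace.exp (sconst (i + 1) • B)) Q :=
      (hBQ.smul_left _).exp_left
    have hRt : Commute (NormedSpace.exp (s • Af)) (Rop i ρt) := by
      refine Rop_commute i ρt _ fun g => ?_
      exact ((hAfρt g).smul_left s).exp_left
    have hRop : Rop (i + 1) ρ = Rop i ρf * Rop i ρt * Q := rfl
    have hop : Rop (i + 1) ρ * NormedSpace.exp (sconst (i + 1) • B) =
        (Rop i ρf * NormedSpace.exp (s • Af)) * ((Rop i ρt * NormedSpace.exp (s • At)) *
          (NormedSpace.exp (s • X) * Q)) := by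
      calc Rop (i + 1) ρ * NormedSpace.exp (sconst (i + 1) • B)
          = Rop i ρf * Rop i ρt * (Q * NormedSpace.exp (sconst (i + 1) • B)) := by
            rw [hRop, mul_assoc]
        _ = Rop i ρf * Rop i ρt * (NormedSpace.exp (sconst (i + 1) • B) * Q) := by
            rw [hcommQ.eq]
        _ = Rop i ρf * (Rop i ρt * NormedSpace.exp (s • Af)) *
              (NormedSpace.exp (s • At) * (NormedSpace.exp (s • X) * Q)) := by
            rw [hexp]; simp only [mul_assoc]
        _ = _ := by rw [← hRt.eq]; simp only [mul_assoc]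
    have happ : Rop (i + 1) ρ (NormedSpace.exp (sconst (i + 1) • B) v) =
        Rop i ρf (NormedSpace.exp (s • Af) (Rop i ρt (NormedSpace.exp (s • At)
          (NormedSpace.exp (s • X) (Q v))))) :=
      congrArg (fun T : E →L[ℝ] E => T v) hop
    rw [happ]
    refine (ih ρf hρf_orth _).trans ((ih ρt hρt_orth _).trans ?_)
    refine le_trans ?_ (norm_Qop_le (κ := Cube i) ρ hρ v)
    have hu : ∀ p : Cube i, ρ (Equiv.swap ((p, false) : Cube i × Bool) (p, true)) (Q v) = Q v := by
      intro p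
      have := (isAvg_Qop (κ := Cube i) ρ).left _ ⟨p, rfl⟩
      exact congrArg (fun T : E →L[ℝ] E => T v) this
    exact merge_contraction (κ := Cube i) ρ hρ (Q v) hu s hs0 hs1

end P162
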