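/-
P162 (Thorp shuffle), module Main (helper22): final assembly.
-/
import Vale.Agent.P162.Induct
import Vale.Agent.P162.Link
import Vale.Agent.P162.Heat

namespace P162

open scoped BigOperators

section general

variable {E : Type*} [NormedAddCommGroup E] [InnerProductSpace ℝ E]

theorem norm_Top_le (k : ℕ) (ρ : Equiv.Perm (Fin (2 * k)) →* (E →L[ℝ] E)) (hρ : IsOrth ρ) (v : E) :
    ‖Top k ρ v‖ ≤ ‖v‖ := by
  unfold Top
  rw [smul_apply, sum_apply, norm_smul]
  have h1 : ‖∑ ω : Fin k → Bool, ρ (thorpPerm k ω) v‖ ≤ ∑ _ω : Fin k → Bool, ‖v‖ := by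
    refine (norm_sum_le _ _).trans (Finset.sum_le_sum fun ω _ => ?_)
    rw [hρ]
  rw [Finset.sum_const, Finset.card_univ, Fintype.card_fun, Fintype.card_bool, Fintype.card_fin,
    nsmul_eq_mul] at h1
  rw [Real.norm_of_nonneg (by positivity)]
  calc 1 / (2 : ℝ) ^ k * ‖∑ ω : Fin k → Bool, ρ (thorpPerm k ω) v‖
      ≤ 1 / (2 : ℝ) ^ k * (((2 ^ k : ℕ) : ℝ) * ‖v‖) := by gcongr
    _ = ‖v‖ := by push_cast; field_simp

theorem norm_Top_pow_anti (k : ℕ) (ρ : Equiv.Perm (Fin (2 * k)) →* (E →L[ℝ] E)) (hρ : IsOrth ρ)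
    (v : E) (s t : ℕ) (hst : s ≤ t) : ‖(Top k ρ ^ t) v‖ ≤ ‖(Top k ρ ^ s) v‖ := by
  induction t, hst using Nat.le_induction with
  | base => exact le_rfl
  | succ t _ ih =>
    refine le_trans ?_ ih
    rw [pow_succ']
    exact norm_Top_le k ρ hρ _

theorem isOrth_comp_main {Ω Ω' : Type*} (ρ : Equiv.Perm Ω →* (E →L[ℝ] E)) (hρ : IsOrth ρ)
    (f : Equiv.Perm Ω' →* Equiv.Perm Ω) : IsOrth (ρ.comp f) := fun g v => hρ (f g) v

theorem lap_equiv {Ω Ω' : Type*} [Fintype Ω] [DecidableEq Ω] [Fintype Ω'] [DecidableEq Ω']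
    (φ : Ω' ≃ Ω) (ρ : Equiv.Perm Ω →* (E →L[ℝ] E)) :
    Lap (ρ.comp (φ.permCongrHom).toMonoidHom) = Lap ρ := by
  unfold Lap
  rw [Fintype.card_congr φ]
  congr 1
  rw [← Equiv.sum_comp φ]
  refine Finset.sum_congr rfl fun x _ => ?_
  rw [← Equiv.sum_comp φ]
  refine Finset.sum_congr rfl fun y _ => ?_
  have h : (φ.permCongrHom).toMonoidHom (Equiv.swap x y) = Equiv.swap (φ x) (φ y) := by
    change φ.permCongr (Equiv.swap x y) = _
    ext z
    simp only [Equiv.permCongr_apply]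
    rw [Equiv.swap_apply_def, Equiv.swap_apply_def]
    by_cases h1 : φ.symm z = x
    · have : z = φ x := by rw [← h1]; simp
      simp [this]
    · have h1' : z ≠ φ x := by
        rintro rfl; simp at h1
      by_cases h2 : φ.symm z = y
      · have hz : z = φ y := by rw [← h2]; simp
        rw [if_neg h1, if_pos h2, if_neg h1', if_pos hz]
      · have h2' : z ≠ φ y := by
          rintro rfl; simp at h2
        simp [h1, h1', h2, h2']
  rw [MonoidHom.comp_apply, h]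

end general

/-- functions as vectors -/
noncomputable def vec {G : Type*} [Fintype G] (μ : G → ℝ) : EuclideanSpace ℝ G := WithLp.toLp 2 μ

theorem vec_conv (k : ℕ) (ν : Equiv.Perm (Fin (2 * k)) → ℝ) :
    vec (conv (thorpLaw k) ν) = Top k (regRep (Fin (2 * k))) (vec ν) := by
  ext g
  have hL : (vec (conv (thorpLaw k) ν)) g = ∑ h, thorpLaw k h * ν (h⁻¹ * g) := rfl
  have hR : (Top k (regRep (Fin (2 * k))) (vec ν)) g =
      1 / (2 : ℝ) ^ k * ∑ ω : Fin k → Bool, ν ((thorpPerm k ω)⁻¹ * g) := by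
    unfold Top
    rw [smul_apply, sum_apply]
    simp only [PiLp.smul_apply, smul_eq_mul]
    congr 1
    rw [WithLp.ofLp_sum, Finset.sum_apply]
    rfl
  rw [hL, hR]
  unfold thorpLaw
  have h1 : ∀ h : Equiv.Perm (Fin (2 * k)),
      ((Finset.univ.filter fun ω : Fin k → Bool => ∀ x, h x = thorpPos k ω x).card : ℝ) / 2 ^ k *
        ν (h⁻¹ * g) = 1 / (2 : ℝ) ^ k * ∑ ω : Fin k → Bool,
          if h = thorpPerm k ω then ν (h⁻¹ * g) else 0 := by
    intro h
    have h2 : ∑ ω : Fin k → Bool, (if h = thorpPerm k ω then ν (h⁻¹ * g) else 0) =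
        ((Finset.univ.filter fun ω : Fin k → Bool => ∀ x, h x = thorpPos k ω x).card : ℝ) *
          ν (h⁻¹ * g) := by
      rw [← Finset.sum_filter, Finset.sum_const, nsmul_eq_mul]
      congr 3
      ext ω
      simp only [Finset.mem_filter, Finset.mem_univ, true_and]
      rw [Equiv.ext_iff]
      simp
    rw [h2]
    ring
  rw [Finset.sum_congr rfl fun h _ => h1 h, ← Finset.mul_sum, Finset.sum_comm]
  congr 1
  refine Finset.sum_congr rfl fun ω _ => ?_
  rw [Finset.sum_ite_eq' Finset.univ (thorpPerm k ω) (fun h => ν (h⁻¹ * g))]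
  simp

theorem Top_const (k : ℕ) (c : ℝ) :
    Top k (regRep (Fin (2 * k))) (vec fun _ => c) = vec fun _ => c := by
  unfold Top
  rw [smul_apply, sum_apply]
  have h : ∀ ω : Fin k → Bool, regRep (Fin (2 * k)) (thorpPerm k ω) (vec fun _ => c) =
      vec fun _ => c := by
    intro ω
    ext g
    rfl
  simp only [h, Finset.sum_const, Finset.card_univ, Fintype.card_fun, Fintype.card_bool,
    Fintype.card_fin]
  rw [← Nat.cast_smul_eq_nsmul ℝ, smul_smul]
  push_cast
  rw [one_div, inv_mul_cancel₀ (by positivity), one_smul]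

theorem vec_convPow_sub (k t : ℕ) :
    vec (fun g => convPow (thorpLaw k) t g -
      1 / (Fintype.card (Equiv.Perm (Fin (2 * k))) : ℝ)) =
      (Top k (regRep (Fin (2 * k))) ^ t) (delta0 (Fin (2 * k))) := by
  induction t with
  | zero =>
    rw [pow_zero]
    rfl
  | succ t ih =>
    rw [pow_succ', mul_apply_eq_comp, ← ih]
    have h1 : vec (fun g => convPow (thorpLaw k) t g -
        1 / (Fintype.card (Equiv.Perm (Fin (2 * k))) : ℝ)) =
        vec (convPow (thorpLaw k) t) -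
          vec (fun _ => 1 / (Fintype.card (Equiv.Perm (Fin (2 * k))) : ℝ)) := rfl
    rw [h1, map_sub, Top_const, ← vec_conv]
    rfl

theorem tv_le (k t : ℕ) :
    tvUnif (convPow (thorpLaw k) t) ≤ (1 / 2) *
      (Real.sqrt (Fintype.card (Equiv.Perm (Fin (2 * k)))) *
        ‖(Top k (regRep (Fin (2 * k))) ^ t) (delta0 (Fin (2 * k)))‖) := by
  unfold tvUnif
  rw [← vec_convPow_sub]
  have hn : ‖vec (fun g => convPow (thorpLaw k) t g -
        1 / (Fintype.card (Equiv.Perm (Fin (2 * k))) : ℝ))‖ =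
      Real.sqrt (∑ g, |convPow (thorpLaw k) t g -
        1 / (Fintype.card (Equiv.Perm (Fin (2 * k))) : ℝ)| ^ 2) := by
    rw [EuclideanSpace.norm_eq]
    rfl
  rw [hn, ← Real.sqrt_mul (by positivity)]
  apply mul_le_mul_of_nonneg_left _ (by norm_num)
  apply Real.le_sqrt_of_sq_le
  have := sq_sum_le_card_mul_sum_sq (s := (Finset.univ : Finset (Equiv.Perm (Fin (2 * k)))))
    (f := fun g => |convPow (thorpLaw k) t g -
        1 / (Fintype.card (Equiv.Perm (Fin (2 * k))) : ℝ)|)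
  simpa using this

/-- the analytic heart: `m (d+1)` shuffles -/
theorem norm_pow_le (d m : ℕ) :
    ‖(Top (2 ^ d) (regRep (Fin (2 * 2 ^ d))) ^ ((d + 1) * m)) (delta0 (Fin (2 * 2 ^ d)))‖ ≤
      ‖NormedSpace.exp ((-(m * sconst (d + 1))) • Lap (regRep (Fin (2 * 2 ^ d))))
        (delta0 (Fin (2 * 2 ^ d)))‖ := by
  obtain ⟨φ, hφ⟩ := link d
  set ρ0 := regRep (Fin (2 * 2 ^ d)) with hρ0
  set ρ := ρ0.comp (φ.permCongrHom).toMonoidHom with hρ
  have hT := hφ (EuclideanSpace ℝ (Equiv.Perm (Fin (2 * 2 ^ d)))) ρ0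
  rw [pow_mul, hT, ← hρ]
  have horth : IsOrth ρ := isOrth_comp_main ρ0 (regRep_isOrth _) _
  have hlap : Lap ρ = Lap ρ0 := lap_equiv φ ρ0
  rw [← hlap]
  set L := Lap ρ with hL
  set R := Rop (d + 1) ρ with hR
  set s := sconst (d + 1) with hs
  let _ : NormedAlgebra ℚ (EuclideanSpace ℝ (Equiv.Perm (Fin (2 * 2 ^ d))) →L[ℝ]
    EuclideanSpace ℝ (Equiv.Perm (Fin (2 * 2 ^ d)))) := NormedAlgebra.restrictScalars ℚ ℝ _
  have hcomm : Commute L R := Rop_commute (d + 1) ρ L (fun g => Lap_commute ρ g)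
  -- contraction, iterated
  have key : ∀ m : ℕ, ∀ v, ‖(R ^ m) v‖ ≤ ‖NormedSpace.exp ((-(m * s)) • L) v‖ := by
    intro m
    induction m with
    | zero => intro v; simp
    | succ m ih =>
      intro v
      have h1 : (R ^ (m + 1)) v = (R ^ m) (R v) := by rw [pow_succ]; rfl
      rw [h1]
      refine (ih (R v)).trans ?_
      -- exp(-m s L) R v = R exp(-m s L) v = R exp(s L) exp(-(m+1) s L) v
      have hc1 : Commute (NormedSpace.exp ((-(m * s)) • L)) R :=
        ((hcomm.smul_left (-(m * s)))).exp_left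
      have h2 : NormedSpace.exp ((-(m * s)) • L) (R v) = R (NormedSpace.exp ((-(m * s)) • L) v) := by
        have := congrArg (fun T => T v) hc1.eq
        simpa using this
      have h3 : NormedSpace.exp ((-(m * s)) • L) =
          NormedSpace.exp (s • L) * NormedSpace.exp ((-(((m + 1 : ℕ) : ℝ) * s)) • L) := by
        rw [← NormedSpace.exp_add_of_commute]
        · rw [← add_smul]
          congr 2
          push_cast
          ring
        · exact ((Commute.refl L).smul_left _).smul_right _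
      rw [h2, h3]
      exact cube_contraction (d + 1) ρ horth _
  exact key m _

/-- **Main theorem**: `7000 d²` Thorp shuffles mix `2^d` cards. -/
theorem thorp_mix (d t : ℕ) (ht : 7000 * (d + 1) ^ 2 ≤ t) :
    tvUnif (convPow (thorpLaw (2 ^ d)) t) ≤ 1 / 4 := by
  set n1 : ℝ := (Fintype.card (Equiv.Perm (Fin (2 * 2 ^ d))) : ℝ) with hn1
  have hn1pos : 0 < n1 := by
    rw [hn1]
    have := Fintype.card_pos (α := Equiv.Perm (Fin (2 * 2 ^ d)))
    exact_mod_cast this
  set m : ℕ := 7000 * (d + 1) with hm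
  have htm : (d + 1) * m ≤ t := by
    rw [hm]
    calc (d + 1) * (7000 * (d + 1)) = 7000 * (d + 1) ^ 2 := by ring
      _ ≤ t := ht
  have : Nonempty (Fin (2 * 2 ^ d)) := ⟨⟨0, by positivity⟩⟩
  have hexp : 5 * (Fintype.card (Fin (2 * 2 ^ d)) : ℝ) ^ 4 ≤
      Real.exp ((m : ℝ) * sconst (d + 1)) := by
    have h1 : (5 : ℝ) * (d + 1) ≤ (m : ℝ) * sconst (d + 1) := by
      have h0 := sconst_ge (d + 1)
      have hmR : (m : ℝ) = 7000 * ((d : ℝ) + 1) := by rw [hm, Nat.cast_mul]; norm_num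
      rw [hmR]
      calc (5 : ℝ) * (d + 1) = 7000 * ((d : ℝ) + 1) * (1 / 1400) := by ring
        _ ≤ 7000 * ((d : ℝ) + 1) * sconst (d + 1) :=
          mul_le_mul_of_nonneg_left h0 (by positivity)
    have h2 : Real.exp (5 * ((d : ℝ) + 1)) ≤ Real.exp ((m : ℝ) * sconst (d + 1)) :=
      Real.exp_le_exp.mpr h1
    refine le_trans ?_ h2
    have h3 : Real.exp (5 * ((d : ℝ) + 1)) = (Real.exp 5) ^ (d + 1) := by
      rw [← Real.exp_nat_mul]
      push_cast
      ring_nf
    have h4 : (80 : ℝ) ≤ Real.exp 5 := by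
      have h5 : Real.exp 5 = (Real.exp 1) ^ 5 := by
        rw [← Real.exp_nat_mul]; norm_num
      rw [h5]
      have h6 : (2.7 : ℝ) ≤ Real.exp 1 := by
        have := Real.exp_one_gt_d9
        linarith
      calc (80 : ℝ) ≤ 2.7 ^ 5 := by norm_num
        _ ≤ (Real.exp 1) ^ 5 := pow_le_pow_left₀ (by norm_num) h6 5
    rw [h3, Fintype.card_fin]
    push_cast
    calc (5 : ℝ) * (2 * 2 ^ d) ^ 4 = 5 * 16 ^ (d + 1) := by
          rw [show (16 : ℝ) = 2 ^ 4 by norm_num, ← pow_mul, ← pow_succ', ← pow_mul]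
          ring_nf
      _ ≤ 5 ^ (d + 1) * 16 ^ (d + 1) := by
          apply mul_le_mul_of_nonneg_right _ (by positivity)
          calc (5 : ℝ) = 5 ^ 1 := by norm_num
            _ ≤ 5 ^ (d + 1) := pow_le_pow_right₀ (by norm_num) (by omega)
      _ = 80 ^ (d + 1) := by rw [← mul_pow]; norm_num
      _ ≤ (Real.exp 5) ^ (d + 1) := pow_le_pow_left₀ (by norm_num) h4 _
  have hheat := heat_bound (Fin (2 * 2 ^ d)) ((m : ℝ) * sconst (d + 1)) hexp
  have hnorm : ‖(Top (2 ^ d) (regRep (Fin (2 * 2 ^ d))) ^ t) (delta0 (Fin (2 * 2 ^ d)))‖ ^ 2 ≤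
      1 / (4 * n1) := by
    refine le_trans ?_ hheat
    apply pow_le_pow_left₀ (norm_nonneg _)
    exact (norm_Top_pow_anti _ _ (regRep_isOrth _) _ _ _ htm).trans (norm_pow_le d m)
  refine (tv_le _ _).trans ?_
  have h7 : Real.sqrt n1 *
      ‖(Top (2 ^ d) (regRep (Fin (2 * 2 ^ d))) ^ t) (delta0 (Fin (2 * 2 ^ d)))‖ ≤ 1 / 2 := by
    apply le_of_sq_le_sq _ (by norm_num)
    rw [mul_pow, Real.sq_sqrt hn1pos.le]
    calc n1 * ‖(Top (2 ^ d) (regRep (Fin (2 * 2 ^ d))) ^ t) (delta0 (Fin (2 * 2 ^ d)))‖ ^ 2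
        ≤ n1 * (1 / (4 * n1)) := by gcongr
      _ = (1 / 2) ^ 2 := by field_simp; norm_num
  linarith

end P162
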